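import Vale.Agent.Lib.P329.helper24.Event

/-!
# P329 (helper24): definitions for block counting along a walk on `ZMod q`

* `rep`, `CounterFree`, `kill`: counter-free automata and the event-free automaton.
* `zc`: the number of occurrences of a letter read at a given phase.
* `bstep`, `bev1`, `bev2`: the block automaton over the class alphabet `Option (ZMod q)`
  (`none` is the marked letter, of weight `i`; `some j` is any other letter of weight `j`).
-/

namespace Vale.Agent.Lib.P329.helper24

open Vale.Agent.Lib.P329

variable {α : Type}

/-- `rep k u`: the word `u` repeated `k` times. -/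
def rep : ℕ → List α → List α
  | 0, _ => []
  | k + 1, u => rep k u ++ u

/-- A deterministic automaton is counter-free if every word acts aperiodically on the states. -/
def CounterFree {S : Type} (δ : S → α → S) : Prop :=
  ∀ u : List α, ∃ k : ℕ, ∀ s : S, run δ s (rep (k + 1) u) = run δ s (rep k u)

/-- The event-free automaton: every event leads to the sink `none`. -/
def kill {Q : Type} (δ : Q → α → Q) (ev : Q → α → Bool) : Option Q → α → Option Q
  | none, _ => none
  | some s, c => if ev s c then none else some (δ s c)

/-- `zcAux wt a x acc w`: the number of occurrences of the letter `a` in `w` that are read at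
phase `x`, where the phase starts at `acc` and each letter `c` adds `wt c` to it. -/
def zcAux {q : ℕ} [DecidableEq α] (wt : α → ZMod q) (a : α) (x : ZMod q) :
    ZMod q → List α → ℕ
  | _, [] => 0
  | acc, c :: w => (if c = a ∧ acc = x then 1 else 0) + zcAux wt a x (acc + wt c) w

/-- `zc wt a x w`: the number of factorizations `w = u ++ a :: v` with `(u.map wt).sum = x`. -/
def zc {q : ℕ} [DecidableEq α] (wt : α → ZMod q) (a : α) (x : ZMod q) (w : List α) : ℕ :=
  zcAux wt a x 0 w

section block

variable {q : ℕ}

/-- The weight of a letter class: `none` is the marked letter, of weight `i`. -/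
def kwt (i : ZMod q) : Option (ZMod q) → ZMod q
  | none => i
  | some j => j

/-- The block automaton.  A state is a phase (relative to the hub phase `0`) and a mode:
`0` = the current block began with the marked letter and all its letters of nonzero weight so far
are marked, `1` = it began with the marked letter and contains another letter of nonzero weight,
`2` = anything else.  All states of phase `0` behave in the same way; `(0, 2)` is the hub. -/
def bstep (i : ZMod q) (s : ZMod q × Fin 3) (k : Option (ZMod q)) : ZMod q × Fin 3 :=
  if s.1 = 0 then
    (if kwt i k = 0 then (0, 2) else (kwt i k, if k = none then 0 else 2))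
  else if s.1 + kwt i k = 0 then (0, 2)
  else (s.1 + kwt i k, if s.2 = 0 then (if k = none ∨ kwt i k = 0 then 0 else 1) else s.2)

/-- First kind of event: a letter of weight zero other than the marked one read at the hub, or
the completion of a block of mode `2`, or the completion of a block of mode `0` by the marked
letter. -/
def bev1 (i : ZMod q) (s : ZMod q × Fin 3) (k : Option (ZMod q)) : Bool :=
  if s.1 = 0 then decide (kwt i k = 0 ∧ k ≠ none)
  else decide (s.1 + kwt i k = 0 ∧ ((s.2 = 0 ∧ k = none) ∨ s.2 = 2))

/-- Second kind of event: a letter of weight zero read at the hub, or the completion of a block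
by a letter other than the marked one, or the completion of a block of mode `0`. -/
def bev2 (i : ZMod q) (s : ZMod q × Fin 3) (k : Option (ZMod q)) : Bool :=
  if s.1 = 0 then decide (kwt i k = 0)
  else decide (s.1 + kwt i k = 0 ∧ (k ≠ none ∨ s.2 = 0))

/-- The tail indicator of a state: phase nonzero and mode `0` or `1`. -/
def btail (s : ZMod q × Fin 3) : ℕ := if s.1 ≠ 0 ∧ s.2 ≠ 2 then 1 else 0

end block

/-- The local counting identity for `q = 3`. -/
theorem blocal3 : ∀ (i : ZMod 3) (s : ZMod 3 × Fin 3) (k : Option (ZMod 3)),
    (if k = none ∧ s.1 = 0 then 1 else 0) + (if bev1 i s k then 1 else 0) + btail s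
      = (if k = none ∧ s.1 + i = 0 ∧ i ≠ 0 then 1 else 0) + (if bev2 i s k then 1 else 0)
        + btail (bstep i s k) := by
  decide

theorem bland3 : ∀ (i : ZMod 3) (s : ZMod 3 × Fin 3) (k : Option (ZMod 3)),
    (bev1 i s k = true → bstep i s k = (0, 2)) ∧ (bev2 i s k = true → bstep i s k = (0, 2)) := by
  decide

end Vale.Agent.Lib.P329.helper24
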