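import Vale.Agent.Lib.P329.Schutz
import Vale.Agent.Lib.P329.helper24.BlockDefs

/-!
# P329 (helper24): counter-free automata recognize star-free languages

The automaton form of the theorem of Schutzenberger, and its combination with the hub-event
lemma.
-/

namespace Vale.Agent.Lib.P329.helper24

open Vale.Agent.Lib.P329

variable {α : Type} {S : Type}

/-- The action of a word on the states, as a map. -/
def wfun (δ : S → α → S) (w : List α) : Function.End S := fun s => run δ s w

theorem wfun_append (δ : S → α → S) (u v : List α) :
    wfun δ (u ++ v) = wfun δ v * wfun δ u := by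
  funext s
  exact run_append δ s u v

/-- The action of a word on the states, as an element of the opposite of the monoid of maps. -/
def wact (δ : S → α → S) (w : List α) : (Function.End S)ᵐᵒᵖ := MulOpposite.op (wfun δ w)

theorem wact_nil (δ : S → α → S) : wact δ ([] : List α) = 1 := rfl

theorem wact_append (δ : S → α → S) (u v : List α) :
    wact δ (u ++ v) = wact δ u * wact δ v := by
  unfold wact
  rw [wfun_append, MulOpposite.op_mul]

theorem wact_rep (δ : S → α → S) (u : List α) (k : ℕ) : wact δ (rep k u) = wact δ u ^ k := by
  induction k with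
  | zero => rfl
  | succ k ih => rw [rep, wact_append, ih, pow_succ]

theorem wact_prod (δ : S → α → S) (w : List α) :
    (w.map (fun a => wact δ [a])).prod = wact δ w := by
  induction w with
  | nil => rfl
  | cons a w ih =>
    rw [List.map_cons, List.prod_cons, ih, ← wact_append]
    rfl

/-- The submonoid of all actions of words. -/
def actSub (δ : S → α → S) : Submonoid (Function.End S)ᵐᵒᵖ where
  carrier := {x | ∃ w, x = wact δ w}
  one_mem' := ⟨[], rfl⟩
  mul_mem' := by
    rintro _ _ ⟨u, rfl⟩ ⟨v, rfl⟩
    exact ⟨u ++ v, (wact_append δ u v).symm⟩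

/-- Counter-free automata recognize star-free languages. -/
theorem counterfree_HLE [Fintype S] [Fintype α] (δ : S → α → S) (hcf : CounterFree δ)
    (s t : S) : HLE 0 ({w | run δ s w = t} : Language α) := by
  classical
  have : Finite (Function.End S) := (inferInstance : Finite (S → S))
  have : Finite (Function.End S)ᵐᵒᵖ := Finite.of_equiv _ MulOpposite.opEquiv
  let N := actSub δ
  have : Fintype N := Fintype.ofFinite N
  have hap : ∀ x : N, ∃ n : ℕ, x ^ n = x ^ (n + 1) := by
    rintro ⟨x, u, rfl⟩
    obtain ⟨k, hk⟩ := hcf u
    refine ⟨k, ?_⟩
    apply Subtype.ext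
    rw [SubmonoidClass.coe_pow, SubmonoidClass.coe_pow]
    show wact δ u ^ k = wact δ u ^ (k + 1)
    rw [← wact_rep, ← wact_rep]
    unfold wact
    congr 1
    funext s
    exact (hk s).symm
  let φ : α → N := fun a => ⟨wact δ [a], [a], rfl⟩
  have hφ : ∀ w : List α, ((w.map φ).prod : (Function.End S)ᵐᵒᵖ) = wact δ w := by
    intro w
    rw [Submonoid.coe_list_prod, List.map_map]
    exact wact_prod δ w
  have h1 := HLE.exists (n := 0) (fun x : N => MulOpposite.unop (x : (Function.End S)ᵐᵒᵖ) s = t)
    (fun x => ({w : List α | (w.map φ).prod = x} : Language α))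
    (fun x _ => schutzenberger hap φ x)
  refine h1.congr ?_
  intro w
  constructor
  · intro hw
    refine ⟨(w.map φ).prod, ?_, rfl⟩
    rw [hφ]
    exact hw
  · rintro ⟨x, hx, hw⟩
    have hw' : (w.map φ).prod = x := hw
    rw [← hw', hφ] at hx
    exact hx

theorem kill_none (δ : S → α → S) (ev : S → α → Bool) (w : List α) :
    run (kill δ ev) none w = none := by
  induction w with
  | nil => rfl
  | cons c w ih => exact ih

theorem kill_run (δ : S → α → S) (ev : S → α → Bool) (p q : S) (w : List α) :
    run (kill δ ev) (some p) w = some q ↔ (nev δ ev p w ∧ run δ p w = q) := by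
  induction w generalizing p with
  | nil => simp [nev]
  | cons c w ih =>
    rw [run_cons]
    cases hc : ev p c
    · have e : kill δ ev (some p) c = some (δ p c) := by simp [kill, hc]
      rw [e, ih]
      simp [nev, hc]
    · have e : kill δ ev (some p) c = none := by simp [kill, hc]
      rw [e, kill_none]
      simp [nev, hc]

/-- If the event-free automaton is counter-free, then the final state and the number of events
modulo `n` form a good function of the word. -/
theorem Good.of_counterfree [Fintype S] [Fintype α] (δ : S → α → S) (ev : S → α → Bool) (h : S)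
    (hland : ∀ s c, ev s c = true → δ s c = h) (hcf : CounterFree (kill δ ev))
    (n : ℕ) [NeZero n] (p : S) :
    Good (fun w : List α => (run δ p w, ((ecount δ ev p w : ℕ) : ZMod n))) := by
  refine Good.of_hub_event δ ev h hland ?_ n p
  intro p q
  exact (counterfree_HLE (kill δ ev) hcf (some p) (some q)).congr
    (fun w => (kill_run δ ev p q w).symm)

end Vale.Agent.Lib.P329.helper24
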