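import Vale.Agent.Lib.P329.helper24.QZoneDefs

/-!
# P329: group assembly for an abelian normal subgroup with an arbitrary quotient

If `A` is an abelian normal subgroup of a finite group `G`, then the value of a word under a
morphism to `G` is determined by its image in `G ⧸ A` together with the numbers, modulo the
order of `G`, of occurrences of each letter read at each phase of the walk on `G ⧸ A`.
-/

namespace Vale.Agent.Lib.P329.helper24

open Vale.Agent.Lib.P329
open scoped IsMulCommutative

section zone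

variable {α : Type} [Fintype α] {Q : Type} [Monoid Q] [Fintype Q]

/-- In a commutative monoid: the product of `f x ℓ` over all occurrences of a letter `ℓ` read
at phase `x`, the phase starting at `acc`. -/
noncomputable def ak_prod {C : Type} [CommMonoid C] (wt : α → Q) (f : Q → α → C) (acc : Q)
    (w : List α) : C :=
  ∏ x : Q, ∏ ℓ : α, f x ℓ ^ mzcAux wt ℓ x acc w

theorem ak_prod_nil {C : Type} [CommMonoid C] (wt : α → Q) (f : Q → α → C)
    (acc : Q) : ak_prod wt f acc [] = 1 := by
  simp [ak_prod, mzcAux]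

theorem ak_prod_cons {C : Type} [CommMonoid C] (wt : α → Q) (f : Q → α → C)
    (acc : Q) (ℓ0 : α) (w : List α) :
    ak_prod wt f acc (ℓ0 :: w) = f acc ℓ0 * ak_prod wt f (acc * wt ℓ0) w := by
  classical
  unfold ak_prod
  simp only [mzcAux, pow_add, Finset.prod_mul_distrib]
  congr 1
  rw [Finset.prod_eq_single acc, Finset.prod_eq_single ℓ0]
  · simp
  · intro b _ hb
    simp [Ne.symm hb]
  · intro h
    exact absurd (Finset.mem_univ _) h
  · intro b _ hb
    apply Finset.prod_eq_one
    intro ℓ _
    simp [Ne.symm hb]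
  · intro h
    exact absurd (Finset.mem_univ _) h

end zone

theorem ak_pow_eq_of_natCast_eq {H : Type} [Monoid H] (y : H) (N : ℕ) (hy : y ^ N = 1)
    {a b : ℕ} (h : ((a : ℕ) : ZMod N) = ((b : ℕ) : ZMod N)) : y ^ a = y ^ b := by
  have h' : a % N = b % N := (ZMod.natCast_eq_natCast_iff' a b N).1 h
  rw [pow_eq_pow_mod a hy, pow_eq_pow_mod b hy, h']

/-- Group assembly: if the phase counts of the walk on `G ⧸ A` are good modulo the order of
`G` and the image of the word in `G ⧸ A` is good, then every language recognized by `G` has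
generalized star height at most one, when `A` is an abelian normal subgroup of `G`. -/
theorem abelian_kernel_of_zone {G : Type} [Group G] [Finite G] (A : Subgroup G) [A.Normal]
    (hA : ∀ a ∈ A, ∀ b ∈ A, a * b = b * a) {α : Type} [Fintype α] (φ : α → G)
    (hz : ∀ (a : α) (x : G ⧸ A),
      GoodN (Nat.card G) (mzc (fun c => (φ c : G ⧸ A)) a x))
    (hend : Good (fun w : List α => (((w.map φ).prod : G) : G ⧸ A)))
    (T : Set G) : HLE 1 ({w | (w.map φ).prod ∈ T} : Language α) := by
  classical
  have : IsMulCommutative A := ⟨⟨fun a b => Subtype.ext (hA a a.2 b b.2)⟩⟩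
  have : Fintype (G ⧸ A) := Fintype.ofFinite _
  obtain ⟨wt, hwt⟩ : ∃ wt : α → G ⧸ A, wt = fun c => (φ c : G ⧸ A) := ⟨_, rfl⟩
  obtain ⟨s, hs⟩ : ∃ s : G ⧸ A → G, ∀ x, ((s x : G) : G ⧸ A) = x :=
    ⟨fun x => Quotient.out x, fun x => QuotientGroup.out_eq' x⟩
  have hdmem : ∀ (x : G ⧸ A) (c : α), s x * φ c * (s (x * wt c))⁻¹ ∈ A := by
    intro x c
    apply (QuotientGroup.eq_one_iff _).1
    rw [QuotientGroup.mk_mul, QuotientGroup.mk_mul, QuotientGroup.mk_inv, hs, hs, hwt]
    exact mul_inv_cancel _
  obtain ⟨dA, hdA⟩ : ∃ dA : G ⧸ A → α → A,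
      ∀ x c, (dA x c : G) = s x * φ c * (s (x * wt c))⁻¹ :=
    ⟨fun x c => ⟨_, hdmem x c⟩, fun _ _ => rfl⟩
  have hmain : ∀ (w : List α) (acc : G ⧸ A), s acc * (w.map φ).prod =
      ((ak_prod wt dA acc w : A) : G) * s (acc * (((w.map φ).prod : G) : G ⧸ A)) := by
    intro w
    induction w with
    | nil =>
      intro acc
      simp [ak_prod_nil]
    | cons ℓ w ih =>
      intro acc
      have h2 := ih (acc * wt ℓ)
      have hq : acc * (((List.map φ (ℓ :: w)).prod : G) : G ⧸ A) =
          acc * wt ℓ * (((w.map φ).prod : G) : G ⧸ A) := by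
        rw [List.map_cons, List.prod_cons, QuotientGroup.mk_mul, hwt, mul_assoc]
      rw [hq, ak_prod_cons, Subgroup.coe_mul, hdA, mul_assoc _ _ (s _), ← h2, List.map_cons,
        List.prod_cons]
      group
  have hprod : ∀ w : List α, (w.map φ).prod =
      (s 1)⁻¹ * ((ak_prod wt dA 1 w : A) : G) * s ((((w.map φ).prod : G) : G ⧸ A)) := by
    intro w
    have h := hmain w 1
    rw [one_mul] at h
    rw [mul_assoc, ← h, inv_mul_cancel_left]
  have hgood : Good (fun w : List α => (w.map φ).prod) := by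
    have h1 : Good (fun w : List α => fun p : α × (G ⧸ A) =>
        ((mzc wt p.1 p.2 w : ℕ) : ZMod (Nat.card G))) :=
      Good.pi _ (fun p => by rw [hwt]; exact hz p.1 p.2)
    refine (h1.pair hend).of_det _ ?_
    intro w w' h
    have ha := congrArg Prod.fst h
    have hb : (((w.map φ).prod : G) : G ⧸ A) = (((w'.map φ).prod : G) : G ⧸ A) :=
      congrArg Prod.snd h
    have hh : ∀ (ℓ : α) (x : G ⧸ A), ((mzcAux wt ℓ x 1 w : ℕ) : ZMod (Nat.card G)) =
        ((mzcAux wt ℓ x 1 w' : ℕ) : ZMod (Nat.card G)) := fun ℓ x => congrFun ha (ℓ, x)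
    have hAone : ∀ y : A, y ^ Nat.card G = 1 := by
      intro y
      apply Subtype.ext
      rw [Subgroup.coe_pow, Subgroup.coe_one]
      exact pow_card_eq_one'
    have e1 : ak_prod wt dA 1 w = ak_prod wt dA 1 w' := by
      unfold ak_prod
      refine Finset.prod_congr rfl (fun x _ => Finset.prod_congr rfl (fun ℓ _ => ?_))
      exact ak_pow_eq_of_natCast_eq (dA x ℓ) (Nat.card G) (hAone _) (hh ℓ x)
    show (w.map φ).prod = (w'.map φ).prod
    rw [hprod w, hprod w', e1, hb]
  have hlev := (hgood.comp (fun y => y ∈ T)).level True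
  refine hlev.congr ?_
  intro w
  show (w.map φ).prod ∈ T ↔ ((w.map φ).prod ∈ T) = True
  simp

end Vale.Agent.Lib.P329.helper24
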