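import Mathlib

/-!
# P329 (helper24): the block product of two monoids

`BlockProd K N` is the block product (two-sided semidirect product) `K □ N` of Rhodes and
Tilson: its elements are the pairs `(f, n)` with `f : N × N → K` and `n : N`, and
`(f, n) * (f', n') = (fun (x, y) => f (x, n' * y) * f' (x * n, y), n * n')`.
-/

namespace Vale.Agent.Lib.P329

/-- The block product `K □ N`: pairs `(fn, base)` with `fn : N × N → K` and `base : N`. -/
structure BlockProd (K N : Type) where
  fn : N × N → K
  base : N

namespace BlockProd

variable {K N : Type} [Monoid K] [Monoid N]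

/-- `(f, n) * (f', n') = (fun (x, y) => f (x, n' * y) * f' (x * n, y), n * n')`. -/
instance : Mul (BlockProd K N) :=
  ⟨fun a b => ⟨fun p => a.fn (p.1, b.base * p.2) * b.fn (p.1 * a.base, p.2), a.base * b.base⟩⟩

/-- The unit `(fun _ => 1, 1)`. -/
instance : One (BlockProd K N) := ⟨⟨fun _ => 1, 1⟩⟩

instance : Monoid (BlockProd K N) where
  mul_assoc a b c := by
    show (⟨_, _⟩ : BlockProd K N) = ⟨_, _⟩
    congr 1
    · funext p
      show a.fn (p.1, b.base * (c.base * p.2)) * b.fn (p.1 * a.base, c.base * p.2)
          * c.fn (p.1 * (a.base * b.base), p.2)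
        = a.fn (p.1, b.base * c.base * p.2)
          * (b.fn (p.1 * a.base, c.base * p.2) * c.fn (p.1 * a.base * b.base, p.2))
      rw [mul_assoc, mul_assoc b.base, mul_assoc p.1]
    · exact mul_assoc _ _ _
  one_mul a := by
    show (⟨_, _⟩ : BlockProd K N) = a
    cases a with
    | mk f n =>
      congr 1
      · funext p
        show (1 : K) * f (p.1 * 1, p.2) = f p
        rw [one_mul, mul_one]
      · exact one_mul n
  mul_one a := by
    show (⟨_, _⟩ : BlockProd K N) = a
    cases a with
    | mk f n =>
      congr 1
      · funext p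
        show f (p.1, 1 * p.2) * (1 : K) = f p
        rw [mul_one, one_mul]
      · exact mul_one n

end BlockProd

end Vale.Agent.Lib.P329
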