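import Vale.Agent.Lib.P329.helper24.Good

/-!
# P329 (helper24): the hub-event lemma

A deterministic automaton `δ` with a distinguished state `h` and a set `ev` of transitions
(the events), all of which lead to `h`.  If the event-free behaviour is star-free, then the
number of events along a run, counted modulo `n`, together with the final state, is given by
languages of generalized star height at most one.
-/

namespace Vale.Agent.Lib.P329.helper24

open Vale.Agent.Lib.P329

variable {α : Type} {Q : Type}

/-- No event occurs along the run from `p` on `w`. -/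
def nev (δ : Q → α → Q) (ev : Q → α → Bool) : Q → List α → Prop
  | _, [] => True
  | p, c :: w => ev p c = false ∧ nev δ ev (δ p c) w

/-- The number of events along the run from `p` on `w`. -/
def ecount (δ : Q → α → Q) (ev : Q → α → Bool) : Q → List α → ℕ
  | _, [] => 0
  | p, c :: w => (if ev p c then 1 else 0) + ecount δ ev (δ p c) w

section basic

variable (δ : Q → α → Q) (ev : Q → α → Bool)

theorem ecount_append (p : Q) (u v : List α) :
    ecount δ ev p (u ++ v) = ecount δ ev p u + ecount δ ev (run δ p u) v := by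
  induction u generalizing p with
  | nil => simp [ecount]
  | cons c u ih =>
    simp only [List.cons_append, ecount, run_cons, ih]
    omega

theorem nev_append (p : Q) (u v : List α) :
    nev δ ev p (u ++ v) ↔ nev δ ev p u ∧ nev δ ev (run δ p u) v := by
  induction u generalizing p with
  | nil => simp [nev]
  | cons c u ih =>
    simp only [List.cons_append, nev, run_cons, ih, and_assoc]

theorem ecount_eq_zero_iff (p : Q) (w : List α) : ecount δ ev p w = 0 ↔ nev δ ev p w := by
  induction w generalizing p with
  | nil => simp [ecount, nev]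
  | cons c w ih =>
    simp only [ecount, nev]
    cases hc : ev p c
    · simp [ih]
    · simp

/-- Event-free paths from `p` to `q`. -/
def evK (p q : Q) : Language α := {w | nev δ ev p w ∧ run δ p w = q}

/-- An event-free path from `p` followed by one event. -/
def evY (p : Q) : Language α :=
  {w | ∃ u c, w = u ++ [c] ∧ nev δ ev p u ∧ ev (run δ p u) c = true}

/-- Every run is event-free or starts with an event-free path followed by an event. -/
theorem ev_decomp (p : Q) (w : List α) :
    nev δ ev p w ∨ ∃ y v, w = y ++ v ∧ y ∈ evY δ ev p := by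
  induction w generalizing p with
  | nil => left; trivial
  | cons c w ih =>
    cases hc : ev p c
    · rcases ih (δ p c) with h1 | ⟨y, v, rfl, u, c₁, rfl, h2, h3⟩
      · left
        exact ⟨hc, h1⟩
      · right
        exact ⟨c :: (u ++ [c₁]), v, rfl, c :: u, c₁, rfl, ⟨hc, h2⟩, h3⟩
    · right
      exact ⟨[c], w, rfl, [], c, rfl, trivial, hc⟩

variable (h : Q) (hland : ∀ s c, ev s c = true → δ s c = h)

include hland

theorem evY_run {p : Q} {y : List α} (hy : y ∈ evY δ ev p) :
    run δ p y = h ∧ ecount δ ev p y = 1 := by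
  obtain ⟨u, c, rfl, h2, h3⟩ := hy
  constructor
  · rw [run_append]
    exact hland _ _ h3
  · rw [ecount_append, (ecount_eq_zero_iff δ ev p u).2 h2]
    simp [ecount, h3]

theorem evY_pow_run (j : ℕ) {y : List α} (hy : y ∈ (evY δ ev h) ^ j) :
    run δ h y = h ∧ ecount δ ev h y = j := by
  induction j generalizing y with
  | zero =>
    rw [pow_zero] at hy
    have : y = [] := (Language.mem_one y).1 hy
    subst this
    exact ⟨rfl, rfl⟩
  | succ j ih =>
    rw [pow_succ'] at hy
    obtain ⟨a, ha, b, hb, rfl⟩ := Language.mem_mul.1 hy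
    have h1 := evY_run δ ev h hland ha
    have h2 := ih hb
    constructor
    · rw [run_append, h1.1]
      exact h2.1
    · rw [ecount_append, h1.1, h1.2, h2.2]
      omega

/-- Runs from `h` with exactly `j` events. -/
theorem exact_count (q : Q) (j : ℕ) (w : List α) :
    (run δ h w = q ∧ ecount δ ev h w = j) ↔ w ∈ (evY δ ev h) ^ j * evK δ ev h q := by
  induction j generalizing w with
  | zero =>
    rw [pow_zero, one_mul]
    constructor
    · rintro ⟨h1, h2⟩
      exact ⟨(ecount_eq_zero_iff δ ev h w).1 h2, h1⟩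
    · rintro ⟨h1, h2⟩
      exact ⟨h2, (ecount_eq_zero_iff δ ev h w).2 h1⟩
  | succ j ih =>
    rw [pow_succ', mul_assoc]
    constructor
    · rintro ⟨h1, h2⟩
      rcases ev_decomp δ ev h w with h3 | ⟨y, v, rfl, hy⟩
      · have := (ecount_eq_zero_iff δ ev h w).2 h3
        omega
      · have h4 := evY_run δ ev h hland hy
        refine Language.mem_mul.2 ⟨y, hy, v, (ih v).1 ⟨?_, ?_⟩, rfl⟩
        · rw [run_append, h4.1] at h1
          exact h1
        · rw [ecount_append, h4.1, h4.2] at h2
          omega
    · intro hw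
      obtain ⟨y, hy, v, hv, rfl⟩ := Language.mem_mul.1 hw
      have h4 := evY_run δ ev h hland hy
      have h5 := (ih v).2 hv
      constructor
      · rw [run_append, h4.1]
        exact h5.1
      · rw [ecount_append, h4.1, h4.2, h5.2]
        omega

theorem flatten_pow_run (n : ℕ) (S : List (List α)) (hS : ∀ y ∈ S, y ∈ (evY δ ev h) ^ n) :
    run δ h S.flatten = h ∧ ecount δ ev h S.flatten % n = 0 := by
  induction S with
  | nil => exact ⟨rfl, by simp [ecount]⟩
  | cons y S ih =>
    have h1 := evY_pow_run δ ev h hland n (hS y (by simp))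
    have h2 := ih (fun y' hy' => hS y' (by simp [hy']))
    constructor
    · rw [List.flatten_cons, run_append, h1.1]
      exact h2.1
    · rw [List.flatten_cons, ecount_append, h1.1, h1.2, Nat.add_mod, h2.2]
      simp

theorem kstar_pow_run (n : ℕ) {x : List α} (hx : x ∈ KStar.kstar ((evY δ ev h) ^ n)) :
    run δ h x = h ∧ ecount δ ev h x % n = 0 := by
  obtain ⟨S, rfl, hS⟩ := Language.mem_kstar.1 hx
  exact flatten_pow_run δ ev h hland n S hS

/-- Runs from `h` whose number of events is `r` modulo `n`. -/
theorem mod_count (q : Q) (n r : ℕ) (hr : r < n) (w : List α) :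
    (run δ h w = q ∧ ecount δ ev h w % n = r) ↔
      w ∈ KStar.kstar ((evY δ ev h) ^ n) * ((evY δ ev h) ^ r * evK δ ev h q) := by
  constructor
  · rintro ⟨h1, h2⟩
    obtain ⟨c, hc⟩ : ∃ c, ecount δ ev h w = c := ⟨_, rfl⟩
    induction c using Nat.strong_induction_on generalizing w with
    | _ c ih =>
      by_cases hcn : c < n
      · have hcr : c = r := by
          rw [hc, Nat.mod_eq_of_lt hcn] at h2
          exact h2
        subst hcr
        exact Language.mem_mul.2 ⟨[], Language.nil_mem_kstar _, w,
          (exact_count δ ev h hland q c w).1 ⟨h1, hc⟩, rfl⟩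
      · have hw := (exact_count δ ev h hland q c w).1 ⟨h1, hc⟩
        have hcn' : c = n + (c - n) := by omega
        rw [hcn', pow_add, mul_assoc] at hw
        obtain ⟨y, hy, v, hv, rfl⟩ := Language.mem_mul.1 hw
        have h3 := (exact_count δ ev h hland q (c - n) v).2 hv
        have h4 : ecount δ ev h v % n = r := by
          rw [h3.2]
          rw [hc, hcn', Nat.add_mod_left] at h2
          exact h2
        have h5 := ih (c - n) (by omega) v h3.1 h4 h3.2
        obtain ⟨x, hx, e, he, rfl⟩ := Language.mem_mul.1 h5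
        refine Language.mem_mul.2 ⟨y ++ x, kstar_cons hy hx, e, he, by simp⟩
  · intro hw
    obtain ⟨x, hx, e, he, rfl⟩ := Language.mem_mul.1 hw
    have h1 := kstar_pow_run δ ev h hland n hx
    have h2 := (exact_count δ ev h hland q r e).2 he
    constructor
    · rw [run_append, h1.1]
      exact h2.1
    · rw [ecount_append, h1.1, h2.2, Nat.add_mod, h1.2, zero_add, Nat.mod_mod,
        Nat.mod_eq_of_lt hr]

end basic

theorem HLE_pow {L : Language α} (hL : HLE 0 L) (j : ℕ) : HLE 0 (L ^ j) := by
  induction j with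
  | zero =>
    rw [pow_zero]
    exact HLE.one 0
  | succ j ih =>
    rw [pow_succ]
    exact ih.mul hL

section main

variable [Fintype α] [Fintype Q] (δ : Q → α → Q) (ev : Q → α → Bool) (h : Q)
  (hland : ∀ s c, ev s c = true → δ s c = h)
  (hK : ∀ p q, HLE 0 (evK δ ev p q))

include hland hK

omit hland in
theorem HLE_evY (p : Q) : HLE 0 (evY δ ev p) := by
  have h1 := HLE.exists (n := 0) (fun i : Q × α => ev i.1 i.2 = true) _
    (fun i _ => (hK p i.1).mul (HLE.letter 0 i.2))
  refine h1.congr ?_
  intro w
  constructor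
  · rintro ⟨u, c, rfl, h2, h3⟩
    exact ⟨(run δ p u, c), h3, Language.mem_mul.2 ⟨u, ⟨h2, rfl⟩, [c], rfl, rfl⟩⟩
  · rintro ⟨i, h3, hmem⟩
    obtain ⟨u, ⟨h2, h4⟩, y, hy, rfl⟩ := Language.mem_mul.1 hmem
    have hy' : y = [i.2] := hy
    subst hy'
    refine ⟨u, i.2, rfl, h2, ?_⟩
    rw [h4]
    exact h3

/-- The hub-event lemma: the final state together with the number of events modulo `n`. -/
theorem hub_event (n : ℕ) (r : ℕ) (hr : r < n) (p q : Q) :
    HLE 1 ({w | run δ p w = q ∧ ecount δ ev p w % n = r} : Language α) := by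
  have hY : ∀ p, HLE 0 (evY δ ev p) := HLE_evY δ ev hK
  have hHub : ∀ r' : ℕ, r' < n → HLE 1 ({w | run δ h w = q ∧ ecount δ ev h w % n = r'} :
      Language α) := by
    intro r' hr'
    have h1 : HLE 1 (KStar.kstar ((evY δ ev h) ^ n) * ((evY δ ev h) ^ r' * evK δ ev h q)) :=
      (HLE_pow (hY h) n).star.mul (((HLE_pow (hY h) r').mul (hK h q)).mono (Nat.zero_le 1))
    exact h1.congr (fun w => mod_count δ ev h hland q n r' hr' w)
  have hn : 0 < n := by omega
  have hr1 : (r + n - 1) % n < n := Nat.mod_lt _ hn
  have h1 : HLE 1 ({w | r = 0 ∧ w ∈ evK δ ev p q} : Language α) :=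
    ((HLE.const 1 (r = 0)).inter ((hK p q).mono (Nat.zero_le 1))).congr (fun w => Iff.rfl)
  have h2 := ((hY p).mono (Nat.zero_le 1)).mul (hHub _ hr1)
  refine (h1.add h2).congr ?_
  intro w
  constructor
  · rintro ⟨hq, hc⟩
    rcases ev_decomp δ ev p w with h3 | ⟨y, v, rfl, hy⟩
    · refine (Language.mem_add _ _ _).2 (Or.inl ⟨?_, h3, hq⟩)
      rw [(ecount_eq_zero_iff δ ev p w).2 h3, Nat.zero_mod] at hc
      exact hc.symm
    · have h4 := evY_run δ ev h hland hy
      refine (Language.mem_add _ _ _).2 (Or.inr (Language.mem_mul.2 ⟨y, hy, v, ⟨?_, ?_⟩, rfl⟩))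
      · rw [run_append, h4.1] at hq
        exact hq
      · rw [ecount_append, h4.1, h4.2] at hc
        have e1 : (r + n - 1) % n = ((1 + ecount δ ev h v) % n + n - 1) % n := by rw [hc]
        rw [e1]
        have e2 : (1 + ecount δ ev h v) % n + n - 1
            = (1 + ecount δ ev h v) % n + (n - 1) := by omega
        rw [e2, Nat.add_mod, Nat.mod_mod, ← Nat.add_mod]
        have e3 : 1 + ecount δ ev h v + (n - 1) = ecount δ ev h v + n := by omega
        rw [e3, Nat.add_mod_right]
  · intro hw
    rcases (Language.mem_add _ _ _).1 hw with ⟨h3, h4, h5⟩ | hmem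
    · refine ⟨h5, ?_⟩
      rw [(ecount_eq_zero_iff δ ev p w).2 h4, Nat.zero_mod]
      exact h3.symm
    · obtain ⟨y, hy, v, ⟨h5, h6⟩, rfl⟩ := Language.mem_mul.1 hmem
      have h4 := evY_run δ ev h hland hy
      constructor
      · show run δ p (y ++ v) = q
        rw [run_append, h4.1]
        exact h5
      · show ecount δ ev p (y ++ v) % n = r
        rw [ecount_append, h4.1, h4.2, Nat.add_mod, h6, ← Nat.add_mod]
        have e3 : 1 + (r + n - 1) = r + n := by omega
        rw [e3, Nat.add_mod_right, Nat.mod_eq_of_lt hr]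

/-- The final state and the number of events modulo `n` form a good function of the word. -/
theorem Good.of_hub_event (n : ℕ) [NeZero n] (p : Q) :
    Good (fun w : List α => (run δ p w, ((ecount δ ev p w : ℕ) : ZMod n))) := by
  have hn : 0 < n := Nat.pos_of_ne_zero (NeZero.ne n)
  refine ⟨Q × Fin n, inferInstance,
    fun i => {w | run δ p w = i.1 ∧ ecount δ ev p w % n = i.2.val},
    fun i => hub_event δ ev h hland hK n i.2.val i.2.isLt p i.1, ?_⟩
  intro w w' hw
  have h1 := (hw (run δ p w, ⟨ecount δ ev p w % n, Nat.mod_lt _ hn⟩)).1 ⟨rfl, rfl⟩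
  have h2 : ((ecount δ ev p w : ℕ) : ZMod n) = ((ecount δ ev p w' : ℕ) : ZMod n) := by
    rw [ZMod.natCast_eq_natCast_iff']
    exact h1.2.symm
  exact Prod.ext h1.1.symm h2

end main

end Vale.Agent.Lib.P329.helper24
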