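import Vale.Agent.Lib.P329.Schutz
import Vale.Agent.Lib.P329.helper24.Event

/-!
# P329 (helper24): two-sided modular counting over an aperiodic monoid

Let `φ` be a morphism from words to a finite aperiodic monoid `M`.  For a letter `a` and
`m m' : M`, a position of a word `w` is *counted* when it carries the letter `a`, the image of
the part of `w` before it is `m` and the image of the part after it is `m'`.  The number of
counted positions modulo `N` is given by languages of generalized star height at most one: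
cutting `w` at its counted positions gives `w = p y₁ ⋯ yⱼ k` where `p`, the `yᵢ` and `k` range
over star-free languages `LP`, `LY`, `LK`, and conversely every such product has exactly `j + 1`
counted positions.

Consequence (`block_product_height_one`): for a finite commutative group `H` and
`ψ : M → α → M → H`, the pair consisting of the image of `w` and of the product over all
positions of `ψ (image before) (letter) (image after)` is determined by finitely many languages
of generalized star height at most one.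
-/

namespace Vale.Agent.Lib.P329.helper24

open Vale.Agent.Lib.P329

section twosided

variable {α M : Type} [Monoid M] (φ : α → M)

/-- The image of a word. -/
def pr (w : List α) : M := (w.map φ).prod

theorem pr_nil : pr φ ([] : List α) = 1 := rfl

theorem pr_cons (c : α) (w : List α) : pr φ (c :: w) = φ c * pr φ w := by simp [pr]

theorem pr_append (u v : List α) : pr φ (u ++ v) = pr φ u * pr φ v := by simp [pr]

open Classical in
/-- The number of factorizations `w = u ++ a :: v` with `x * φ u = m` and `φ v * y = m'`. -/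
noncomputable def cnt2 (a : α) (m m' : M) (y : M) : M → List α → ℕ
  | _, [] => 0
  | x, c :: w => (if x = m ∧ c = a ∧ pr φ w * y = m' then 1 else 0) + cnt2 a m m' y (x * φ c) w

variable (a : α) (m m' : M)

theorem cnt2_append (y : M) (u v : List α) : ∀ x : M,
    cnt2 φ a m m' y x (u ++ v)
      = cnt2 φ a m m' (pr φ v * y) x u + cnt2 φ a m m' y (x * pr φ u) v := by
  induction u with
  | nil => intro x; simp [cnt2, pr_nil]
  | cons c u ih =>
    intro x
    simp only [List.cons_append, cnt2, ih, pr_cons]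
    rw [pr_append, mul_assoc (pr φ u), mul_assoc x]
    omega

theorem cnt2_head (y : M) (v : List α) (h : pr φ v * y = m') :
    cnt2 φ a m m' y m (a :: v) = 1 + cnt2 φ a m m' y (m * φ a) v := by
  simp [cnt2, h]

/-- Splitting at the first counted position. -/
theorem cnt2_split (y : M) : ∀ (w : List α) (x : M), cnt2 φ a m m' y x w ≠ 0 →
    ∃ p r, w = p ++ a :: r ∧ x * pr φ p = m ∧ pr φ r * y = m' ∧
      cnt2 φ a m m' (φ a * pr φ r * y) x p = 0 := by
  intro w
  induction w with
  | nil => intro x h; exact absurd rfl h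
  | cons c w ih =>
    intro x h
    by_cases hc : x = m ∧ c = a ∧ pr φ w * y = m'
    · obtain ⟨h1, h2, h3⟩ := hc
      subst h2
      exact ⟨[], w, rfl, by simp [pr_nil, h1], h3, rfl⟩
    · have h' : cnt2 φ a m m' y (x * φ c) w ≠ 0 := by
        intro h0
        apply h
        simp [cnt2, hc, h0]
      obtain ⟨p, r, rfl, h1, h2, h3⟩ := ih (x * φ c) h'
      refine ⟨c :: p, r, rfl, ?_, h2, ?_⟩
      · rw [pr_cons, ← mul_assoc]
        exact h1
      · have hc' : ¬ (x = m ∧ c = a ∧ pr φ p * (φ a * pr φ r * y) = m') := by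
          intro hh
          apply hc
          refine ⟨hh.1, hh.2.1, ?_⟩
          rw [pr_append, pr_cons]
          rw [← hh.2.2]
          simp only [mul_assoc]
        simp [cnt2, hc', h3]

theorem cnt2_eq_zero_iff (y x : M) (w : List α) :
    cnt2 φ a m m' y x w = 0 ↔
      ¬ ∃ u v, w = u ++ a :: v ∧ x * pr φ u = m ∧ pr φ v * y = m' := by
  constructor
  · rintro h ⟨u, v, rfl, h1, h2⟩
    rw [cnt2_append, h1, cnt2_head φ a m m' y v h2] at h
    omega
  · intro h
    by_contra h0
    obtain ⟨p, r, hw, h1, h2, _⟩ := cnt2_split φ a m m' y w x h0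
    exact h ⟨p, r, hw, h1, h2⟩

end twosided

section langs

variable {α M : Type} [Monoid M] (φ : α → M) (a : α) (m m' : M)

/-- Blocks between two consecutive counted positions. -/
def LY : Language α :=
  {w | ∃ u, w = a :: u ∧ m * φ a * pr φ u = m ∧ pr φ u * (φ a * m') = m' ∧
    cnt2 φ a m m' (φ a * m') (m * φ a) u = 0}

/-- The last block. -/
def LK : Language α :=
  {w | ∃ u, w = a :: u ∧ pr φ u = m' ∧ cnt2 φ a m m' 1 (m * φ a) u = 0}

/-- The part before the first counted position. -/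
def LP : Language α := {w | pr φ w = m ∧ cnt2 φ a m m' (φ a * m') 1 w = 0}

theorem tail_count (j : ℕ) : ∀ r : List α, r ∈ (LY φ a m m') ^ j * LK φ a m m' →
    pr φ r = φ a * m' ∧ cnt2 φ a m m' 1 m r = j + 1 := by
  induction j with
  | zero =>
    intro r hr
    rw [pow_zero, one_mul] at hr
    obtain ⟨u, rfl, h1, h2⟩ := hr
    refine ⟨by rw [pr_cons, h1], ?_⟩
    rw [cnt2_head φ a m m' 1 u (by rw [mul_one, h1]), h2]
  | succ j ih =>
    intro r hr
    rw [pow_succ', mul_assoc] at hr
    obtain ⟨y, hy, r2, hr2, rfl⟩ := Language.mem_mul.1 hr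
    obtain ⟨u, rfl, h1, h2, h3⟩ := hy
    obtain ⟨h4, h5⟩ := ih r2 hr2
    constructor
    · rw [pr_append, pr_cons, h4, mul_assoc, h2]
    · rw [cnt2_append, mul_one, h4, cnt2_head φ a m m' (φ a * m') u h2, h3, pr_cons,
        ← mul_assoc, h1, h5]
      omega

theorem tail_mem (j : ℕ) : ∀ u : List α, pr φ u = m' → cnt2 φ a m m' 1 (m * φ a) u = j →
    a :: u ∈ (LY φ a m m') ^ j * LK φ a m m' := by
  induction j with
  | zero =>
    intro u h1 h2
    rw [pow_zero, one_mul]
    exact ⟨u, rfl, h1, h2⟩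
  | succ j ih =>
    intro u h1 h2
    have h0 : cnt2 φ a m m' 1 (m * φ a) u ≠ 0 := by omega
    obtain ⟨p, r, rfl, h3, h4, h5⟩ := cnt2_split φ a m m' 1 u (m * φ a) h0
    rw [mul_one] at h4 h5
    rw [h4] at h5
    have h6 : cnt2 φ a m m' 1 (m * φ a) r = j := by
      rw [cnt2_append, mul_one, pr_cons, h4, h5, h3,
        cnt2_head φ a m m' 1 r (by rw [mul_one, h4])] at h2
      omega
    have hy : a :: p ∈ LY φ a m m' := by
      refine ⟨p, rfl, h3, ?_, h5⟩
      have e : pr φ p * (φ a * m') = pr φ (p ++ a :: r) := by rw [pr_append, pr_cons, h4]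
      rw [e]
      exact h1
    rw [pow_succ', mul_assoc]
    exact Language.mem_mul.2 ⟨a :: p, hy, a :: r, ih r h4 h6, by simp⟩

/-- Words with exactly `j + 1` counted positions. -/
theorem exact_cnt (j : ℕ) (w : List α) :
    cnt2 φ a m m' 1 1 w = j + 1 ↔
      w ∈ LP φ a m m' * ((LY φ a m m') ^ j * LK φ a m m') := by
  constructor
  · intro h
    have h0 : cnt2 φ a m m' 1 1 w ≠ 0 := by omega
    obtain ⟨p, r, rfl, h3, h4, h5⟩ := cnt2_split φ a m m' 1 w 1 h0
    rw [one_mul] at h3
    rw [mul_one] at h4 h5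
    rw [h4] at h5
    have h6 : cnt2 φ a m m' 1 (m * φ a) r = j := by
      rw [cnt2_append, mul_one, pr_cons, h4, h5, one_mul, h3,
        cnt2_head φ a m m' 1 r (by rw [mul_one, h4])] at h
      omega
    exact Language.mem_mul.2 ⟨p, ⟨h3, h5⟩, a :: r, tail_mem φ a m m' j r h4 h6, rfl⟩
  · intro hw
    obtain ⟨p, ⟨h1, h2⟩, r, hr, rfl⟩ := Language.mem_mul.1 hw
    obtain ⟨h4, h5⟩ := tail_count φ a m m' j r hr
    rw [cnt2_append, mul_one, h4, h2, one_mul, h1, h5]
    omega

theorem pow_mod_mem (Y K : Language α) (N r : ℕ) (hr : r < N) (x : List α) :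
    (∃ j, j % N = r ∧ x ∈ Y ^ j * K) ↔ x ∈ KStar.kstar (Y ^ N) * (Y ^ r * K) := by
  constructor
  · rintro ⟨j, hj, hx⟩
    have hj' : j = N * (j / N) + r := by
      rw [← hj]
      exact (Nat.div_add_mod j N).symm
    rw [hj', pow_add, pow_mul, mul_assoc] at hx
    obtain ⟨x1, hx1, x2, hx2, rfl⟩ := Language.mem_mul.1 hx
    refine Language.mem_mul.2 ⟨x1, ?_, x2, hx2, rfl⟩
    rw [Language.kstar_eq_iSup_pow]
    exact Language.mem_iSup.2 ⟨_, hx1⟩
  · intro hx
    obtain ⟨x1, hx1, x2, hx2, rfl⟩ := Language.mem_mul.1 hx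
    rw [Language.kstar_eq_iSup_pow] at hx1
    obtain ⟨s, hs⟩ := Language.mem_iSup.1 hx1
    refine ⟨N * s + r, ?_, ?_⟩
    · rw [Nat.mul_add_mod, Nat.mod_eq_of_lt hr]
    · rw [pow_add, pow_mul, mul_assoc]
      exact Language.mem_mul.2 ⟨x1, hs, x2, hx2, rfl⟩

theorem mod_pred {N : ℕ} (hN : 0 < N) (j r : ℕ) (h : (j + 1) % N = r) :
    j % N = (r + N - 1) % N := by
  subst h
  have e2 : (j + 1) % N + N - 1 = (j + 1) % N + (N - 1) := by omega
  rw [e2, Nat.add_mod, Nat.mod_mod, ← Nat.add_mod]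
  have e3 : j + 1 + (N - 1) = j + N := by omega
  rw [e3, Nat.add_mod_right]

theorem mod_succ_of {N : ℕ} (j r : ℕ) (hr : r < N) (h : j % N = (r + N - 1) % N) :
    (j + 1) % N = r := by
  rw [Nat.add_mod, h, ← Nat.add_mod]
  have e3 : r + N - 1 + 1 = r + N := by omega
  rw [e3, Nat.add_mod_right, Nat.mod_eq_of_lt hr]

variable [Finite M] (hM : ∀ x : M, ∃ k : ℕ, x ^ k = x ^ (k + 1)) [Fintype α]

include hM

theorem HLE_img (S : Set M) : HLE 0 ({w | pr φ w ∈ S} : Language α) := by
  classical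
  have := Fintype.ofFinite M
  have h1 := HLE.exists (n := 0) (fun p : M => p ∈ S)
    (fun p => ({w : List α | (w.map φ).prod = p} : Language α))
    (fun p _ => schutzenberger hM φ p)
  refine h1.congr ?_
  intro w
  constructor
  · intro hw
    exact ⟨pr φ w, hw, rfl⟩
  · rintro ⟨p, hp, hw⟩
    have hw' : pr φ w = p := hw
    show pr φ w ∈ S
    rw [hw']
    exact hp

theorem HLE_cnt2_zero (y x : M) :
    HLE 0 ({w | cnt2 φ a m m' y x w = 0} : Language α) := by
  have h1 := ((HLE_img φ hM {s | x * s = m}).mul (HLE.letter 0 a)).mul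
    (HLE_img φ hM {s | s * y = m'})
  refine h1.compl.congr ?_
  intro w
  rw [mem_compl_lang]
  show cnt2 φ a m m' y x w = 0 ↔ _
  rw [cnt2_eq_zero_iff]
  apply not_congr
  constructor
  · rintro ⟨u, v, rfl, h2, h3⟩
    exact Language.mem_mul.2 ⟨u ++ [a], Language.mem_mul.2 ⟨u, h2, [a], rfl, rfl⟩, v, h3,
      by simp⟩
  · intro hw
    obtain ⟨uu, huu, v, hv, rfl⟩ := Language.mem_mul.1 hw
    obtain ⟨u, hu, s, hs, rfl⟩ := Language.mem_mul.1 huu
    have hs' : s = [a] := hs
    subst hs'
    exact ⟨u, v, by simp, hu, hv⟩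

theorem HLE_LP : HLE 0 (LP φ a m m') :=
  ((HLE_img φ hM {s | s = m}).inter (HLE_cnt2_zero φ a m m' hM (φ a * m') 1)).congr
    (fun _ => Iff.rfl)

theorem HLE_LY : HLE 0 (LY φ a m m') := by
  have h1 := (HLE_img φ hM {s | m * φ a * s = m}).inter
    ((HLE_img φ hM {s | s * (φ a * m') = m'}).inter
      (HLE_cnt2_zero φ a m m' hM (φ a * m') (m * φ a)))
  refine ((HLE.letter 0 a).mul h1).congr ?_
  intro w
  constructor
  · rintro ⟨u, rfl, h2, h3, h4⟩
    exact Language.mem_mul.2 ⟨[a], rfl, u, ⟨h2, h3, h4⟩, rfl⟩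
  · intro hw
    obtain ⟨s, hs, u, ⟨h2, h3, h4⟩, rfl⟩ := Language.mem_mul.1 hw
    have hs' : s = [a] := hs
    subst hs'
    exact ⟨u, rfl, h2, h3, h4⟩

theorem HLE_LK : HLE 0 (LK φ a m m') := by
  have h1 := (HLE_img φ hM {s | s = m'}).inter
    (HLE_cnt2_zero φ a m m' hM 1 (m * φ a))
  refine ((HLE.letter 0 a).mul h1).congr ?_
  intro w
  constructor
  · rintro ⟨u, rfl, h2, h3⟩
    exact Language.mem_mul.2 ⟨[a], rfl, u, ⟨h2, h3⟩, rfl⟩
  · intro hw
    obtain ⟨s, hs, u, ⟨h2, h3⟩, rfl⟩ := Language.mem_mul.1 hw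
    have hs' : s = [a] := hs
    subst hs'
    exact ⟨u, rfl, h2, h3⟩

/-- The number of counted positions modulo `N`. -/
theorem cnt2_mod_HLE (N r : ℕ) (hr : r < N) :
    HLE 1 ({w | cnt2 φ a m m' 1 1 w % N = r} : Language α) := by
  have hN : 0 < N := by omega
  have h0 : HLE 1 ({w | r = 0 ∧ w ∈ ({w | cnt2 φ a m m' 1 1 w = 0} : Language α)} :
      Language α) :=
    ((HLE.const 1 (r = 0)).inter
      ((HLE_cnt2_zero φ a m m' hM 1 1).mono (Nat.zero_le 1))).congr (fun _ => Iff.rfl)
  have hr1 : (r + N - 1) % N < N := Nat.mod_lt _ hN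
  have h1 : HLE 1 (LP φ a m m' * (KStar.kstar ((LY φ a m m') ^ N) *
      ((LY φ a m m') ^ ((r + N - 1) % N) * LK φ a m m'))) :=
    ((HLE_LP φ a m m' hM).mono (Nat.zero_le 1)).mul
      ((HLE_pow (HLE_LY φ a m m' hM) N).star.mul
        (((HLE_pow (HLE_LY φ a m m' hM) _).mul (HLE_LK φ a m m' hM)).mono (Nat.zero_le 1)))
  refine (h0.add h1).congr ?_
  intro w
  constructor
  · intro hw
    have hw' : cnt2 φ a m m' 1 1 w % N = r := hw
    rcases Nat.eq_zero_or_pos (cnt2 φ a m m' 1 1 w) with hz | hpos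
    · refine (Language.mem_add _ _ _).2 (Or.inl ⟨?_, hz⟩)
      rw [hz, Nat.zero_mod] at hw'
      exact hw'.symm
    · obtain ⟨j, hj⟩ : ∃ j, cnt2 φ a m m' 1 1 w = j + 1 :=
        ⟨cnt2 φ a m m' 1 1 w - 1, by omega⟩
      have hmem := (exact_cnt φ a m m' j w).1 hj
      obtain ⟨p, hp, x, hx, rfl⟩ := Language.mem_mul.1 hmem
      rw [hj] at hw'
      have hjr : j % N = (r + N - 1) % N := mod_pred hN j r hw'
      exact (Language.mem_add _ _ _).2 (Or.inr (Language.mem_mul.2
        ⟨p, hp, x, (pow_mod_mem _ _ N _ hr1 x).1 ⟨j, hjr, hx⟩, rfl⟩))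
  · intro hw
    rcases (Language.mem_add _ _ _).1 hw with ⟨h3, h4⟩ | hmem
    · have h4' : cnt2 φ a m m' 1 1 w = 0 := h4
      show cnt2 φ a m m' 1 1 w % N = r
      rw [h4', Nat.zero_mod]
      exact h3.symm
    · obtain ⟨p, hp, x, hx, rfl⟩ := Language.mem_mul.1 hmem
      obtain ⟨j, hj, hxj⟩ := (pow_mod_mem _ _ N _ hr1 x).2 hx
      have h5 := (exact_cnt φ a m m' j (p ++ x)).2 (Language.mem_mul.2 ⟨p, hp, x, hxj, rfl⟩)
      show cnt2 φ a m m' 1 1 (p ++ x) % N = r
      rw [h5]
      exact mod_succ_of j r hr hj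

end langs

section blockproduct

variable {α M H : Type} [Monoid M] [CommGroup H] (φ : α → M) (ψ : M → α → M → H)

/-- The product over all positions of `ψ (x * image before) (letter) (image after)`. -/
def wprod : M → List α → H
  | _, [] => 1
  | x, c :: w => ψ x c (pr φ w) * wprod (x * φ c) w

theorem wprod_eq_prod : ∀ (w : List α) (x : M),
    wprod φ ψ x w = ∏ i : Fin w.length,
      ψ (x * pr φ (w.take i)) (w.get i) (pr φ (w.drop (i + 1))) := by
  intro w
  induction w with
  | nil => intro x; simp [wprod]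
  | cons c w ih =>
    intro x
    rw [wprod, ih]
    show _ = ∏ i : Fin (w.length + 1), _
    rw [Fin.prod_univ_succ]
    simp [pr_nil, pr_cons, mul_assoc]

theorem wprod_eq [Fintype M] [Fintype α] : ∀ (w : List α) (x : M),
    wprod φ ψ x w = ∏ t : M × α × M, ψ t.1 t.2.1 t.2.2 ^ cnt2 φ t.2.1 t.1 t.2.2 1 x w := by
  intro w
  induction w with
  | nil => intro x; simp [wprod, cnt2]
  | cons c w ih =>
    intro x
    rw [wprod, ih]
    simp only [cnt2, pow_add, Finset.prod_mul_distrib, mul_one]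
    congr 1
    rw [Finset.prod_eq_single (x, c, pr φ w)]
    · simp
    · intro t _ ht
      have hne : ¬ (x = t.1 ∧ c = t.2.1 ∧ pr φ w = t.2.2) := by
        rintro ⟨h1, h2, h3⟩
        apply ht
        rw [h1, h2, h3]
      simp [hne]
    · intro h
      exact absurd (Finset.mem_univ _) h

end blockproduct

/-- Two-sided semidirect products of a finite commutative group by a finite aperiodic monoid:
the image of the word together with the product over all positions of
`ψ (image before) (letter) (image after)`. -/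
theorem block_product_height_one {M : Type} [Monoid M] [Finite M]
    (hM : ∀ x : M, ∃ k : ℕ, x ^ k = x ^ (k + 1)) {H : Type} [CommGroup H] [Finite H]
    {α : Type} [Fintype α] (φ : α → M) (ψ : M → α → M → H) (T : Set (M × H)) :
    HLE 1 ({w : List α | ((w.map φ).prod, ∏ i : Fin w.length,
      ψ ((w.take i).map φ).prod (w.get i) ((w.drop (i + 1)).map φ).prod) ∈ T} :
        Language α) := by
  classical
  have := Fintype.ofFinite M
  have hN : 0 < Nat.card H := Nat.card_pos
  let F : M ⊕ ((M × α × M) × Fin (Nat.card H)) → Language α := fun i =>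
    match i with
    | Sum.inl p => {w | pr φ w = p}
    | Sum.inr (t, r) => {w | cnt2 φ t.2.1 t.1 t.2.2 1 1 w % Nat.card H = r.val}
  have hF : ∀ i, HLE 1 (F i) := by
    rintro (p | ⟨t, r⟩)
    · exact ((HLE_img φ hM {s | s = p}).mono (Nat.zero_le 1)).congr (fun _ => Iff.rfl)
    · exact cnt2_mod_HLE φ t.2.1 t.1 t.2.2 hM (Nat.card H) r.val r.isLt
  refine HLE.of_determined F hF _ ?_
  intro u u' huu hu
  have h1 : pr φ u' = pr φ u := (huu (Sum.inl (pr φ u))).1 rfl
  have h2 : ∀ t : M × α × M, cnt2 φ t.2.1 t.1 t.2.2 1 1 u' % Nat.card H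
      = cnt2 φ t.2.1 t.1 t.2.2 1 1 u % Nat.card H := by
    intro t
    exact (huu (Sum.inr (t, ⟨cnt2 φ t.2.1 t.1 t.2.2 1 1 u % Nat.card H,
      Nat.mod_lt _ hN⟩))).1 rfl
  have h3 : wprod φ ψ 1 u' = wprod φ ψ 1 u := by
    rw [wprod_eq, wprod_eq]
    apply Finset.prod_congr rfl
    intro t _
    rw [← pow_mod_natCard, h2 t, pow_mod_natCard]
  have e : ∀ w : List α, ((w.map φ).prod, ∏ i : Fin w.length,
      ψ ((w.take i).map φ).prod (w.get i) ((w.drop (i + 1)).map φ).prod)
        = (pr φ w, wprod φ ψ 1 w) := by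
    intro w
    rw [wprod_eq_prod]
    simp [pr]
  have hu' : ((u.map φ).prod, ∏ i : Fin u.length,
      ψ ((u.take i).map φ).prod (u.get i) ((u.drop (i + 1)).map φ).prod) ∈ T := hu
  show ((u'.map φ).prod, ∏ i : Fin u'.length,
      ψ ((u'.take i).map φ).prod (u'.get i) ((u'.drop (i + 1)).map φ).prod) ∈ T
  rw [e u', h1, h3, ← e u]
  exact hu'

/-- Counting products: the number of factorizations `w = u a v` with `φ u ∈ S` and `φ v ∈ S'`,
modulo `n`. -/
theorem counting_product_height_one {M : Type} [Monoid M] [Finite M]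
    (hM : ∀ x : M, ∃ k : ℕ, x ^ k = x ^ (k + 1)) {α : Type} [Fintype α] (φ : α → M)
    (S S' : Set M) (a : α) (n : ℕ) (hn : 0 < n) (r : ℕ) :
    HLE 1 ({w : List α | Set.ncard {i : Fin w.length | w.get i = a ∧
        ((w.take i).map φ).prod ∈ S ∧ ((w.drop (i + 1)).map φ).prod ∈ S'} % n = r % n} :
          Language α) := by
  classical
  have : NeZero n := ⟨by omega⟩
  have h := block_product_height_one hM (H := Multiplicative (ZMod n)) φ
    (fun x c y => Multiplicative.ofAdd (if c = a ∧ x ∈ S ∧ y ∈ S' then (1 : ZMod n) else 0))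
    {p | p.2 = Multiplicative.ofAdd ((r : ℕ) : ZMod n)}
  refine h.congr ?_
  intro w
  show _ ↔ (∏ i : Fin w.length, Multiplicative.ofAdd
    (if w.get i = a ∧ ((w.take i).map φ).prod ∈ S ∧ ((w.drop (i + 1)).map φ).prod ∈ S'
      then (1 : ZMod n) else 0)) = Multiplicative.ofAdd ((r : ℕ) : ZMod n)
  rw [← ofAdd_sum, Finset.sum_boole, Multiplicative.ofAdd.injective.eq_iff,
    ZMod.natCast_eq_natCast_iff']
  have e : Set.ncard {i : Fin w.length | w.get i = a ∧
        ((w.take i).map φ).prod ∈ S ∧ ((w.drop (i + 1)).map φ).prod ∈ S'}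
      = (Finset.univ.filter (fun i : Fin w.length => w.get i = a ∧
        ((w.take i).map φ).prod ∈ S ∧ ((w.drop (i + 1)).map φ).prod ∈ S')).card := by
    rw [Set.ncard_eq_toFinset_card']
    congr 1
    ext i
    simp
  show Set.ncard _ % n = r % n ↔ _
  rw [e]

end Vale.Agent.Lib.P329.helper24
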