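import Vale.Agent.Lib.P329.helper24.BProd
import Vale.Agent.Lib.P329.helper24.TwoSided

/-!
# P329 (helper24): languages recognized by block products

* `rec_blockProd_comm`: block products `H □ M` of a finite commutative group by a finite aperiodic
  monoid only recognize languages of generalized star height at most one.
* `rec_blockProd_aperiodic`: if every language recognized by `N` has height at most `h` and `K`
  is a finite aperiodic monoid, then every language recognized by `K □ N` has height at most `h`.
* `rec_prod`, `rec_of_injective`, `rec_of_surjective`: direct products, submonoids, quotients.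
-/

namespace Vale.Agent.Lib.P329.helper24

open Vale.Agent.Lib.P329

section basics

variable {K N : Type} [Monoid K] [Monoid N]

theorem BlockProd.mul_fn (a b : BlockProd K N) (p : N × N) :
    (a * b).fn p = a.fn (p.1, b.base * p.2) * b.fn (p.1 * a.base, p.2) := rfl

theorem BlockProd.mul_base (a b : BlockProd K N) : (a * b).base = a.base * b.base := rfl

theorem BlockProd.one_fn (p : N × N) : (1 : BlockProd K N).fn p = 1 := rfl

theorem BlockProd.one_base : (1 : BlockProd K N).base = 1 := rfl

omit [Monoid K] [Monoid N] in
theorem BlockProd.eq_of {a b : BlockProd K N} (h1 : a.fn = b.fn) (h2 : a.base = b.base) :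
    a = b := by
  cases a
  cases b
  simp_all

instance [Finite K] [Finite N] : Finite (BlockProd K N) :=
  Finite.of_injective (fun a : BlockProd K N => (a.fn, a.base))
    (fun _ _ h => BlockProd.eq_of (congrArg Prod.fst h) (congrArg Prod.snd h))

variable {α : Type} (φ : α → BlockProd K N)

theorem prod_base (w : List α) :
    ((w.map φ).prod).base = pr (fun a => (φ a).base) w := by
  induction w with
  | nil => rfl
  | cons c w ih =>
    rw [List.map_cons, List.prod_cons, BlockProd.mul_base, ih, pr_cons]

end basics

section comm

variable {H M : Type} [CommGroup H] [Monoid M] {α : Type} (φ : α → BlockProd H M)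

theorem prod_fn_wprod : ∀ (w : List α) (x : M) (p : M × M),
    wprod (fun a => (φ a).base) (fun x c z => fun p : M × M => (φ c).fn (p.1 * x, z * p.2)) x w p
      = ((w.map φ).prod).fn (p.1 * x, p.2) := by
  intro w
  induction w with
  | nil => intro x p; rfl
  | cons c w ih =>
    intro x p
    rw [wprod, Pi.mul_apply, ih, List.map_cons, List.prod_cons, BlockProd.mul_fn, prod_base]
    simp only [mul_assoc]

/-- Block products of a finite commutative group by a finite aperiodic monoid. -/
theorem rec_blockProd_comm [Finite H] [Finite M]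
    (hM : ∀ x : M, ∃ k : ℕ, x ^ k = x ^ (k + 1)) [Fintype α] (T : Set (BlockProd H M)) :
    HLE 1 ({w : List α | (w.map φ).prod ∈ T} : Language α) := by
  have h := block_product_height_one hM (H := M × M → H) (fun a => (φ a).base)
    (fun x c z => fun p : M × M => (φ c).fn (p.1 * x, z * p.2))
    {q : M × (M × M → H) | (⟨q.2, q.1⟩ : BlockProd H M) ∈ T}
  refine h.congr ?_
  intro w
  have e : (w.map φ).prod = (⟨∏ i : Fin w.length,
      (fun x c z => fun p : M × M => (φ c).fn (p.1 * x, z * p.2))
        ((w.take i).map (fun a => (φ a).base)).prod (w.get i)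
        ((w.drop (i + 1)).map (fun a => (φ a).base)).prod,
      (w.map (fun a => (φ a).base)).prod⟩ : BlockProd H M) := by
    apply BlockProd.eq_of
    · funext p
      have h1 := prod_fn_wprod φ w 1 p
      rw [wprod_eq_prod] at h1
      simp only [mul_one, one_mul] at h1
      rw [← h1]
      rfl
    · exact prod_base φ w
  show (w.map φ).prod ∈ T ↔ _
  rw [e]
  rfl

end comm

section closure

variable {α N : Type} [Monoid N] (ν : α → N)

/-- The word `u` with every letter tagged by the image of what precedes it (times `x` on the
left) and the image of what follows it (times `y` on the right). -/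
def ctx (y : N) : N → List α → List (N × α × N)
  | _, [] => []
  | x, c :: w => (x, c, pr ν w * y) :: ctx y (x * ν c) w

theorem ctx_append (y : N) (u v : List α) : ∀ x : N,
    ctx ν y x (u ++ v) = ctx ν (pr ν v * y) x u ++ ctx ν y (x * pr ν u) v := by
  induction u with
  | nil => intro x; simp [ctx, pr_nil]
  | cons c u ih =>
    intro x
    simp only [List.cons_append, ctx, ih, pr_cons, pr_append, mul_assoc]

theorem ctx_eq_nil (y x : N) (u : List α) : ctx ν y x u = [] ↔ u = [] := by
  cases u with
  | nil => simp [ctx]
  | cons c u => simp [ctx]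

theorem ctx_eq_append (y : N) : ∀ (w : List α) (x : N) (s t : List (N × α × N)),
    ctx ν y x w = s ++ t →
      ∃ u v, w = u ++ v ∧ ctx ν (pr ν v * y) x u = s ∧ ctx ν y (x * pr ν u) v = t := by
  intro w
  induction w with
  | nil =>
    intro x s t h
    have h' : s ++ t = [] := h.symm
    obtain ⟨rfl, rfl⟩ := List.append_eq_nil_iff.1 h'
    exact ⟨[], [], rfl, rfl, rfl⟩
  | cons c w ih =>
    intro x s t h
    cases s with
    | nil =>
      refine ⟨[], c :: w, rfl, rfl, ?_⟩
      rw [pr_nil, mul_one]
      exact h
    | cons a s =>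
      rw [ctx, List.cons_append, List.cons.injEq] at h
      obtain ⟨h1, h2⟩ := h
      obtain ⟨u, v, rfl, h3, h4⟩ := ih (x * ν c) s t h2
      refine ⟨c :: u, v, rfl, ?_, ?_⟩
      · rw [ctx, h3, ← h1, pr_append, mul_assoc]
      · rw [pr_cons, ← mul_assoc]
        exact h4

theorem ctx_singleton (y x : N) (u : List α) (t : N × α × N) :
    ctx ν y x u = [t] ↔ u = [t.2.1] ∧ x = t.1 ∧ y = t.2.2 := by
  constructor
  · intro h
    cases u with
    | nil => simp [ctx] at h
    | cons c u =>
      rw [ctx, List.cons.injEq, ctx_eq_nil] at h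
      obtain ⟨h1, rfl⟩ := h
      rw [← h1]
      simp [pr_nil]
  · rintro ⟨rfl, rfl, rfl⟩
    simp [ctx, pr_nil]

variable [Fintype N]

/-- Pulling a star-free language of tagged words back to the untagged words. -/
theorem HLE_ctx (h : ℕ) (hN : ∀ p : N, HLE h ({u : List α | pr ν u = p} : Language α)) :
    ∀ e : GRE (N × α × N), e.height = 0 →
      ∀ x y : N, HLE h ({u : List α | ctx ν y x u ∈ e.lang} : Language α) := by
  intro e
  induction e with
  | zero =>
    intro _ x y
    refine (HLE.zero h).congr ?_
    intro w
    constructor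
    · intro hw
      exact absurd hw (Language.notMem_zero _)
    · intro hw
      exact absurd hw (Language.notMem_zero _)
  | one =>
    intro _ x y
    refine (HLE.one h).congr ?_
    intro w
    constructor
    · intro hw
      have hw' : ctx ν y x w = [] := (Language.mem_one _).1 hw
      exact (Language.mem_one _).2 ((ctx_eq_nil ν y x w).1 hw')
    · intro hw
      have hw' : w = [] := (Language.mem_one _).1 hw
      exact (Language.mem_one _).2 ((ctx_eq_nil ν y x w).2 hw')
  | letter t =>
    intro _ x y
    by_cases hxy : x = t.1 ∧ y = t.2.2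
    · refine (HLE.letter h t.2.1).congr ?_
      intro w
      constructor
      · intro hw
        have hw' : ctx ν y x w = [t] := hw
        exact ((ctx_singleton ν y x w t).1 hw').1
      · intro hw
        have hw' : w = [t.2.1] := hw
        exact (ctx_singleton ν y x w t).2 ⟨hw', hxy.1, hxy.2⟩
    · refine (HLE.zero h).congr ?_
      intro w
      constructor
      · intro hw
        have hw' : ctx ν y x w = [t] := hw
        exact absurd ((ctx_singleton ν y x w t).1 hw').2 hxy
      · intro hw
        exact absurd hw (Language.notMem_zero _)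
  | plus p q ihp ihq =>
    intro he x y
    have he' : max p.height q.height = 0 := he
    have hp : p.height = 0 := by omega
    have hq : q.height = 0 := by omega
    refine ((ihp hp x y).add (ihq hq x y)).congr ?_
    intro w
    exact Iff.rfl
  | comp p q ihp ihq =>
    intro he x y
    have he' : max p.height q.height = 0 := he
    have hp : p.height = 0 := by omega
    have hq : q.height = 0 := by omega
    let A : N × N → Language α := fun ab =>
      {u : List α | u ∈ ({u : List α | pr ν u = ab.1} : Language α) ∧
          u ∈ ({u : List α | ctx ν (ab.2 * y) x u ∈ p.lang} : Language α)}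
    let B : N × N → Language α := fun ab =>
      {u : List α | u ∈ ({u : List α | pr ν u = ab.2} : Language α) ∧
          u ∈ ({u : List α | ctx ν y (x * ab.1) u ∈ q.lang} : Language α)}
    have h1 := HLE.exists (n := h) (fun _ : N × N => True) (fun ab => A ab * B ab)
      (fun ab _ => ((hN ab.1).inter (ihp hp x (ab.2 * y))).mul
        ((hN ab.2).inter (ihq hq (x * ab.1) y)))
    refine h1.congr ?_
    intro w
    constructor
    · intro hw
      have hw' : ctx ν y x w ∈ p.lang * q.lang := hw
      obtain ⟨s, hs, t, ht, hst⟩ := Language.mem_mul.1 hw'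
      obtain ⟨u, v, rfl, h3, h4⟩ := ctx_eq_append ν y w x s t hst.symm
      refine ⟨(pr ν u, pr ν v), trivial, Language.mem_mul.2 ⟨u, ⟨rfl, ?_⟩, v, ⟨rfl, ?_⟩, rfl⟩⟩
      · show ctx ν (pr ν v * y) x u ∈ p.lang
        rw [h3]
        exact hs
      · show ctx ν y (x * pr ν u) v ∈ q.lang
        rw [h4]
        exact ht
    · rintro ⟨ab, _, hw⟩
      obtain ⟨u, ⟨hu1, hu2⟩, v, ⟨hv1, hv2⟩, rfl⟩ := Language.mem_mul.1 hw
      have hu1' : pr ν u = ab.1 := hu1
      have hv1' : pr ν v = ab.2 := hv1
      have hu2' : ctx ν (ab.2 * y) x u ∈ p.lang := hu2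
      have hv2' : ctx ν y (x * ab.1) v ∈ q.lang := hv2
      show ctx ν y x (u ++ v) ∈ p.lang * q.lang
      rw [ctx_append, hu1', hv1']
      exact Language.mem_mul.2 ⟨_, hu2', _, hv2', rfl⟩
  | neg p ihp =>
    intro he x y
    have hp : p.height = 0 := he
    exact (ihp hp x y).compl.congr (fun _ => Iff.rfl)
  | star p _ =>
    intro he
    have he' : p.height + 1 = 0 := he
    omega

end closure

section aperiodic

variable {K N : Type} [Monoid K] [Monoid N] {α : Type} (φ : α → BlockProd K N)

theorem prod_fn_ctx : ∀ (w : List α) (x y : N),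
    ((w.map φ).prod).fn (x, y)
      = ((ctx (fun a => (φ a).base) y x w).map
          (fun t : N × α × N => (φ t.2.1).fn (t.1, t.2.2))).prod := by
  intro w
  induction w with
  | nil => intro x y; rfl
  | cons c w ih =>
    intro x y
    rw [List.map_cons, List.prod_cons, BlockProd.mul_fn, prod_base, ctx, List.map_cons,
      List.prod_cons, ih]

/-- Block products with a finite aperiodic monoid on the left. -/
theorem rec_blockProd_aperiodic [Finite K] [Finite N]
    (hK : ∀ x : K, ∃ k : ℕ, x ^ k = x ^ (k + 1)) (h : ℕ) [Fintype α]
    (hN : ∀ S : Set N, HLE h ({w : List α | (w.map (fun a => (φ a).base)).prod ∈ S} : Language α))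
    (T : Set (BlockProd K N)) :
    HLE h ({w : List α | (w.map φ).prod ∈ T} : Language α) := by
  classical
  have := Fintype.ofFinite N
  have := Fintype.ofFinite K
  have hN' : ∀ p : N, HLE h ({u : List α | pr (fun a => (φ a).base) u = p} : Language α) :=
    fun p => (hN {s | s = p}).congr (fun _ => Iff.rfl)
  let F : N ⊕ ((N × N) × K) → Language α := fun i =>
    match i with
    | Sum.inl p => {w | pr (fun a => (φ a).base) w = p}
    | Sum.inr (xy, t) => {w | ((w.map φ).prod).fn xy = t}
  have hF : ∀ i, HLE h (F i) := by
    rintro (p | ⟨⟨x, y⟩, t⟩)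
    · exact hN' p
    · obtain ⟨e, he, hel⟩ := schutzenberger hK
        (fun t : N × α × N => (φ t.2.1).fn (t.1, t.2.2)) t
      have he0 : e.height = 0 := by omega
      refine (HLE_ctx (fun a => (φ a).base) h hN' e he0 x y).congr ?_
      intro w
      show ((w.map φ).prod).fn (x, y) = t ↔ ctx (fun a => (φ a).base) y x w ∈ e.lang
      rw [hel, prod_fn_ctx]
      exact Iff.rfl
  refine HLE.of_determined F hF _ ?_
  intro u u' huu hu
  have h1 : pr (fun a => (φ a).base) u' = pr (fun a => (φ a).base) u :=
    ((huu (Sum.inl (pr (fun a => (φ a).base) u))).1 rfl)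
  have h2 : ∀ xy : N × N, ((u'.map φ).prod).fn xy = ((u.map φ).prod).fn xy :=
    fun xy => (huu (Sum.inr (xy, ((u.map φ).prod).fn xy))).1 rfl
  have h3 : (u'.map φ).prod = (u.map φ).prod := by
    apply BlockProd.eq_of
    · funext xy
      exact h2 xy
    · rw [prod_base, prod_base, h1]
  show (u'.map φ).prod ∈ T
  rw [h3]
  exact hu

end aperiodic

section division

variable {α : Type}

/-- Direct products. -/
theorem rec_prod {N₁ N₂ : Type} [Monoid N₁] [Monoid N₂] [Finite N₁] [Finite N₂] (h : ℕ)
    (φ : α → N₁ × N₂)
    (h1 : ∀ S : Set N₁, HLE h ({w : List α | (w.map (fun a => (φ a).1)).prod ∈ S} : Language α))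
    (h2 : ∀ S : Set N₂, HLE h ({w : List α | (w.map (fun a => (φ a).2)).prod ∈ S} : Language α))
    (T : Set (N₁ × N₂)) :
    HLE h ({w : List α | (w.map φ).prod ∈ T} : Language α) := by
  classical
  have := Fintype.ofFinite N₁
  have := Fintype.ofFinite N₂
  have e : ∀ w : List α, (w.map φ).prod
      = ((w.map (fun a => (φ a).1)).prod, (w.map (fun a => (φ a).2)).prod) := by
    intro w
    induction w with
    | nil => rfl
    | cons c w ih =>
      rw [List.map_cons, List.prod_cons, ih]
      rfl
  let F : N₁ ⊕ N₂ → Language α := fun i =>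
    match i with
    | Sum.inl p => {w | (w.map (fun a => (φ a).1)).prod ∈ ({s | s = p} : Set N₁)}
    | Sum.inr q => {w | (w.map (fun a => (φ a).2)).prod ∈ ({s | s = q} : Set N₂)}
  have hF : ∀ i, HLE h (F i) := by
    rintro (p | q)
    · exact h1 _
    · exact h2 _
  refine HLE.of_determined F hF _ ?_
  intro u u' huu hu
  have e1 : (u'.map (fun a => (φ a).1)).prod = (u.map (fun a => (φ a).1)).prod :=
    (huu (Sum.inl (u.map (fun a => (φ a).1)).prod)).1 rfl
  have e2 : (u'.map (fun a => (φ a).2)).prod = (u.map (fun a => (φ a).2)).prod :=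
    (huu (Sum.inr (u.map (fun a => (φ a).2)).prod)).1 rfl
  show (u'.map φ).prod ∈ T
  rw [e u', e1, e2, ← e u]
  exact hu

/-- Submonoids: a language recognized by `N'` is recognized by every monoid into which `N'`
embeds. -/
theorem rec_of_injective {N N' : Type} [Monoid N] [Monoid N'] (f : N' →* N)
    (hf : Function.Injective f) (h : ℕ) (φ : α → N')
    (hN : ∀ S : Set N, HLE h ({w : List α | (w.map (fun a => f (φ a))).prod ∈ S} : Language α))
    (T : Set N') :
    HLE h ({w : List α | (w.map φ).prod ∈ T} : Language α) := by
  refine (hN (f '' T)).congr ?_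
  intro w
  have e : (w.map (fun a => f (φ a))).prod = f ((w.map φ).prod) := by
    rw [map_list_prod, List.map_map]
    rfl
  show (w.map φ).prod ∈ T ↔ (w.map (fun a => f (φ a))).prod ∈ f '' T
  rw [e]
  constructor
  · intro hw
    exact ⟨_, hw, rfl⟩
  · rintro ⟨t, ht, htw⟩
    rw [← hf htw]
    exact ht

/-- Quotients: a language recognized by a homomorphic image of `N` is recognized by `N`. -/
theorem rec_of_surjective {N N' : Type} [Monoid N] [Monoid N'] (f : N →* N')
    (hf : Function.Surjective f) (h : ℕ) (φ : α → N')
    (hN : ∀ (g : α → N) (S : Set N), HLE h ({w : List α | (w.map g).prod ∈ S} : Language α))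
    (T : Set N') :
    HLE h ({w : List α | (w.map φ).prod ∈ T} : Language α) := by
  choose g hg using fun a => hf (φ a)
  refine (hN g (f ⁻¹' T)).congr ?_
  intro w
  have e : (w.map φ).prod = f ((w.map g).prod) := by
    rw [map_list_prod, List.map_map]
    congr 1
    apply List.map_congr_left
    intro a _
    exact (hg a).symm
  show (w.map φ).prod ∈ T ↔ f ((w.map g).prod) ∈ T
  rw [e]

end division

end Vale.Agent.Lib.P329.helper24
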