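import Vale.Agent.Lib.P329.helper24.StarPull

/-!
# P329 (helper24): block products with an `R`-trivial / `L`-trivial monoid on the right

`rec_blockProd_tag`: let `φ : α → N □ K` be such that the first components of the letters factor
through morphisms `π₁ : K → K₁`, `π₂ : K → K₂` with `K₁` finite `R`-trivial and `K₂` finite
`L`-trivial.  If the languages recognized by `N` have height at most `h`, so have the languages
recognized through `φ`.
-/

namespace Vale.Agent.Lib.P329.helper24

open Vale.Agent.Lib.P329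

theorem aperiodic_of_rtrivial {K : Type} [Monoid K] [Finite K]
    (hR : ∀ x s t : K, x * s * t = x → x * s = x) (x : K) : ∃ k : ℕ, x ^ k = x ^ (k + 1) := by
  obtain ⟨m, n, hne, heq⟩ := Finite.exists_ne_map_eq_of_infinite (fun n : ℕ => x ^ n)
  have key : ∀ m n : ℕ, m < n → x ^ m = x ^ n → ∃ k : ℕ, x ^ k = x ^ (k + 1) := by
    intro m n hmn h
    refine ⟨m, ?_⟩
    have h' : x ^ m * x * x ^ (n - m - 1) = x ^ m := by
      rw [← pow_succ, ← pow_add]
      have : m + 1 + (n - m - 1) = n := by omega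
      rw [this]
      exact h.symm
    rw [pow_succ]
    exact (hR (x ^ m) x (x ^ (n - m - 1)) h').symm
  rcases Nat.lt_or_gt_of_ne hne with h | h
  · exact key m n h heq
  · exact key n m h heq.symm

theorem aperiodic_of_ltrivial {K : Type} [Monoid K] [Finite K]
    (hL : ∀ y s t : K, t * s * y = y → s * y = y) (x : K) : ∃ k : ℕ, x ^ k = x ^ (k + 1) := by
  obtain ⟨m, n, hne, heq⟩ := Finite.exists_ne_map_eq_of_infinite (fun n : ℕ => x ^ n)
  have key : ∀ m n : ℕ, m < n → x ^ m = x ^ n → ∃ k : ℕ, x ^ k = x ^ (k + 1) := by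
    intro m n hmn h
    refine ⟨m, ?_⟩
    have h' : x ^ (n - m - 1) * x * x ^ m = x ^ m := by
      rw [← pow_succ, ← pow_add]
      have : n - m - 1 + 1 + m = n := by omega
      rw [this]
      exact h.symm
    rw [pow_succ']
    exact (hL (x ^ m) x (x ^ (n - m - 1)) h').symm
  rcases Nat.lt_or_gt_of_ne hne with h | h
  · exact key m n h heq
  · exact key n m h heq.symm

section tagprod

variable {N K K₁ K₂ : Type} [Monoid N] [Monoid K] [Monoid K₁] [Monoid K₂]
  {α : Type} (φ : α → BlockProd N K) (π₁ : K →* K₁) (π₂ : K →* K₂) (F : α → K₁ × K₂ → N)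

theorem map_pr {K' : Type} [Monoid K'] (π : K →* K') (ν : α → K) (w : List α) :
    π (pr ν w) = pr (fun a => π (ν a)) w := by
  induction w with
  | nil => simp [pr_nil]
  | cons c w ih => rw [pr_cons, pr_cons, map_mul, ih]

theorem prod_fn_tag (hF : ∀ (a : α) (x y : K), (φ a).fn (x, y) = F a (π₁ x, π₂ y)) :
    ∀ (w : List α) (x y : K),
      ((w.map φ).prod).fn (x, y)
        = ((tag (fun a => π₁ (φ a).base) (fun a => π₂ (φ a).base) (π₂ y) (π₁ x) w).map
            (fun t : K₁ × α × K₂ => F t.2.1 (t.1, t.2.2))).prod := by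
  intro w
  induction w with
  | nil => intro x y; rfl
  | cons c w ih =>
    intro x y
    rw [List.map_cons, List.prod_cons, BlockProd.mul_fn, prod_base, tag, List.map_cons,
      List.prod_cons, ih, hF, map_mul, map_mul, map_pr]

theorem rec_blockProd_tag [Finite N] [Finite K] [Finite K₁] [Finite K₂] [Fintype α]
    (hF : ∀ (a : α) (x y : K), (φ a).fn (x, y) = F a (π₁ x, π₂ y))
    (hK : ∀ x : K, ∃ k : ℕ, x ^ k = x ^ (k + 1))
    (hR : ∀ x s t : K₁, x * s * t = x → x * s = x)
    (hL : ∀ y s t : K₂, t * s * y = y → s * y = y) (h : ℕ)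
    (hN : ∀ t : N, HLE h ({v : List (K₁ × α × K₂) |
      (v.map (fun t : K₁ × α × K₂ => F t.2.1 (t.1, t.2.2))).prod = t} :
        Language (K₁ × α × K₂)))
    (T : Set (BlockProd N K)) :
    HLE h ({w : List α | (w.map φ).prod ∈ T} : Language α) := by
  classical
  have := Fintype.ofFinite N
  have := Fintype.ofFinite K
  have := Fintype.ofFinite K₁
  have := Fintype.ofFinite K₂
  have h1 : ∀ p : K₁, HLE 0 ({u : List α | pr (fun a => π₁ (φ a).base) u = p} : Language α) :=
    fun p => schutzenberger (aperiodic_of_rtrivial hR) (fun a => π₁ (φ a).base) p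
  have h2 : ∀ p : K₂, HLE 0 ({u : List α | pr (fun a => π₂ (φ a).base) u = p} : Language α) :=
    fun p => schutzenberger (aperiodic_of_ltrivial hL) (fun a => π₂ (φ a).base) p
  let Fam : K ⊕ ((K × K) × N) → Language α := fun i =>
    match i with
    | Sum.inl p => {w | pr (fun a => (φ a).base) w = p}
    | Sum.inr (xy, t) => {w | ((w.map φ).prod).fn xy = t}
  have hFam : ∀ i, HLE h (Fam i) := by
    rintro (p | ⟨⟨x, y⟩, t⟩)
    · exact (schutzenberger hK (fun a => (φ a).base) p).mono (Nat.zero_le _)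
    · obtain ⟨e, he, hel⟩ := hN t
      refine ((HLE_tag (fun a => π₁ (φ a).base) (fun a => π₂ (φ a).base) hR hL h1 h2 e
        (π₁ x) (π₂ y)).mono he).congr ?_
      intro w
      show ((w.map φ).prod).fn (x, y) = t ↔ _
      rw [hel, prod_fn_tag φ π₁ π₂ F hF]
      exact Iff.rfl
  refine HLE.of_determined Fam hFam _ ?_
  intro u u' huu hu
  have e1 : pr (fun a => (φ a).base) u' = pr (fun a => (φ a).base) u :=
    ((huu (Sum.inl (pr (fun a => (φ a).base) u))).1 rfl)
  have e2 : ∀ xy : K × K, ((u'.map φ).prod).fn xy = ((u.map φ).prod).fn xy :=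
    fun xy => (huu (Sum.inr (xy, ((u.map φ).prod).fn xy))).1 rfl
  have e3 : (u'.map φ).prod = (u.map φ).prod := by
    apply BlockProd.eq_of
    · funext xy
      exact e2 xy
    · rw [prod_base, prod_base, e1]
  show (u'.map φ).prod ∈ T
  rw [e3]
  exact hu

end tagprod

end Vale.Agent.Lib.P329.helper24
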