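import Vale.Agent.Lib.P329.helper24.BlockDefs

/-!
# P329 (helper20, for helper24): the block automaton is counter-free for every prime `q`

`bcf1`, `bcf2`: the event-free block automata `kill (bstep i) (bev1 i)` and
`kill (bstep i) (bev2 i)` are counter-free.

Proof.  On a finite state set it suffices that every periodic point of the action of a word `u`
is a fixed point.  Let the run of `rep n u` from `(j, μ)` survive and return to `(j, μ)`.
If `u` has weight `0`: either the walk from phase `j` along `u` visits the hub phase `0`, and then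
the end state does not depend on the mode; or it does not, and then no event occurs and the mode
is changed by a map with `0 ↦ 0 or 1`, `1 ↦ 1`, `2 ↦ 2`.  If `u` has nonzero weight the run
survives for ever, the phase at a given place of `u` takes all values in the successive copies
of `u`, which forces every letter of `u` to be marked, and a run of marked letters of nonzero
weight completes a block of mode `0` by the marked letter within `2 q` steps, an event.
-/

namespace Vale.Agent.Lib.P329.helper24

open Vale.Agent.Lib.P329

/-! ### Generalities -/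

theorem cf_rep_succ' {α : Type} (u : List α) : ∀ k, rep (k + 1) u = u ++ rep k u
  | 0 => by simp [rep]
  | k + 1 => by
    have h := cf_rep_succ' u k
    show rep (k + 1) u ++ u = u ++ (rep k u ++ u)
    rw [h, List.append_assoc]

theorem cf_rep_add {α : Type} (u : List α) (a : ℕ) : ∀ b, rep (a + b) u = rep a u ++ rep b u
  | 0 => by simp [rep]
  | b + 1 => by
    have h := cf_rep_add u a b
    show rep (a + b) u ++ u = rep a u ++ (rep b u ++ u)
    rw [h, List.append_assoc]

theorem cf_run_rep {α S : Type} (δ : S → α → S) (u : List α) (s : S) :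
    ∀ k, run δ s (rep k u) = (fun t => run δ t u)^[k] s
  | 0 => rfl
  | k + 1 => by
    have h := cf_run_rep δ u s k
    show run δ s (rep k u ++ u) = _
    rw [run_append, h, Function.iterate_succ_apply']

/-- On a finite set, a map all of whose periodic points are fixed is aperiodic. -/
theorem cf_aperiodic_of_periodic_fixed {S : Type} [Fintype S] (f : S → S)
    (h : ∀ s n, 0 < n → f^[n] s = s → f s = s) : ∃ k, ∀ s, f^[k + 1] s = f^[k] s := by
  classical
  refine ⟨Fintype.card S, fun s => ?_⟩
  have hcard : Fintype.card S < Fintype.card (Fin (Fintype.card S + 1)) := by simp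
  obtain ⟨a, b, hab, heq⟩ := Fintype.exists_ne_map_eq_of_card_lt
    (fun a : Fin (Fintype.card S + 1) => f^[a.val] s) hcard
  have key : ∀ a b : ℕ, a < b → b ≤ Fintype.card S → f^[a] s = f^[b] s →
      f^[Fintype.card S + 1] s = f^[Fintype.card S] s := by
    intro a b hlt hb heq
    have hfix : f (f^[a] s) = f^[a] s := by
      apply h (f^[a] s) (b - a) (by omega)
      rw [← Function.iterate_add_apply]
      have : b - a + a = b := by omega
      rw [this]
      exact heq.symm
    have hall : ∀ m, f^[a + m] s = f^[a] s := by
      intro m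
      induction m with
      | zero => rfl
      | succ m ih =>
        have : a + (m + 1) = (a + m) + 1 := by ring
        rw [this, Function.iterate_succ_apply', ih, hfix]
    have e1 : Fintype.card S + 1 = a + (Fintype.card S + 1 - a) := by omega
    have e2 : Fintype.card S = a + (Fintype.card S - a) := by omega
    rw [e1, hall]
    conv_rhs => rw [e2, hall]
  rcases lt_or_gt_of_ne (fun h' => hab (Fin.ext h')) with hlt | hlt
  · exact key a.val b.val hlt (by have := b.isLt; omega) heq
  · exact key b.val a.val hlt (by have := a.isLt; omega) heq.symm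

theorem cf_run_kill_none {Q α : Type} (δ : Q → α → Q) (ev : Q → α → Bool) (v : List α) :
    run (kill δ ev) none v = none := by
  induction v with
  | nil => rfl
  | cons c v ih =>
    rw [run_cons]
    exact ih

theorem cf_run_kill_prefix {Q α : Type} (δ : Q → α → Q) (ev : Q → α → Bool) (s : Option Q)
    (v1 v2 : List α) (h : run (kill δ ev) s (v1 ++ v2) ≠ none) : run (kill δ ev) s v1 ≠ none := by
  intro h1
  rw [run_append, h1, cf_run_kill_none] at h
  exact h rfl

theorem cf_run_kill_cons {Q α : Type} (δ : Q → α → Q) (ev : Q → α → Bool) (s : Q) (c : α)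
    (v : List α) : run (kill δ ev) (some s) (c :: v) =
      if ev s c = true then none else run (kill δ ev) (some (δ s c)) v := by
  rw [run_cons]
  show run (kill δ ev) (if ev s c = true then none else some (δ s c)) v = _
  split_ifs
  · exact cf_run_kill_none δ ev v
  · rfl

/-! ### The block automaton -/

section block

variable {q : ℕ}

/-- The total weight of a word over the class alphabet. -/
def cf_bwt (i : ZMod q) (v : List (Option (ZMod q))) : ZMod q := (v.map (kwt i)).sum

theorem cf_bwt_nil (i : ZMod q) : cf_bwt i [] = 0 := rfl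

theorem cf_bwt_cons (i : ZMod q) (c : Option (ZMod q)) (v : List (Option (ZMod q))) :
    cf_bwt i (c :: v) = kwt i c + cf_bwt i v := by
  simp [cf_bwt]

theorem cf_bwt_append (i : ZMod q) (v w : List (Option (ZMod q))) :
    cf_bwt i (v ++ w) = cf_bwt i v + cf_bwt i w := by
  simp [cf_bwt]

theorem cf_bwt_rep (i : ZMod q) (u : List (Option (ZMod q))) :
    ∀ k : ℕ, cf_bwt i (rep k u) = (k : ZMod q) * cf_bwt i u
  | 0 => by simp [rep, cf_bwt]
  | k + 1 => by
    have h := cf_bwt_rep i u k
    show cf_bwt i (rep k u ++ u) = _
    rw [cf_bwt_append, h]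
    push_cast
    ring

theorem cf_bwt_replicate (i : ZMod q) : ∀ k : ℕ, cf_bwt i (List.replicate k none) = (k : ZMod q) * i
  | 0 => by simp [cf_bwt]
  | k + 1 => by
    have h := cf_bwt_replicate i k
    rw [List.replicate_succ, cf_bwt_cons, h]
    show i + (k : ZMod q) * i = _
    push_cast
    ring

theorem cf_bstep_fst (i : ZMod q) (s : ZMod q × Fin 3) (c : Option (ZMod q)) :
    (bstep i s c).1 = s.1 + kwt i c := by
  by_cases h1 : s.1 = 0
  · by_cases h2 : kwt i c = 0
    · simp [bstep, h1, h2]
    · simp [bstep, h1, h2]
  · by_cases h2 : s.1 + kwt i c = 0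
    · simp [bstep, h1, h2]
    · simp [bstep, h1, h2]

theorem cf_bstep_zero (i : ZMod q) (s : ZMod q × Fin 3) (c : Option (ZMod q))
    (h : (bstep i s c).1 = 0) : bstep i s c = (0, 2) := by
  by_cases h1 : s.1 = 0
  · by_cases h2 : kwt i c = 0
    · simp [bstep, h1, h2]
    · exfalso
      rw [cf_bstep_fst, h1, zero_add] at h
      exact h2 h
  · by_cases h2 : s.1 + kwt i c = 0
    · simp [bstep, h1, h2]
    · exfalso
      rw [cf_bstep_fst] at h
      exact h2 h

/-- Away from the hub and not arriving at it: the phase moves and the mode is updated. -/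
theorem cf_bstep_away (i : ZMod q) (j : ZMod q) (μ : Fin 3) (c : Option (ZMod q)) (hj : j ≠ 0)
    (hjc : j + kwt i c ≠ 0) :
    bstep i (j, μ) c = (j + kwt i c,
      if μ = 0 then (if c = none ∨ kwt i c = 0 then 0 else 1) else μ) := by
  simp [bstep, hj, hjc]

variable (i : ZMod q) (ev : ZMod q × Fin 3 → Option (ZMod q) → Bool)

/-- The phase of a surviving run. -/
theorem cf_run_phase (v : List (Option (ZMod q))) : ∀ (j : ZMod q) (μ : Fin 3) (j' : ZMod q)
    (μ' : Fin 3), run (kill (bstep i) ev) (some (j, μ)) v = some (j', μ') → j' = j + cf_bwt i v := by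
  induction v with
  | nil =>
    intro j μ j' μ' h
    rw [run_nil] at h
    have h1 := Option.some.inj h
    rw [cf_bwt_nil, add_zero]
    exact (congrArg Prod.fst h1).symm
  | cons c v ih =>
    intro j μ j' μ' h
    rw [cf_run_kill_cons] at h
    by_cases hev : ev (j, μ) c = true
    · rw [if_pos hev] at h
      exact absurd h (by simp)
    · rw [if_neg hev] at h
      have h1 := ih (bstep i (j, μ) c).1 (bstep i (j, μ) c).2 j' μ' h
      rw [h1, cf_bstep_fst, cf_bwt_cons, add_assoc]

/-- A surviving nonempty run that ends at phase `0` ends at the hub `(0, 2)`. -/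
theorem cf_run_hub (v : List (Option (ZMod q))) (hv : v ≠ []) (s : Option (ZMod q × Fin 3))
    (μ' : Fin 3) (h : run (kill (bstep i) ev) s v = some (0, μ')) : μ' = 2 := by
  rcases List.eq_nil_or_concat v with hnil | ⟨v', c, rfl⟩
  · exact absurd hnil hv
  · rw [List.concat_eq_append, run_append] at h
    cases hs : run (kill (bstep i) ev) s v' with
    | none =>
      rw [hs, cf_run_kill_none] at h
      exact absurd h (by simp)
    | some t =>
      rw [hs, cf_run_kill_cons] at h
      by_cases hev : ev t c = true
      · rw [if_pos hev] at h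
        exact absurd h (by simp)
      · rw [if_neg hev, run_nil] at h
        have h1 := Option.some.inj h
        have h2 : (bstep i t c).1 = 0 := by rw [h1]
        have h3 := cf_bstep_zero i t c h2
        rw [h3] at h1
        exact (congrArg Prod.snd h1).symm

/-- A run that never meets the hub phase meets no event; the mode is kept if it is not `0`, and
mode `0` goes to `0` or `1`. -/
theorem cf_run_nohub (hloc : ∀ p ν c, ev (p, ν) c = true → p = 0 ∨ p + kwt i c = 0)
    (v : List (Option (ZMod q))) : ∀ (j : ZMod q) (μ : Fin 3),
      (∀ v1 v2, v = v1 ++ v2 → j + cf_bwt i v1 ≠ 0) →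
      ∃ μ' : Fin 3, run (kill (bstep i) ev) (some (j, μ)) v = some (j + cf_bwt i v, μ') ∧
        (μ ≠ 0 → μ' = μ) ∧ (μ = 0 → μ' = 0 ∨ μ' = 1) := by
  induction v with
  | nil =>
    intro j μ _
    exact ⟨μ, by rw [run_nil, cf_bwt_nil, add_zero], fun _ => rfl, fun h => Or.inl h⟩
  | cons c v ih =>
    intro j μ hno
    have hj : j ≠ 0 := by
      have := hno [] (c :: v) rfl
      rwa [cf_bwt_nil, add_zero] at this
    have hjc : j + kwt i c ≠ 0 := by
      have := hno [c] v rfl
      rwa [cf_bwt_cons, cf_bwt_nil, add_zero] at this
    have hno' : ∀ v1 v2, v = v1 ++ v2 → (j + kwt i c) + cf_bwt i v1 ≠ 0 := by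
      intro v1 v2 h
      have := hno (c :: v1) v2 (by rw [h]; rfl)
      rwa [cf_bwt_cons, ← add_assoc] at this
    have hev : ¬ ev (j, μ) c = true := by
      intro h
      rcases hloc j μ c h with h1 | h1
      · exact hj h1
      · exact hjc h1
    obtain ⟨μ', h1, h2, h3⟩ := ih (j + kwt i c)
      (if μ = 0 then (if c = none ∨ kwt i c = 0 then 0 else 1) else μ) hno'
    refine ⟨μ', ?_, ?_, ?_⟩
    · rw [cf_run_kill_cons, if_neg hev, cf_bstep_away i j μ c hj hjc, h1, cf_bwt_cons, add_assoc]
    · intro hμ
      rw [if_neg hμ] at h2
      exact h2 hμ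
    · intro hμ
      rw [if_pos hμ] at h2 h3
      by_cases hc : c = none ∨ kwt i c = 0
      · rw [if_pos hc] at h2 h3
        exact h3 rfl
      · rw [if_neg hc] at h2 h3
        exact Or.inr (h2 (by decide))

/-- Periodic points of a word of weight `0` are fixed. -/
theorem cf_caseA (hloc : ∀ p ν c, ev (p, ν) c = true → p = 0 ∨ p + kwt i c = 0)
    (u : List (Option (ZMod q))) (hu : cf_bwt i u = 0) (j : ZMod q) (μ : Fin 3) (n : ℕ)
    (hn : 0 < n)
    (h : (fun t => run (kill (bstep i) ev) t u)^[n] (some (j, μ)) = some (j, μ)) :
    run (kill (bstep i) ev) (some (j, μ)) u = some (j, μ) := by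
  obtain ⟨n', rfl⟩ : ∃ n', n = n' + 1 := ⟨n - 1, by omega⟩
  have hnone : ∀ m, (fun t => run (kill (bstep i) ev) t u)^[m] none = none := by
    intro m
    induction m with
    | zero => rfl
    | succ m ih =>
      rw [Function.iterate_succ_apply]
      show (fun t => run (kill (bstep i) ev) t u)^[m] (run (kill (bstep i) ev) none u) = none
      rw [cf_run_kill_none]
      exact ih
  -- the first step survives
  have h1 := h
  rw [Function.iterate_succ_apply] at h1
  -- the last step
  have h2 := h
  rw [Function.iterate_succ_apply'] at h2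
  cases hs1 : run (kill (bstep i) ev) (some (j, μ)) u with
  | none =>
    exfalso
    rw [hs1, hnone] at h1
    exact absurd h1 (by simp)
  | some s1 =>
    obtain ⟨j1, μ1⟩ := s1
    have hj1 : j1 = j := by
      have := cf_run_phase i ev u j μ j1 μ1 hs1
      rw [this, hu, add_zero]
    subst hj1
    cases hs' : (fun t => run (kill (bstep i) ev) t u)^[n'] (some (j1, μ)) with
    | none =>
      exfalso
      rw [hs'] at h2
      have : run (kill (bstep i) ev) none u = some (j1, μ) := h2
      rw [cf_run_kill_none] at this
      exact absurd this (by simp)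
    | some s' =>
      obtain ⟨j', μ''⟩ := s'
      rw [hs'] at h2
      have h2' : run (kill (bstep i) ev) (some (j', μ'')) u = some (j1, μ) := h2
      have hj' : j' = j1 := by
        have := cf_run_phase i ev u j' μ'' j1 μ h2'
        rw [hu, add_zero] at this
        exact this.symm
      subst hj'
      by_cases hnil : u = []
      · subst hnil
        rw [run_nil] at hs1
        rw [← hs1]
      by_cases hj0 : j' = 0
      · subst hj0
        have e1 := cf_run_hub i ev u hnil _ μ1 hs1
        have e2 := cf_run_hub i ev u hnil _ μ h2'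
        rw [e1, e2]
      by_cases hhub : ∃ v1 v2, u = v1 ++ v2 ∧ j' + cf_bwt i v1 = 0
      · obtain ⟨v1, v2, rfl, hv1⟩ := hhub
        have hv1ne : v1 ≠ [] := by
          intro h0
          rw [h0, cf_bwt_nil, add_zero] at hv1
          exact hj0 hv1
        have key : ∀ ν ν' : Fin 3,
            run (kill (bstep i) ev) (some (j', ν)) (v1 ++ v2) = some (j', ν') →
            run (kill (bstep i) ev) (some (0, 2)) v2 = some (j', ν') := by
          intro ν ν' hrun
          rw [run_append] at hrun
          cases hmid : run (kill (bstep i) ev) (some (j', ν)) v1 with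
          | none =>
            rw [hmid, cf_run_kill_none] at hrun
            exact absurd hrun (by simp)
          | some t =>
            obtain ⟨p, ν₂⟩ := t
            have hp : p = 0 := by
              have := cf_run_phase i ev v1 j' ν p ν₂ hmid
              rw [this, hv1]
            subst hp
            have hν₂ := cf_run_hub i ev v1 hv1ne _ ν₂ hmid
            subst hν₂
            rw [hmid] at hrun
            exact hrun
        have k1 := key μ μ1 hs1
        have k2 := key μ'' μ h2'
        rw [k1] at k2
        exact k2
      · push Not at hhub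
        obtain ⟨ν, hν1, hν2, hν3⟩ := cf_run_nohub i ev hloc u j' μ hhub
        rw [hu, add_zero] at hν1
        have e : (some (j', μ1) : Option (ZMod q × Fin 3)) = some (j', ν) := hs1.symm.trans hν1
        rw [e]
        by_cases hμ : μ = 0
        · rcases hν3 hμ with h0 | h0
          · rw [h0, hμ]
          · exfalso
            -- the mode is 1 after one step and stays 1
            have hstay : ∀ m, (fun t => run (kill (bstep i) ev) t u)^[m] (some (j', 1))
                = some (j', 1) := by
              intro m
              induction m with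
              | zero => rfl
              | succ m ih =>
                rw [Function.iterate_succ_apply', ih]
                obtain ⟨ν', e1, e2, _⟩ := cf_run_nohub i ev hloc u j' 1 hhub
                rw [hu, add_zero] at e1
                have : ν' = 1 := e2 (by decide)
                rw [this] at e1
                exact e1
            rw [hν1, h0, hstay] at h1
            have h' : (1 : Fin 3) = μ := congrArg Prod.snd (Option.some.inj h1)
            rw [hμ] at h'
            exact absurd h' (by decide)
        · rw [hν2 hμ]

/-- A periodic point of a word is alive along all powers of the word. -/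
theorem cf_alive_of_periodic {Q α : Type} (δ : Q → α → Q) (ev : Q → α → Bool) (u : List α) (s : Q)
    (n : ℕ) (hn : 0 < n) (h : (fun t => run (kill δ ev) t u)^[n] (some s) = some s) :
    ∀ m, run (kill δ ev) (some s) (rep m u) ≠ none := by
  intro m
  have h1 : (fun t => run (kill δ ev) t u)^[n * m] (some s) = some s := by
    rw [Function.iterate_mul]
    exact Function.iterate_fixed h m
  have h2 : run (kill δ ev) (some s) (rep (n * m) u) = some s := by
    rw [cf_run_rep]
    exact h1
  have h3 : n * m = m + (n * m - m) := by
    have : m ≤ n * m := Nat.le_mul_of_pos_left m hn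
    omega
  rw [h3, cf_rep_add] at h2
  apply cf_run_kill_prefix δ ev (some s) (rep m u) (rep (n * m - m) u)
  rw [h2]
  simp

theorem cf_exists_mul_eq [Fact q.Prime] (ω t : ZMod q) (hω : ω ≠ 0) :
    ∃ c : ℕ, (c : ZMod q) * ω = t := by
  have : NeZero q := ⟨(Fact.out : q.Prime).ne_zero⟩
  refine ⟨(t / ω).val, ?_⟩
  rw [ZMod.natCast_zmod_val]
  exact div_mul_cancel₀ t hω

/-- For the first kind of event: a block in mode `2` dies when the walk reaches the hub. -/
theorem cf_run_mode2 (v : List (Option (ZMod q))) : ∀ p : ZMod q, p ≠ 0 → p + cf_bwt i v = 0 →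
    run (kill (bstep i) (bev1 i)) (some (p, 2)) v = none := by
  induction v with
  | nil =>
    intro p hp h
    rw [cf_bwt_nil, add_zero] at h
    exact absurd h hp
  | cons c v ih =>
    intro p hp h
    rw [cf_run_kill_cons]
    by_cases hpc : p + kwt i c = 0
    · have hev : bev1 i (p, 2) c = true := by simp [bev1, hp, hpc]
      rw [if_pos hev]
    · have hev : ¬ bev1 i (p, 2) c = true := by simp [bev1, hp, hpc]
      rw [if_neg hev, cf_bstep_away i p 2 c hp hpc]
      have h2 : ((if (2 : Fin 3) = 0 then (if c = none ∨ kwt i c = 0 then 0 else 1) else 2) :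
          Fin 3) = 2 := by
        rw [if_neg (by decide)]
      rw [h2]
      apply ih (p + kwt i c) hpc
      rw [cf_bwt_cons, ← add_assoc] at h
      exact h

/-- First kind of event: a word of nonzero weight with a surviving periodic run has only
marked letters. -/
theorem cf_marked1 [Fact q.Prime] (u : List (Option (ZMod q))) (hω : cf_bwt i u ≠ 0) (j : ZMod q)
    (μ : Fin 3)
    (halive : ∀ m, run (kill (bstep i) (bev1 i)) (some (j, μ)) (rep m u) ≠ none) :
    ∀ a ∈ u, a = none := by
  intro a ha
  obtain ⟨u1, u2, rfl⟩ := List.append_of_mem ha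
  cases a with
  | none => rfl
  | some w =>
    exfalso
    obtain ⟨c, hc⟩ := cf_exists_mul_eq (cf_bwt i (u1 ++ some w :: u2)) (-(j + cf_bwt i u1)) hω
    have hl1 : rep (c + 1) (u1 ++ some w :: u2)
        = ((rep c (u1 ++ some w :: u2) ++ u1) ++ [some w]) ++ u2 := by
      show rep c (u1 ++ some w :: u2) ++ (u1 ++ some w :: u2) = _
      simp
    have hpre : run (kill (bstep i) (bev1 i)) (some (j, μ))
        (rep c (u1 ++ some w :: u2) ++ u1) ≠ none := by
      have h1 := halive (c + 1)
      rw [hl1, List.append_assoc] at h1
      exact cf_run_kill_prefix _ _ _ _ _ h1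
    cases hst : run (kill (bstep i) (bev1 i)) (some (j, μ))
        (rep c (u1 ++ some w :: u2) ++ u1) with
    | none => exact hpre hst
    | some t =>
      obtain ⟨p, ν⟩ := t
      have hp : p = 0 := by
        have := cf_run_phase i (bev1 i) _ j μ p ν hst
        rw [this, cf_bwt_append, cf_bwt_rep, hc]
        ring
      subst hp
      by_cases hw : w = 0
      · have hdead : run (kill (bstep i) (bev1 i)) (some (j, μ))
            ((rep c (u1 ++ some w :: u2) ++ u1) ++ [some w]) = none := by
          rw [run_append, hst, cf_run_kill_cons]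
          have hev : bev1 i (0, ν) (some w) = true := by simp [bev1, kwt, hw]
          rw [if_pos hev]
        have h1 := halive (c + 1)
        rw [hl1] at h1
        exact cf_run_kill_prefix _ _ _ _ _ h1 hdead
      · obtain ⟨m, hm⟩ : ∃ m, q = m + 1 :=
          ⟨q - 1, by have := (Fact.out : q.Prime).pos; omega⟩
        have hstep : run (kill (bstep i) (bev1 i)) (some (j, μ))
            ((rep c (u1 ++ some w :: u2) ++ u1) ++ [some w]) = some (w, 2) := by
          rw [run_append, hst, cf_run_kill_cons]
          have hev : ¬ bev1 i (0, ν) (some w) = true := by simp [bev1, kwt, hw]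
          rw [if_neg hev, run_nil]
          simp [bstep, kwt, hw]
        have hω' : cf_bwt i (u1 ++ some w :: u2) = cf_bwt i u1 + (w + cf_bwt i u2) := by
          rw [cf_bwt_append, cf_bwt_cons]
          rfl
        have hq : ((m : ZMod q) + 1) = 0 := by
          have h0 : ((m + 1 : ℕ) : ZMod q) = 0 := by
            rw [← hm]
            exact ZMod.natCast_self q
          exact_mod_cast h0
        have hv : w + cf_bwt i (u2 ++ rep m (u1 ++ some w :: u2) ++ u1) = 0 := by
          rw [cf_bwt_append, cf_bwt_append, cf_bwt_rep, hω']
          linear_combination (cf_bwt i u1 + (w + cf_bwt i u2)) * hq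
        have hdead := cf_run_mode2 i (u2 ++ rep m (u1 ++ some w :: u2) ++ u1) w hw hv
        have hl2 : rep (c + 1 + m + 1) (u1 ++ some w :: u2)
            = (((rep c (u1 ++ some w :: u2) ++ u1) ++ [some w]) ++
                (u2 ++ rep m (u1 ++ some w :: u2) ++ u1)) ++ (some w :: u2) := by
          show rep (c + 1 + m) (u1 ++ some w :: u2) ++ (u1 ++ some w :: u2) = _
          rw [cf_rep_add]
          show (rep c (u1 ++ some w :: u2) ++ (u1 ++ some w :: u2)) ++
            rep m (u1 ++ some w :: u2) ++ (u1 ++ some w :: u2) = _
          simp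
        have h1 := halive (c + 1 + m + 1)
        rw [hl2] at h1
        apply cf_run_kill_prefix _ _ _ _ _ h1
        rw [run_append, hstep]
        exact hdead

/-- Second kind of event: a word of nonzero weight with a surviving periodic run has only
marked letters. -/
theorem cf_marked2 [Fact q.Prime] (u : List (Option (ZMod q))) (hω : cf_bwt i u ≠ 0) (j : ZMod q)
    (μ : Fin 3)
    (halive : ∀ m, run (kill (bstep i) (bev2 i)) (some (j, μ)) (rep m u) ≠ none) :
    ∀ a ∈ u, a = none := by
  intro a ha
  obtain ⟨u1, u2, rfl⟩ := List.append_of_mem ha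
  cases a with
  | none => rfl
  | some w =>
    exfalso
    obtain ⟨c, hc⟩ := cf_exists_mul_eq (cf_bwt i (u1 ++ some w :: u2)) (-(j + cf_bwt i u1 + w)) hω
    have hl1 : rep (c + 1) (u1 ++ some w :: u2)
        = ((rep c (u1 ++ some w :: u2) ++ u1) ++ [some w]) ++ u2 := by
      show rep c (u1 ++ some w :: u2) ++ (u1 ++ some w :: u2) = _
      simp
    have h1 := halive (c + 1)
    rw [hl1] at h1
    have hpre : run (kill (bstep i) (bev2 i)) (some (j, μ))
        (rep c (u1 ++ some w :: u2) ++ u1) ≠ none := by
      have h2 := h1
      rw [List.append_assoc] at h2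
      exact cf_run_kill_prefix _ _ _ _ _ h2
    cases hst : run (kill (bstep i) (bev2 i)) (some (j, μ))
        (rep c (u1 ++ some w :: u2) ++ u1) with
    | none => exact hpre hst
    | some t =>
      obtain ⟨p, ν⟩ := t
      have hp : p + w = 0 := by
        have := cf_run_phase i (bev2 i) _ j μ p ν hst
        rw [this, cf_bwt_append, cf_bwt_rep, hc]
        ring
      have hdead : run (kill (bstep i) (bev2 i)) (some (j, μ))
          ((rep c (u1 ++ some w :: u2) ++ u1) ++ [some w]) = none := by
        rw [run_append, hst, cf_run_kill_cons]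
        have hev : bev2 i (p, ν) (some w) = true := by
          by_cases hp0 : p = 0
          · have hw : w = 0 := by rw [hp0, zero_add] at hp; exact hp
            simp [bev2, kwt, hp0, hw]
          · simp [bev2, kwt, hp0, hp]
        rw [if_pos hev]
      exact cf_run_kill_prefix _ _ _ _ _ h1 hdead

/-- A run of marked letters of nonzero weight in mode `0` completes its block by an event. -/
theorem cf_marked_chain [Fact q.Prime] (hi : i ≠ 0)
    (hloc : ∀ p ν c, ev (p, ν) c = true → p = 0 ∨ p + kwt i c = 0)
    (h3c : ∀ p, p ≠ 0 → p + i = 0 → ev (p, 0) none = true) :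
    ∀ d t : ℕ, t + d = q → 1 ≤ t → 1 ≤ d →
      run (kill (bstep i) ev) (some ((t : ZMod q) * i, 0)) (List.replicate d none) = none := by
  intro d
  induction d with
  | zero =>
    intro t _ _ hd
    omega
  | succ d ih =>
    intro t htd ht _
    have htq : t < q := by omega
    have ht0 : (t : ZMod q) ≠ 0 := by
      rw [Ne, ZMod.natCast_eq_zero_iff]
      exact Nat.not_dvd_of_pos_of_lt ht htq
    have hp : (t : ZMod q) * i ≠ 0 := mul_ne_zero ht0 hi
    have hsum : (t : ZMod q) * i + kwt i none = ((t + 1 : ℕ) : ZMod q) * i := by
      show (t : ZMod q) * i + i = _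
      push_cast
      ring
    rw [List.replicate_succ, cf_run_kill_cons]
    by_cases hd : d = 0
    · have h0 : ((t + 1 : ℕ) : ZMod q) = 0 := by
        have : t + 1 = q := by omega
        rw [this]
        exact ZMod.natCast_self q
      have hev : ev ((t : ZMod q) * i, 0) none = true := by
        apply h3c _ hp
        have := hsum
        rw [h0, zero_mul] at this
        exact this
      rw [if_pos hev]
    · have ht1 : ((t + 1 : ℕ) : ZMod q) ≠ 0 := by
        rw [Ne, ZMod.natCast_eq_zero_iff]
        exact Nat.not_dvd_of_pos_of_lt (by omega) (by omega)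
      have hne : (t : ZMod q) * i + kwt i none ≠ 0 := by
        rw [hsum]
        exact mul_ne_zero ht1 hi
      have hev : ¬ ev ((t : ZMod q) * i, 0) none = true := by
        intro h
        rcases hloc _ _ _ h with h1 | h1
        · exact hp h1
        · exact hne h1
      rw [if_neg hev, cf_bstep_away i _ 0 none hp hne]
      have hmode : ((if (0 : Fin 3) = 0 then
          (if (none : Option (ZMod q)) = none ∨ kwt i none = 0 then 0 else 1) else 0) : Fin 3)
          = 0 := by
        simp
      rw [hmode, hsum]
      exact ih (t + 1) (by omega) (by omega) (by omega)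

/-- A long enough run of marked letters of nonzero weight dies. -/
theorem cf_marked_dies [Fact q.Prime] (hi : i ≠ 0)
    (hloc : ∀ p ν c, ev (p, ν) c = true → p = 0 ∨ p + kwt i c = 0)
    (h3a : ∀ ν, ev (0, ν) none = false)
    (h3c : ∀ p, p ≠ 0 → p + i = 0 → ev (p, 0) none = true) (j : ZMod q) (μ : Fin 3) :
    ∃ T : ℕ, run (kill (bstep i) ev) (some (j, μ)) (List.replicate T none) = none := by
  obtain ⟨t0, ht0⟩ := cf_exists_mul_eq i (-j) hi
  refine ⟨t0 + q, ?_⟩
  rw [List.replicate_add, run_append]
  cases hst : run (kill (bstep i) ev) (some (j, μ)) (List.replicate t0 none) with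
  | none => exact cf_run_kill_none _ _ _
  | some s =>
    obtain ⟨p, ν⟩ := s
    have hp : p = 0 := by
      have := cf_run_phase i ev _ j μ p ν hst
      rw [this, cf_bwt_replicate, ht0]
      ring
    subst hp
    have hq2 : 2 ≤ q := (Fact.out : q.Prime).two_le
    obtain ⟨m, hm⟩ : ∃ m, q = m + 1 := ⟨q - 1, by omega⟩
    have hb : bstep i (0, ν) none = (((1 : ℕ) : ZMod q) * i, 0) := by
      simp [bstep, kwt, hi]
    have hev : ¬ ev (0, ν) none = true := by
      rw [h3a ν]
      simp
    have hgoal : run (kill (bstep i) ev) (some (0, ν)) (List.replicate (m + 1) none) = none := by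
      rw [List.replicate_succ, cf_run_kill_cons, if_neg hev, hb]
      exact cf_marked_chain i ev hi hloc h3c m 1 (by omega) le_rfl (by omega)
    have e : List.replicate q (none : Option (ZMod q)) = List.replicate (m + 1) none :=
      congrArg (fun n => List.replicate n (none : Option (ZMod q))) hm
    rw [e]
    exact hgoal

/-- Periodic points of every word are fixed. -/
theorem cf_periodic_fixed [Fact q.Prime]
    (hloc : ∀ p ν c, ev (p, ν) c = true → p = 0 ∨ p + kwt i c = 0)
    (h3a : i ≠ 0 → ∀ ν, ev (0, ν) none = false)
    (h3c : ∀ p, p ≠ 0 → p + i = 0 → ev (p, 0) none = true)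
    (hmarked : ∀ u, cf_bwt i u ≠ 0 → ∀ j μ,
      (∀ m, run (kill (bstep i) ev) (some (j, μ)) (rep m u) ≠ none) → ∀ a ∈ u, a = none)
    (u : List (Option (ZMod q))) (s : Option (ZMod q × Fin 3)) (n : ℕ) (hn : 0 < n)
    (h : (fun t => run (kill (bstep i) ev) t u)^[n] s = s) :
    run (kill (bstep i) ev) s u = s := by
  cases s with
  | none => exact cf_run_kill_none _ _ _
  | some s =>
    obtain ⟨j, μ⟩ := s
    by_cases hω : cf_bwt i u = 0
    · exact cf_caseA i ev hloc u hω j μ n hn h
    · exfalso
      have halive := cf_alive_of_periodic (bstep i) ev u (j, μ) n hn h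
      have hall := hmarked u hω j μ halive
      obtain ⟨L, hu⟩ : ∃ L, u = List.replicate L none :=
        ⟨u.length, List.eq_replicate_of_mem hall⟩
      subst hu
      rw [cf_bwt_replicate] at hω
      have hi : i ≠ 0 := right_ne_zero_of_mul hω
      have hL : 0 < L := by
        rcases Nat.eq_zero_or_pos L with h0 | h0
        · exfalso
          apply hω
          rw [h0]
          simp
        · exact h0
      obtain ⟨T, hT⟩ := cf_marked_dies i ev hi hloc (h3a hi) h3c j μ
      have hrep : ∀ m, rep m (List.replicate L (none : Option (ZMod q)))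
          = List.replicate (m * L) none := by
        intro m
        induction m with
        | zero => simp [rep]
        | succ m ih =>
          show rep m (List.replicate L none) ++ List.replicate L none = _
          rw [ih, ← List.replicate_add]
          congr 1
          ring
      have h1 := halive T
      rw [hrep] at h1
      have h2 : T * L = T + (T * L - T) := by
        have : T ≤ T * L := Nat.le_mul_of_pos_right T hL
        omega
      rw [h2, List.replicate_add] at h1
      exact cf_run_kill_prefix _ _ _ _ _ h1 hT

end block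

/-- The event-free block automaton of the first kind is counter-free. -/
theorem bcf1 (q : ℕ) [Fact q.Prime] (i : ZMod q) : CounterFree (kill (bstep i) (bev1 i)) := by
  have : NeZero q := ⟨(Fact.out : q.Prime).ne_zero⟩
  intro u
  have hloc : ∀ (p : ZMod q) (ν : Fin 3) (c : Option (ZMod q)),
      bev1 i (p, ν) c = true → p = 0 ∨ p + kwt i c = 0 := by
    intro p ν c h
    by_cases hp : p = 0
    · exact Or.inl hp
    · right
      simp [bev1, hp] at h
      exact h.1
  have h3a : i ≠ 0 → ∀ ν : Fin 3, bev1 i (0, ν) none = false := by
    intro _ ν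
    simp [bev1]
  have h3c : ∀ p : ZMod q, p ≠ 0 → p + i = 0 → bev1 i (p, 0) none = true := by
    intro p hp hpi
    simp [bev1, hp, kwt, hpi]
  obtain ⟨k, hk⟩ := cf_aperiodic_of_periodic_fixed
    (fun t => run (kill (bstep i) (bev1 i)) t u)
    (fun s n hn h => cf_periodic_fixed i (bev1 i) hloc h3a h3c (cf_marked1 i) u s n hn h)
  exact ⟨k, fun s => by rw [cf_run_rep, cf_run_rep]; exact hk s⟩

/-- The event-free block automaton of the second kind is counter-free. -/
theorem bcf2 (q : ℕ) [Fact q.Prime] (i : ZMod q) : CounterFree (kill (bstep i) (bev2 i)) := by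
  have : NeZero q := ⟨(Fact.out : q.Prime).ne_zero⟩
  intro u
  have hloc : ∀ (p : ZMod q) (ν : Fin 3) (c : Option (ZMod q)),
      bev2 i (p, ν) c = true → p = 0 ∨ p + kwt i c = 0 := by
    intro p ν c h
    by_cases hp : p = 0
    · exact Or.inl hp
    · right
      simp [bev2, hp] at h
      exact h.1
  have h3a : i ≠ 0 → ∀ ν : Fin 3, bev2 i (0, ν) none = false := by
    intro hi ν
    simp [bev2, kwt, hi]
  have h3c : ∀ p : ZMod q, p ≠ 0 → p + i = 0 → bev2 i (p, 0) none = true := by
    intro p hp hpi
    simp [bev2, hp, kwt, hpi]
  obtain ⟨k, hk⟩ := cf_aperiodic_of_periodic_fixed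
    (fun t => run (kill (bstep i) (bev2 i)) t u)
    (fun s n hn h => cf_periodic_fixed i (bev2 i) hloc h3a h3c (cf_marked2 i) u s n hn h)
  exact ⟨k, fun s => by rw [cf_run_rep, cf_run_rep]; exact hk s⟩

end Vale.Agent.Lib.P329.helper24
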