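import Vale.Agent.Lib.P329.helper24.Ring

/-!
# P329 (helper24): collecting one letter in a product, for groups of nilpotency class three

An abstract form of the collection formula.  `K` is a commutative group mapped to `G` by `ι`
(in the application `K` is the commutator subgroup), `A ℓ` is the map `k ↦ ⁅g ℓ, k⁆` and
`β ℓ = ⁅g ℓ, g a⁆`.
-/

namespace Vale.Agent.Lib.P329.helper24

open Vale.Agent.Lib.P329

section collect

variable {α : Type} [DecidableEq α] [Fintype α] {G K : Type} [Group G] [CommGroup K]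

/-- The collected commutator part, as an explicit product of powers whose exponents are
scattered subword counts of patterns of length two and three. -/
def expo (β : α → K) (A : α → K →* K) (a : α) (w : List α) : K :=
  (∏ c, β c ^ sc w [c, a]) * (∏ c, (A a (β c)) ^ sc w [c, a, a]) *
    ∏ c, ∏ x, (A c (β x)) ^ sc w [c, x, a]

theorem expo_nil (β : α → K) (A : α → K →* K) (a : α) : expo β A a [] = 1 := by
  simp [expo, sc]

theorem expo_cons (β : α → K) (A : α → K →* K) (hA : ∀ ℓ c k, A ℓ (A c k) = 1) (a ℓ : α)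
    (w : List α) :
    expo β A a (ℓ :: w) = A ℓ (expo β A a w) * expo β A a w *
      (β ℓ ^ sc w [a] * (A a (β ℓ)) ^ tri (sc w [a])) := by
  have e1 : ∀ (f : α → K) (m : ℕ), ∏ c, f c ^ (if ℓ = c then m else 0) = f ℓ ^ m := by
    intro f m
    simp only [pow_ite, pow_zero, Finset.prod_ite_eq, Finset.mem_univ, if_true]
  have e2 : ∀ (f : α → α → K) (m : α → ℕ),
      ∏ c, ∏ x, f c x ^ (if ℓ = c then m x else 0) = ∏ x, f ℓ x ^ m x := by
    intro f m
    have : ∀ c, ∏ x, f c x ^ (if ℓ = c then m x else 0)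
        = if ℓ = c then ∏ x, f c x ^ m x else 1 := by
      intro c
      by_cases h : ℓ = c
      · simp [h]
      · simp [h]
    simp only [this, Finset.prod_ite_eq, Finset.mem_univ, if_true]
  have e3 : sc w [a, a] = tri (sc w [a]) := by rw [sc_xx, sc_single]
  have e4 : A ℓ (expo β A a w) = ∏ x, (A ℓ (β x)) ^ sc w [x, a] := by
    simp only [expo, map_mul, map_prod, map_pow, hA, one_pow, Finset.prod_const_one, mul_one]
  rw [e4]
  simp only [expo, sc_cons, pow_add, Finset.prod_mul_distrib, e1, e2, e3]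
  simp only [mul_comm, mul_left_comm, mul_assoc]

omit [DecidableEq α] [Fintype α] in
theorem comm_pow (ι : K →* G) (g : α → G) (a : α) (A : α → K →* K) (β : α → K)
    (h1 : ∀ ℓ k, g ℓ * ι k = ι (A ℓ k) * ι k * g ℓ)
    (hβ : ∀ ℓ, g ℓ * g a = ι (β ℓ) * g a * g ℓ)
    (hA : ∀ ℓ c k, A ℓ (A c k) = 1) (ℓ : α) (n : ℕ) :
    g ℓ * g a ^ n = ι (β ℓ ^ n * (A a (β ℓ)) ^ tri n) * g a ^ n * g ℓ := by
  induction n with
  | zero => simp [tri]
  | succ n ih =>
    have e : β ℓ ^ (n + 1) * (A a (β ℓ)) ^ tri (n + 1)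
        = β ℓ * A a (β ℓ ^ n * (A a (β ℓ)) ^ tri n) * (β ℓ ^ n * (A a (β ℓ)) ^ tri n) := by
      simp only [map_mul, map_pow, hA, one_pow, mul_one, tri_succ, pow_add, pow_succ]
      simp only [mul_comm, mul_left_comm, mul_assoc]
    rw [e, map_mul, map_mul, pow_succ', ← mul_assoc, hβ ℓ]
    calc ι (β ℓ) * g a * g ℓ * g a ^ n
        = ι (β ℓ) * g a * (g ℓ * g a ^ n) := by simp only [mul_assoc]
      _ = ι (β ℓ) * (g a * ι (β ℓ ^ n * (A a (β ℓ)) ^ tri n)) * g a ^ n * g ℓ := by
          rw [ih]; simp only [mul_assoc]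
      _ = _ := by rw [h1 a]; simp only [mul_assoc]

/-- The collection formula: all occurrences of the letter `a` are moved to the front. -/
theorem collect (ι : K →* G) (g : α → G) (a : α) (A : α → K →* K) (β : α → K)
    (h1 : ∀ ℓ k, g ℓ * ι k = ι (A ℓ k) * ι k * g ℓ)
    (hβ : ∀ ℓ, g ℓ * g a = ι (β ℓ) * g a * g ℓ)
    (hA : ∀ ℓ c k, A ℓ (A c k) = 1) (w : List α) :
    (w.map g).prod
      = ι (expo β A a w) * g a ^ sc w [a] * (w.map (Function.update g a 1)).prod := by
  induction w with
  | nil => simp [expo_nil, sc]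
  | cons ℓ w ih =>
    rw [List.map_cons, List.prod_cons, ih, expo_cons β A hA, map_mul, map_mul, List.map_cons,
      List.prod_cons]
    have e : g a ^ sc w [a] * g ℓ
        = g a ^ sc (ℓ :: w) [a] * Function.update g a 1 ℓ := by
      rw [sc_cons, sc_nil]
      by_cases h : ℓ = a
      · subst h
        simp [pow_succ]
      · simp [h]
    calc g ℓ * (ι (expo β A a w) * g a ^ sc w [a] * (w.map (Function.update g a 1)).prod)
        = (g ℓ * ι (expo β A a w)) * g a ^ sc w [a] * (w.map (Function.update g a 1)).prod := by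
          simp only [mul_assoc]
      _ = ι (A ℓ (expo β A a w)) * ι (expo β A a w) * (g ℓ * g a ^ sc w [a])
            * (w.map (Function.update g a 1)).prod := by
          rw [h1 ℓ]; simp only [mul_assoc]
      _ = ι (A ℓ (expo β A a w)) * ι (expo β A a w)
            * ι (β ℓ ^ sc w [a] * (A a (β ℓ)) ^ tri (sc w [a])) * (g a ^ sc w [a] * g ℓ)
            * (w.map (Function.update g a 1)).prod := by
          rw [comm_pow ι g a A β h1 hβ hA ℓ]; simp only [mul_assoc]
      _ = _ := by rw [e]; simp only [mul_assoc]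

/-- The collected commutator part only depends on the subword counts modulo an exponent. -/
theorem expo_congr (β : α → K) (A : α → K →* K) (a : α) (N : ℕ) (hN : ∀ k : K, k ^ N = 1)
    (w w' : List α) (h : ∀ u : List α, u.length ≤ 3 → sc w u % N = sc w' u % N) :
    expo β A a w = expo β A a w' := by
  have e : ∀ (k : K) (u : List α), u.length ≤ 3 → k ^ sc w u = k ^ sc w' u := by
    intro k u hu
    rw [pow_eq_pow_mod (sc w u) (hN k), pow_eq_pow_mod (sc w' u) (hN k), h u hu]
  unfold expo
  congr 1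
  · congr 1
    · exact Finset.prod_congr rfl (fun c _ => e _ _ (by simp))
    · exact Finset.prod_congr rfl (fun c _ => e _ _ (by simp))
  · exact Finset.prod_congr rfl (fun c _ => Finset.prod_congr rfl (fun x _ => e _ _ (by simp)))

end collect

end Vale.Agent.Lib.P329.helper24
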