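import Vale.Agent.Lib.P329.helper24.Collect

/-!
# P329 (helper24): languages recognized by finite nilpotent groups of class at most three
-/

namespace Vale.Agent.Lib.P329.helper24

open Vale.Agent.Lib.P329

open scoped commutatorElement

section nilpotent

variable {G : Type} [Group G]

theorem comm_mem (x y : G) : ⁅x, y⁆ ∈ commutator G :=
  Subgroup.commutator_mem_commutator (Subgroup.mem_top x) (Subgroup.mem_top y)

/-- In a group of class at most three, commutators with elements of the commutator subgroup
are central. -/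
theorem central_of_class3 (h3 : Subgroup.lowerCentralSeries (⊤ : Subgroup G) 3 = ⊥) (h k : G)
    (hk : k ∈ commutator G) (u : G) : ⁅u, ⁅h, k⁆⁆ = 1 := by
  have h2 : ⁅k, h⁆ ∈ Subgroup.lowerCentralSeries (⊤ : Subgroup G) 2 :=
    Subgroup.commutator_mem_commutator hk (Subgroup.mem_top h)
  have h2' : ⁅h, k⁆ ∈ Subgroup.lowerCentralSeries (⊤ : Subgroup G) 2 := by
    rw [← commutatorElement_inv]
    exact inv_mem h2
  have h3' : ⁅⁅h, k⁆, u⁆ ∈ Subgroup.lowerCentralSeries (⊤ : Subgroup G) 3 :=
    Subgroup.commutator_mem_commutator h2' (Subgroup.mem_top u)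
  rw [h3, Subgroup.mem_bot] at h3'
  rw [← commutatorElement_inv, h3', inv_one]

/-- In a group of class at most three, the commutator subgroup is commutative. -/
theorem comm_of_class3 (h3 : Subgroup.lowerCentralSeries (⊤ : Subgroup G) 3 = ⊥) :
    ⁅commutator G, commutator G⁆ = ⊥ := by
  have e1 : ⁅⁅(⊤ : Subgroup G), commutator G⁆, (⊤ : Subgroup G)⁆ = ⊥ := by
    rw [Subgroup.commutator_comm (⊤ : Subgroup G) (commutator G)]
    exact h3
  have e2 : ⁅⁅commutator G, (⊤ : Subgroup G)⁆, (⊤ : Subgroup G)⁆ = ⊥ := h3
  exact Subgroup.commutator_commutator_eq_bot_of_rotate e1 e2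

/-- The map `k ↦ ⁅h, k⁆` on the commutator subgroup of a group of class at most three. -/
def adK (h3 : Subgroup.lowerCentralSeries (⊤ : Subgroup G) 3 = ⊥) (h : G) :
    ↥(commutator G) →* ↥(commutator G) where
  toFun k := ⟨⁅h, (k : G)⁆, comm_mem h k⟩
  map_one' := by
    apply Subtype.ext
    simp
  map_mul' k k' := by
    apply Subtype.ext
    have hc := central_of_class3 h3 h (k' : G) k'.2 (k : G)
    rw [commutatorElement_eq_one_iff_mul_comm] at hc
    show ⁅h, (k : G) * (k' : G)⁆ = ⁅h, (k : G)⁆ * ⁅h, (k' : G)⁆
    rw [commutatorElement_mul_right_eq_mul_conj, mul_assoc ⁅h, (k : G)⁆, hc]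
    simp [mul_assoc]

theorem adK_coe (h3 : Subgroup.lowerCentralSeries (⊤ : Subgroup G) 3 = ⊥) (h : G)
    (k : ↥(commutator G)) : ((adK h3 h k : ↥(commutator G)) : G) = ⁅h, (k : G)⁆ := rfl

theorem adK_adK (h3 : Subgroup.lowerCentralSeries (⊤ : Subgroup G) 3 = ⊥) (h h' : G)
    (k : ↥(commutator G)) : adK h3 h (adK h3 h' k) = 1 := by
  apply Subtype.ext
  rw [adK_coe, adK_coe]
  exact central_of_class3 h3 h' (k : G) k.2 h

end nilpotent

section main

open IsMulCommutative

variable {α : Type} [DecidableEq α] [Fintype α] {G : Type} [Group G] [Finite G]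

/-- The product of a word in a finite group of class at most three is a good function. -/
theorem good_prod_class3 (h3 : Subgroup.lowerCentralSeries (⊤ : Subgroup G) 3 = ⊥) :
    ∀ (s : Finset α) (g : α → G), (∀ c, g c ≠ 1 → c ∈ s) →
      Good (fun w : List α => (w.map g).prod) := by
  have hcomm : IsMulCommutative ↥(commutator G) :=
    Subgroup.commutator_self_eq_bot_iff.1 (comm_of_class3 h3)
  have hN : 0 < Nat.card G := Nat.card_pos
  have hfam : Good (fun (w : List α) (i : Σ k : Fin 4, (Fin k → α)) =>
      ((sc w (List.ofFn i.2) : ℕ) : ZMod (Nat.card G))) :=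
    Good.pi _ (fun i => good_sc (Nat.card G) hN (List.ofFn i.2) (by
      have := i.1.isLt
      simp only [List.length_ofFn]
      omega))
  have hcount : ∀ (w w' : List α),
      ((fun (i : Σ k : Fin 4, (Fin k → α)) => ((sc w (List.ofFn i.2) : ℕ) : ZMod (Nat.card G)))
        = fun i => ((sc w' (List.ofFn i.2) : ℕ) : ZMod (Nat.card G))) →
      ∀ u : List α, u.length ≤ 3 → sc w u % Nat.card G = sc w' u % Nat.card G := by
    intro w w' h u hu
    have h1 := congrFun h ⟨⟨u.length, by omega⟩, u.get⟩
    simp only [List.ofFn_get] at h1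
    exact (ZMod.natCast_eq_natCast_iff' _ _ _).1 h1
  intro s
  induction s using Finset.induction_on with
  | empty =>
    intro g hg
    have e : (fun w : List α => (w.map g).prod) = fun _ => 1 := by
      funext w
      have h1 : ∀ c, g c = 1 := fun c => by
        by_contra hc
        exact absurd (hg c hc) (Finset.notMem_empty c)
      induction w with
      | nil => rfl
      | cons ℓ w ih => rw [List.map_cons, List.prod_cons, ih, h1, one_mul]
    rw [e]
    exact Good.const 1
  | insert a s ha ih =>
    intro g hg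
    have hg' : ∀ c, Function.update g a 1 c ≠ 1 → c ∈ s := by
      intro c hc
      by_cases hca : c = a
      · subst hca
        simp at hc
      · rw [Function.update_of_ne hca] at hc
        exact Finset.mem_of_mem_insert_of_ne (hg c hc) hca
    have ih' := ih (Function.update g a 1) hg'
    have key := collect (commutator G).subtype g a (fun ℓ => adK h3 (g ℓ))
      (fun ℓ => ⟨⁅g ℓ, g a⁆, comm_mem _ _⟩)
      (fun ℓ k => by
        show g ℓ * (k : G) = ⁅g ℓ, (k : G)⁆ * (k : G) * g ℓ
        simp [commutatorElement_def])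
      (fun ℓ => by
        show g ℓ * g a = ⁅g ℓ, g a⁆ * g a * g ℓ
        simp [commutatorElement_def])
      (fun ℓ c k => adK_adK h3 (g ℓ) (g c) k)
    have hE : Good (fun w : List α => expo (fun ℓ => (⟨⁅g ℓ, g a⁆, comm_mem _ _⟩ : ↥(commutator G)))
        (fun ℓ => adK h3 (g ℓ)) a w) :=
      hfam.of_det _ (fun w w' h => expo_congr _ _ a (Nat.card G)
        (fun k => Subtype.ext (by
          rw [Subgroup.coe_pow]
          exact pow_card_eq_one')) w w' (hcount w w' h))
    have hP : Good (fun w : List α => g a ^ sc w [a]) := by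
      refine (good_sc (Nat.card G) hN [a] (by simp)).of_det _ (fun w w' h => ?_)
      have h1 := (ZMod.natCast_eq_natCast_iff' _ _ _).1 h
      rw [pow_eq_pow_mod (sc w [a]) pow_card_eq_one', pow_eq_pow_mod (sc w' [a]) pow_card_eq_one',
        h1]
    refine (((hE.comp (commutator G).subtype).mul hP).mul ih').of_det _ (fun w w' h => ?_)
    rw [key w, key w']
    exact h

/-- Every language recognized by a finite group of nilpotency class at most three has
generalized star height at most one. -/
theorem class3_height_one {α : Type} [Fintype α] {G : Type} [Group G] [Finite G]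
    (h3 : Subgroup.lowerCentralSeries (⊤ : Subgroup G) 3 = ⊥) (φ : α → G) (T : Set G) :
    HLE 1 ({w | (w.map φ).prod ∈ T} : Language α) := by
  classical
  have hprod := good_prod_class3 h3 (Finset.univ : Finset α) φ (fun c _ => Finset.mem_univ c)
  refine ((hprod.comp (fun y => y ∈ T)).level True).congr ?_
  intro w
  show (w.map φ).prod ∈ T ↔ ((w.map φ).prod ∈ T) = True
  simp

end main

end Vale.Agent.Lib.P329.helper24
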