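import Vale.Agent.Lib.P329.helper24.BlockDefs

/-!
# P329 (helper24): phase counts along a walk on a monoid

`mzc wt a x w` is the number of occurrences of the letter `a` in `w` that are read at phase `x`,
where the phase of a position is the product of the weights `wt c` of the letters before it.
`gzc` is the additive version.
-/

namespace Vale.Agent.Lib.P329.helper24

open Vale.Agent.Lib.P329

variable {α : Type}

open Classical in
/-- `mzcAux wt a x acc w`: the number of occurrences of the letter `a` in `w` that are read at
phase `x`, where the phase starts at `acc` and each letter `c` multiplies it by `wt c` on the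
right. -/
noncomputable def mzcAux {Q : Type} [Monoid Q] (wt : α → Q) (a : α) (x : Q) :
    Q → List α → ℕ
  | _, [] => 0
  | acc, c :: w => (if c = a ∧ acc = x then 1 else 0) + mzcAux wt a x (acc * wt c) w

/-- `mzc wt a x w`: the number of factorizations `w = u ++ a :: v` with `(u.map wt).prod = x`. -/
noncomputable def mzc {Q : Type} [Monoid Q] (wt : α → Q) (a : α) (x : Q) (w : List α) : ℕ :=
  mzcAux wt a x 1 w

open Classical in
/-- The additive version of `mzcAux`. -/
noncomputable def gzcAux {V : Type} [AddMonoid V] (wt : α → V) (a : α) (x : V) :
    V → List α → ℕ
  | _, [] => 0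
  | acc, c :: w => (if c = a ∧ acc = x then 1 else 0) + gzcAux wt a x (acc + wt c) w

/-- `gzc wt a x w`: the number of factorizations `w = u ++ a :: v` with `(u.map wt).sum = x`. -/
noncomputable def gzc {V : Type} [AddMonoid V] (wt : α → V) (a : α) (x : V) (w : List α) : ℕ :=
  gzcAux wt a x 0 w

end Vale.Agent.Lib.P329.helper24
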