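import Vale.Agent.Lib.P329.helper24.Zone
import Vale.Agent.Lib.P329.helper24.QZoneDefs

/-!
# P329 (helper20 for helper24): phase counts on `ι → ZMod q` from phase counts on `ZMod q`

Radon inversion: the phase counts of a walk on the vector space `ι → ZMod q` are recovered
from the phase counts of all its one-dimensional projections.  Consequently, if phase counts on
`ZMod q` are good modulo every `N`, so are phase counts on `ι → ZMod q`.
-/

namespace Vale.Agent.Lib.P329.helper24

open Vale.Agent.Lib.P329

section radon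

variable {q : ℕ} {ι : Type} [Fintype ι] {α : Type}

/-- The standard bilinear form on `ι → ZMod q`. -/
def rd_dot (c y : ι → ZMod q) : ZMod q := ∑ i, c i * y i

theorem rd_dot_add (c y z : ι → ZMod q) : rd_dot c (y + z) = rd_dot c y + rd_dot c z := by
  unfold rd_dot
  rw [← Finset.sum_add_distrib]
  refine Finset.sum_congr rfl (fun i _ => ?_)
  simp [mul_add]

theorem rd_dot_sub (c y z : ι → ZMod q) : rd_dot c (y - z) = rd_dot c y - rd_dot c z := by
  unfold rd_dot
  rw [← Finset.sum_sub_distrib]
  refine Finset.sum_congr rfl (fun i _ => ?_)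
  simp [mul_sub]

theorem rd_dot_zero (c : ι → ZMod q) : rd_dot c 0 = 0 := by
  unfold rd_dot
  simp

theorem rd_add_dot (c d v : ι → ZMod q) : rd_dot (c + d) v = rd_dot c v + rd_dot d v := by
  unfold rd_dot
  rw [← Finset.sum_add_distrib]
  refine Finset.sum_congr rfl (fun i _ => ?_)
  simp [add_mul]

theorem rd_sub_dot (c d v : ι → ZMod q) : rd_dot (c - d) v = rd_dot c v - rd_dot d v := by
  unfold rd_dot
  rw [← Finset.sum_sub_distrib]
  refine Finset.sum_congr rfl (fun i _ => ?_)
  simp [sub_mul]

theorem rd_single_dot [DecidableEq ι] (i : ι) (t : ZMod q) (v : ι → ZMod q) :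
    rd_dot (Pi.single i t) v = t * v i := by
  unfold rd_dot
  rw [Finset.sum_eq_single i]
  · simp
  · intro b _ hb
    simp [Pi.single_eq_of_ne hb]
  · intro h
    exact absurd (Finset.mem_univ i) h

/-- Bookkeeping for one step of the projection identity, for arbitrary decidability
instances. -/
theorem rd_aux {V : Type} [Fintype V] (P : Prop) (acc : V) (R : V → Prop) (g : V → ℕ)
    (d1 : ∀ y, Decidable (P ∧ acc = y)) (d2 : DecidablePred R) (d3 : Decidable (P ∧ R acc)) :
    ∑ y, (@ite ℕ (R y) (d2 y) ((@ite ℕ (P ∧ acc = y) (d1 y) 1 0) + g y) 0)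
      = (@ite ℕ (P ∧ R acc) d3 1 0) + ∑ y, @ite ℕ (R y) (d2 y) (g y) 0 := by
  classical
  have e : ∀ y : V, (@ite ℕ (R y) (d2 y) ((@ite ℕ (P ∧ acc = y) (d1 y) 1 0) + g y) 0)
      = (if y = acc then (@ite ℕ (P ∧ R acc) d3 1 0) else 0) + (@ite ℕ (R y) (d2 y) (g y) 0) := by
    intro y
    by_cases hy : y = acc
    · subst hy
      by_cases h1 : R y
      · by_cases h2 : P
        · simp [h1, h2]
        · simp [h1, h2]
      · simp [h1]
    · have hy' : ¬ acc = y := fun h => hy h.symm
      by_cases h1 : R y
      · simp [h1, hy, hy']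
      · simp [h1, hy]
  rw [Finset.sum_congr rfl (fun y _ => e y), Finset.sum_add_distrib,
    Finset.sum_ite_eq' Finset.univ acc]
  simp

/-- Projection: the phase counts of the projected walk are sums of phase counts of the walk
over a hyperplane. -/
theorem rd_proj [Fintype (ι → ZMod q)] (wt : α → (ι → ZMod q)) (a : α) (c : ι → ZMod q)
    (j : ZMod q) (w : List α) : ∀ acc : ι → ZMod q,
      gzcAux (fun ℓ => rd_dot c (wt ℓ)) a j (rd_dot c acc) w
        = ∑ y : ι → ZMod q, if rd_dot c y = j then gzcAux wt a y acc w else 0 := by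
  induction w with
  | nil =>
    intro acc
    simp [gzcAux]
  | cons ℓ w ih =>
    intro acc
    simp only [gzcAux]
    rw [← rd_dot_add, ih (acc + wt ℓ)]
    exact (rd_aux (ℓ = a) acc (fun y => rd_dot c y = j)
      (fun y => gzcAux wt a y (acc + wt ℓ) w) _ _ _).symm

/-- The phase counts over all phases add up to the number of occurrences of the letter. -/
theorem rd_sum {V : Type} [AddMonoid V] [Fintype V] [DecidableEq α] (wt : α → V) (a : α)
    (w : List α) : ∀ acc : V, ∑ x : V, gzcAux wt a x acc w = cnt (fun c => c = a) w := by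
  classical
  induction w with
  | nil =>
    intro acc
    simp [gzcAux, cnt]
  | cons c w ih =>
    intro acc
    simp only [gzcAux, cnt, Finset.sum_add_distrib, ih]
    congr 1
    by_cases hc : c = a
    · simp [hc]
    · simp [hc]

/-- A nonzero vector has `card / q` orthogonal vectors. -/
theorem rd_fiber [Fact q.Prime] [DecidableEq ι] (v : ι → ZMod q) (hv : v ≠ 0) :
    q * (Finset.univ.filter (fun c : ι → ZMod q => rd_dot c v = 0)).card
      = Fintype.card (ι → ZMod q) := by
  obtain ⟨i, hi⟩ := Function.ne_iff.1 hv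
  have hi' : v i ≠ 0 := hi
  have hfib : ∀ j : ZMod q,
      (Finset.univ.filter (fun c : ι → ZMod q => rd_dot c v = j)).card
        = (Finset.univ.filter (fun c : ι → ZMod q => rd_dot c v = 0)).card := by
    intro j
    refine Finset.card_nbij' (fun c => c - Pi.single i (j * (v i)⁻¹))
      (fun c => c + Pi.single i (j * (v i)⁻¹)) ?_ ?_ ?_ ?_
    · intro c hc
      simp only [Finset.coe_filter, Finset.mem_univ, true_and, Set.mem_ofPred_eq] at hc ⊢
      rw [rd_sub_dot, rd_single_dot, hc, mul_assoc, inv_mul_cancel₀ hi', mul_one, sub_self]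
    · intro c hc
      simp only [Finset.coe_filter, Finset.mem_univ, true_and, Set.mem_ofPred_eq] at hc ⊢
      rw [rd_add_dot, rd_single_dot, hc, mul_assoc, inv_mul_cancel₀ hi', mul_one, zero_add]
    · intro c _
      simp
    · intro c _
      simp
  have h1 : (Finset.univ : Finset (ι → ZMod q)).card
      = ∑ j : ZMod q, (Finset.univ.filter (fun c : ι → ZMod q => rd_dot c v = j)).card :=
    Finset.card_eq_sum_card_fiberwise (fun c _ => Finset.mem_univ (rd_dot c v))
  rw [Finset.sum_congr rfl (fun j _ => hfib j), Finset.sum_const, Finset.card_univ,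
    Finset.card_univ, ZMod.card, smul_eq_mul] at h1
  exact h1.symm

/-- The Radon identity. -/
theorem rd_radon [Fact q.Prime] [DecidableEq ι] [DecidableEq α] (wt : α → (ι → ZMod q)) (a : α)
    (x : ι → ZMod q) (w : List α) :
    q * ∑ c : ι → ZMod q, gzc (fun ℓ => rd_dot c (wt ℓ)) a (rd_dot c x) w
      = (q - 1) * Fintype.card (ι → ZMod q) * gzc wt a x w
        + Fintype.card (ι → ZMod q) * cnt (fun ℓ => ℓ = a) w := by
  have hq : 1 ≤ q := (Fact.out : q.Prime).one_le
  have e1 : ∀ c : ι → ZMod q, gzc (fun ℓ => rd_dot c (wt ℓ)) a (rd_dot c x) w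
      = ∑ y : ι → ZMod q, if rd_dot c y = rd_dot c x then gzc wt a y w else 0 := by
    intro c
    have h := rd_proj wt a c (rd_dot c x) w 0
    rw [rd_dot_zero] at h
    exact h
  rw [Finset.sum_congr rfl (fun c _ => e1 c), Finset.sum_comm, Finset.mul_sum]
  have e2 : ∀ y : ι → ZMod q,
      q * ∑ c : ι → ZMod q, (if rd_dot c y = rd_dot c x then gzc wt a y w else 0)
        = (if y = x then (q - 1) * Fintype.card (ι → ZMod q) * gzc wt a x w else 0)
          + Fintype.card (ι → ZMod q) * gzc wt a y w := by
    intro y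
    rw [Finset.sum_ite, Finset.sum_const_zero, add_zero, Finset.sum_const, smul_eq_mul,
      ← mul_assoc]
    by_cases hy : y = x
    · subst hy
      simp only [Finset.filter_true, Finset.card_univ, if_true]
      have : q * Fintype.card (ι → ZMod q)
          = (q - 1) * Fintype.card (ι → ZMod q) + Fintype.card (ι → ZMod q) := by
        have h2 : q = (q - 1) + 1 := by omega
        nth_rewrite 1 [h2]
        ring
      rw [this, add_mul]
    · have hv : y - x ≠ 0 := sub_ne_zero.2 hy
      have h3 := rd_fiber (y - x) hv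
      have h4 : (Finset.univ.filter (fun c : ι → ZMod q => rd_dot c y = rd_dot c x))
          = (Finset.univ.filter (fun c : ι → ZMod q => rd_dot c (y - x) = 0)) := by
        ext c
        simp only [Finset.mem_filter, Finset.mem_univ, true_and]
        rw [rd_dot_sub, sub_eq_zero]
      rw [h4, h3, if_neg hy, zero_add]
  rw [Finset.sum_congr rfl (fun y _ => e2 y), Finset.sum_add_distrib,
    Finset.sum_ite_eq' Finset.univ x, ← Finset.mul_sum]
  simp only [Finset.mem_univ, if_true]
  congr 2
  exact rd_sum wt a w 0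

end radon

/-- If phase counts along walks on `ZMod q` are good modulo every `N`, then so are phase counts
along walks on `ι → ZMod q`. -/
theorem gzone_good_pi (q : ℕ) [Fact q.Prime] {ι : Type} [Fintype ι] {α : Type} [Fintype α]
    (hz : ∀ (wt : α → ZMod q) (a : α) (N : ℕ), 0 < N → ∀ x : ZMod q, GoodN N (gzc wt a x))
    (wt : α → (ι → ZMod q)) (a : α) (N : ℕ) (hN : 0 < N) (x : ι → ZMod q) :
    GoodN N (gzc wt a x) := by
  classical
  have hq : 2 ≤ q := (Fact.out : q.Prime).two_le
  have hHpos : 0 < Fintype.card (ι → ZMod q) := Fintype.card_pos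
  have hQpos : 0 < (q - 1) * Fintype.card (ι → ZMod q) := Nat.mul_pos (by omega) hHpos
  have hM : 0 < (q - 1) * Fintype.card (ι → ZMod q) * N := Nat.mul_pos hQpos hN
  have g1 : GoodN ((q - 1) * Fintype.card (ι → ZMod q) * N)
      (fun w => ∑ c : ι → ZMod q, gzc (fun ℓ => rd_dot c (wt ℓ)) a (rd_dot c x) w) := by
    have h := Good.sum (α := α) (γ := ZMod ((q - 1) * Fintype.card (ι → ZMod q) * N))
      Finset.univ
      (fun c w => ((gzc (fun ℓ => rd_dot c (wt ℓ)) a (rd_dot c x) w : ℕ) :
        ZMod ((q - 1) * Fintype.card (ι → ZMod q) * N)))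
      (fun c _ => hz _ a _ hM _)
    refine h.of_det _ ?_
    intro w w' h'
    push_cast
    exact h'
  have g2 : GoodN ((q - 1) * Fintype.card (ι → ZMod q) * N)
      (fun w : List α => cnt (fun ℓ => ℓ = a) w) := good_cnt _ _ hM
  refine (Good.pair g1 g2).of_det _ ?_
  intro w w' h
  have h1 := congrArg Prod.fst h
  have h2 := congrArg Prod.snd h
  simp only at h1 h2
  have r1 := rd_radon wt a x w
  have r2 := rd_radon wt a x w'
  apply cast_cancel ((q - 1) * Fintype.card (ι → ZMod q)) N _ _ hQpos.ne'
  have c1 := congrArg (fun n : ℕ => (n : ZMod ((q - 1) * Fintype.card (ι → ZMod q) * N))) r1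
  have c2 := congrArg (fun n : ℕ => (n : ZMod ((q - 1) * Fintype.card (ι → ZMod q) * N))) r2
  simp only [Nat.cast_add, Nat.cast_mul] at c1 c2
  simp only [Nat.cast_mul]
  linear_combination (-1 : ZMod ((q - 1) * Fintype.card (ι → ZMod q) * N)) * c1 + c2
    + (q : ZMod ((q - 1) * Fintype.card (ι → ZMod q) * N)) * h1
    - (Fintype.card (ι → ZMod q) : ZMod ((q - 1) * Fintype.card (ι → ZMod q) * N)) * h2

end Vale.Agent.Lib.P329.helper24
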