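import Mathlib

/-!
# P329 (helper24): the class of groups covered by the height-one theorems

`Covered G`: the group `G` is nilpotent of class at most three, or it has an abelian normal
subgroup `A` such that `G / A` is an elementary abelian `q`-group for some prime `q`
(every `q`-th power and every commutator of `G` lies in `A`).
-/

namespace Vale.Agent.Lib.P329.helper24

/-- `G` is nilpotent of class at most three, or abelian by elementary abelian. -/
def Covered (G : Type) [Group G] : Prop :=
  Subgroup.lowerCentralSeries (⊤ : Subgroup G) 3 = ⊥ ∨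
    ∃ (A : Subgroup G) (q : ℕ), A.Normal ∧ q.Prime ∧ (∀ a ∈ A, ∀ b ∈ A, a * b = b * a) ∧
      (∀ g : G, g ^ q ∈ A) ∧ (∀ g h : G, g * h * g⁻¹ * h⁻¹ ∈ A)

/-- A commutative group is covered. -/
theorem Covered.of_comm {G : Type} [Group G] (h : ∀ a b : G, a * b = b * a) : Covered G := by
  left
  have h1 : Subgroup.lowerCentralSeries (⊤ : Subgroup G) 1 = ⊥ := by
    rw [eq_bot_iff]
    intro x hx
    rw [Subgroup.top_lowerCentralSeries_one, commutator_def] at hx
    have h2 : (⁅(⊤ : Subgroup G), (⊤ : Subgroup G)⁆ : Subgroup G) = ⊥ := by
      rw [Subgroup.commutator_eq_bot_iff_le_centralizer]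
      intro y _
      rw [Subgroup.mem_centralizer_iff]
      intro z _
      exact h z y
    rw [h2] at hx
    exact hx
  rw [eq_bot_iff, ← h1]
  exact Subgroup.lowerCentralSeries_antitone _ (by norm_num)

end Vale.Agent.Lib.P329.helper24
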