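import Vale.Agent.Lib.P329.helper24.Elem
import Vale.Agent.Lib.P329.helper24.BlockCF
import Vale.Agent.Lib.P329.helper24.Radon
import Vale.Agent.Lib.P329.helper24.AbKernel
import Vale.Agent.Lib.P329.helper24.Nilpotent
import Vale.Agent.Lib.P329.helper24.SmallDefs

/-!
# P329 (helper24): covered groups have all their languages of generalized star height at most one

* `abelian_by_elementary_HLE`: a finite group with an abelian normal subgroup `A` such that `G / A`
  is an elementary abelian `q`-group.
* `covered_height_one`: the same for every `Covered` group (class at most three, or abelian by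
  elementary abelian).
-/

namespace Vale.Agent.Lib.P329.helper24

open Vale.Agent.Lib.P329

theorem abelian_by_elementary_HLE {G : Type} [Group G] [Finite G] (A : Subgroup G) [A.Normal]
    (hA : ∀ a ∈ A, ∀ b ∈ A, a * b = b * a) (q : ℕ) (hq : q.Prime)
    (hpow : ∀ g : G, g ^ q ∈ A) (hcomm : ∀ g h : G, g * h * g⁻¹ * h⁻¹ ∈ A)
    {α : Type} [Fintype α] (φ : α → G) (T : Set G) :
    HLE 1 ({w : List α | (w.map φ).prod ∈ T} : Language α) := by
  classical
  have : Fact q.Prime := ⟨hq⟩
  have hc : ∀ x y : G ⧸ A, x * y = y * x := by
    intro x y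
    induction x using QuotientGroup.induction_on with
    | H g =>
      induction y using QuotientGroup.induction_on with
      | H h =>
        rw [← QuotientGroup.mk_mul, ← QuotientGroup.mk_mul, QuotientGroup.eq]
        have h1 := hcomm h⁻¹ g⁻¹
        have e1 : (g * h)⁻¹ * (h * g) = h⁻¹ * g⁻¹ * h⁻¹⁻¹ * g⁻¹⁻¹ := by group
        rw [e1]
        exact h1
  have hQ : ∀ y : G ⧸ A, y ^ q = 1 := by
    intro y
    induction y using QuotientGroup.induction_on with
    | H g =>
      rw [← QuotientGroup.mk_pow]
      exact (QuotientGroup.eq_one_iff _).2 (hpow g)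
  obtain ⟨n, e, he, hadd⟩ := exists_coords q hc hQ
  have he1 : e 1 = 0 := by
    have h1 := hadd 1 1
    rw [mul_one] at h1
    exact left_eq_add.1 h1
  have hz0 : ∀ (wt' : α → ZMod q) (a : α) (N : ℕ), 0 < N → ∀ x : ZMod q,
      GoodN N (gzc wt' a x) := by
    intro wt' a N hN x
    have : NeZero N := ⟨hN.ne'⟩
    rw [gzc_eq_zc]
    exact zone_good (bcf1 q) (bcf2 q) wt' a N x
  have hz : ∀ (a : α) (x : G ⧸ A),
      GoodN (Nat.card G) (mzc (fun c => (φ c : G ⧸ A)) a x) := by
    intro a x
    have h1 := gzone_good_pi q hz0 (fun c => e (φ c : G ⧸ A)) a (Nat.card G) Nat.card_pos (e x)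
    refine h1.congr ?_
    intro w
    unfold mzc gzc
    rw [mzcAux_eq_gzcAux e he hadd (fun c => (φ c : G ⧸ A)) a x w 1, he1]
  have hend : Good (fun w : List α => (((w.map φ).prod : G) : G ⧸ A)) := by
    have h1 := good_prod_comm hc (fun c => (φ c : G ⧸ A))
    have e2 : (fun w : List α => (((w.map φ).prod : G) : G ⧸ A))
        = fun w : List α => (w.map (fun c => (φ c : G ⧸ A))).prod := by
      funext w
      induction w with
      | nil => rfl
      | cons c w ih =>
        rw [List.map_cons, List.prod_cons, List.map_cons, List.prod_cons, QuotientGroup.mk_mul,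
          ih]
    rw [e2]
    exact h1
  exact abelian_kernel_of_zone A hA φ hz hend T

/-- Every language recognized by a covered finite group has generalized star height at most
one. -/
theorem covered_height_one {G : Type} [Group G] [Finite G] (h : Covered G)
    {α : Type} [Fintype α] (φ : α → G) (T : Set G) :
    HLE 1 ({w : List α | (w.map φ).prod ∈ T} : Language α) := by
  rcases h with h3 | ⟨A, q, hn, hq, hA, hpow, hcomm⟩
  · exact class3_height_one h3 φ T
  · have := hn
    exact abelian_by_elementary_HLE A hA q hq hpow hcomm φ T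

end Vale.Agent.Lib.P329.helper24
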