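import Vale.Agent.Lib.P329.helper24.Zone
import Vale.Agent.Lib.P329.helper24.QZoneDefs

/-!
# P329 (helper24): elementary abelian quotients

Coordinates on a finite commutative group of prime exponent, transport of phase counts, and the
end phase of a walk on a finite commutative group.
-/

namespace Vale.Agent.Lib.P329.helper24

open Vale.Agent.Lib.P329

variable {α : Type}

theorem gzcAux_eq_zcAux {q : ℕ} [DecidableEq α] (wt : α → ZMod q) (a : α) (x : ZMod q)
    (w : List α) : ∀ acc, gzcAux wt a x acc w = zcAux wt a x acc w := by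
  induction w with
  | nil => intro acc; rfl
  | cons c w ih =>
    intro acc
    simp only [gzcAux, zcAux, ih]
    congr 1
    by_cases h : c = a ∧ acc = x
    · rw [if_pos h, if_pos h]
    · rw [if_neg h, if_neg h]

theorem gzc_eq_zc {q : ℕ} [DecidableEq α] (wt : α → ZMod q) (a : α) (x : ZMod q) :
    gzc wt a x = zc wt a x := by
  funext w
  exact gzcAux_eq_zcAux wt a x w 0

theorem mzcAux_eq_gzcAux {Q V : Type} [Monoid Q] [AddMonoid V] (e : Q → V)
    (he : Function.Injective e) (hmul : ∀ x y, e (x * y) = e x + e y) (wt : α → Q) (a : α)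
    (x : Q) (w : List α) :
    ∀ acc, mzcAux wt a x acc w = gzcAux (fun c => e (wt c)) a (e x) (e acc) w := by
  induction w with
  | nil => intro acc; rfl
  | cons c w ih =>
    intro acc
    simp only [mzcAux, gzcAux, ih, hmul]
    congr 1
    by_cases h : c = a ∧ acc = x
    · rw [if_pos h, if_pos ⟨h.1, congrArg e h.2⟩]
    · rw [if_neg h, if_neg (fun h' => h ⟨h'.1, he h'.2⟩)]

/-- Coordinates on a finite commutative group all of whose elements have order dividing the
prime `q`. -/
theorem exists_coords {Q : Type} [Group Q] [Finite Q] (q : ℕ) [Fact q.Prime]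
    (hc : ∀ x y : Q, x * y = y * x) (hQ : ∀ y : Q, y ^ q = 1) :
    ∃ (n : ℕ) (e : Q → Fin n → ZMod q), Function.Injective e ∧
      ∀ x y, e (x * y) = e x + e y := by
  let inst1 : CommGroup Q := { (inferInstance : Group Q) with mul_comm := hc }
  let inst2 : Module (ZMod q) (Additive Q) :=
    AddCommGroup.zmodModule (fun x => congrArg Additive.ofMul (hQ x.toMul))
  have inst3 : Module.Finite (ZMod q) (Additive Q) := Module.Finite.of_finite
  have inst4 : Module.Free (ZMod q) (Additive Q) :=
    Module.Free.of_divisionRing (ZMod q) (Additive Q)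
  let b := @Module.finBasis (ZMod q) (Additive Q) _ _ inst2 inst4 _ inst3
  let g : Additive Q →+ (Fin (Module.finrank (ZMod q) (Additive Q)) → ZMod q) :=
    b.equivFun.toLinearMap.toAddMonoidHom
  have hg : Function.Injective g := b.equivFun.injective
  refine ⟨Module.finrank (ZMod q) (Additive Q), fun x => g (Additive.ofMul x), ?_, ?_⟩
  · intro x y h
    exact Additive.ofMul.injective (hg h)
  · intro x y
    exact map_add g _ _

theorem pow_eq_of_cast {H : Type} [Monoid H] (y : H) (N : ℕ) (hy : y ^ N = 1) {a b : ℕ}
    (h : (a : ZMod N) = (b : ZMod N)) : y ^ a = y ^ b := by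
  rw [ZMod.natCast_eq_natCast_iff'] at h
  rw [← Nat.div_add_mod a N, ← Nat.div_add_mod b N, pow_add, pow_add, pow_mul, pow_mul, hy,
    one_pow, one_pow, h]

/-- The end phase of a walk on a finite commutative group is a good function of the word. -/
theorem good_prod_comm {Q : Type} [Group Q] [Finite Q] (hc : ∀ x y : Q, x * y = y * x)
    [Fintype α] (wt : α → Q) : Good (fun w : List α => (w.map wt).prod) := by
  classical
  let _ : CommGroup Q := { (inferInstance : Group Q) with mul_comm := hc }
  have hprod : ∀ w : List α, (w.map wt).prod = ∏ c : α, wt c ^ cnt (fun ℓ => ℓ = c) w := by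
    intro w
    induction w with
    | nil => simp [cnt]
    | cons ℓ w ih =>
      rw [List.map_cons, List.prod_cons, ih]
      simp only [cnt, pow_add, Finset.prod_mul_distrib]
      congr 1
      simp [pow_ite]
  have hpos : 0 < Nat.card Q := Nat.card_pos
  have h1 : Good (fun w : List α => fun c : α =>
      ((cnt (fun ℓ => ℓ = c) w : ℕ) : ZMod (Nat.card Q))) :=
    Good.pi _ (fun c => good_cnt (fun ℓ => ℓ = c) (Nat.card Q) hpos)
  refine h1.of_det _ ?_
  intro w w' h
  rw [hprod w, hprod w']
  refine Finset.prod_congr rfl (fun c _ => ?_)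
  exact pow_eq_of_cast (wt c) (Nat.card Q) (pow_card_eq_one') (congrFun h c)

end Vale.Agent.Lib.P329.helper24
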