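import Vale.Agent.Lib.P329.Group

/-!
# P329 (helper24): functions of a word that are determined by finitely many languages of
generalized star height at most one
-/

namespace Vale.Agent.Lib.P329.helper24

open Vale.Agent.Lib.P329

variable {α : Type}

/-- `Good f`: the value `f w` only depends on the membership of `w` in finitely many languages
of generalized star height at most one. -/
def Good {γ : Type} (f : List α → γ) : Prop :=
  ∃ (ι : Type) (_ : Fintype ι) (F : ι → Language α), (∀ i, HLE 1 (F i)) ∧
    ∀ w w' : List α, (∀ i, w ∈ F i ↔ w' ∈ F i) → f w = f w'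

theorem Good.level {γ : Type} {f : List α → γ} (hf : Good f) (c : γ) :
    HLE 1 ({w | f w = c} : Language α) := by
  obtain ⟨ι, inst, F, hF, hdet⟩ := hf
  exact HLE.of_determined F hF _ (fun u u' h hu => (hdet u u' h).symm.trans hu)

theorem Good.of_det {γ γ' : Type} {f : List α → γ} (hf : Good f) (g : List α → γ')
    (h : ∀ w w', f w = f w' → g w = g w') : Good g := by
  obtain ⟨ι, inst, F, hF, hdet⟩ := hf
  exact ⟨ι, inst, F, hF, fun w w' hw => h w w' (hdet w w' hw)⟩

theorem Good.comp {γ γ' : Type} {f : List α → γ} (hf : Good f) (g : γ → γ') :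
    Good (fun w => g (f w)) := hf.of_det _ (fun _ _ h => congrArg g h)

theorem Good.const {γ : Type} (c : γ) : Good (fun _ : List α => c) :=
  ⟨Empty, inferInstance, fun i => i.elim, fun i => i.elim, fun _ _ _ => rfl⟩

theorem Good.pair {γ γ' : Type} {f : List α → γ} {g : List α → γ'} (hf : Good f) (hg : Good g) :
    Good (fun w => (f w, g w)) := by
  obtain ⟨ι, inst, F, hF, hdet⟩ := hf
  obtain ⟨ι', inst', F', hF', hdet'⟩ := hg
  refine ⟨ι ⊕ ι', inferInstance, Sum.elim F F', ?_, ?_⟩
  · rintro (i | i)
    · exact hF i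
    · exact hF' i
  · intro w w' h
    have h1 := hdet w w' (fun i => h (Sum.inl i))
    have h2 := hdet' w w' (fun i => h (Sum.inr i))
    exact congrArg₂ Prod.mk h1 h2

theorem Good.map₂ {γ γ' γ'' : Type} {f : List α → γ} {g : List α → γ'} (hf : Good f)
    (hg : Good g) (op : γ → γ' → γ'') : Good (fun w => op (f w) (g w)) :=
  (hf.pair hg).comp (fun p => op p.1 p.2)

theorem Good.add {γ : Type} [Add γ] {f g : List α → γ} (hf : Good f) (hg : Good g) :
    Good (fun w => f w + g w) := hf.map₂ hg (fun a b => a + b)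

theorem Good.mul {γ : Type} [Mul γ] {f g : List α → γ} (hf : Good f) (hg : Good g) :
    Good (fun w => f w * g w) := hf.map₂ hg (fun a b => a * b)

theorem Good.sub {γ : Type} [Sub γ] {f g : List α → γ} (hf : Good f) (hg : Good g) :
    Good (fun w => f w - g w) := hf.map₂ hg (fun a b => a - b)

theorem Good.sum {γ : Type} [AddCommMonoid γ] {ι : Type} (s : Finset ι) (g : ι → List α → γ)
    (hg : ∀ i ∈ s, Good (g i)) : Good (fun w => ∑ i ∈ s, g i w) := by
  classical
  induction s using Finset.induction_on with
  | empty => simpa using Good.const (α := α) (0 : γ)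
  | insert a s ha ih =>
    have h1 := hg a (Finset.mem_insert_self a s)
    have h2 := ih (fun i hi => hg i (Finset.mem_insert_of_mem hi))
    refine (h1.add h2).of_det _ ?_
    intro w w' h
    simp only [Finset.sum_insert ha]
    exact h

theorem Good.pi {ι : Type} [Fintype ι] {γ : Type} (g : ι → List α → γ) (hg : ∀ i, Good (g i)) :
    Good (fun w => fun i => g i w) := by
  choose κ inst F hF hdet using hg
  refine ⟨Σ i, κ i, inferInstance, fun p => F p.1 p.2, fun p => hF p.1 p.2, ?_⟩
  intro w w' h
  funext i
  exact hdet i w w' (fun j => h ⟨i, j⟩)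

/-- The state reached in a hub automaton is a good function of the word. -/
theorem Good.of_hub {Q : Type} [Fintype α] [Fintype Q] (δ : Q → α → Q) (h : Q) (rk : Q → ℕ)
    (κ : ℕ → α → Option Q)
    (hc : ∀ q c, q ≠ h → δ q c = h ∨ rk q < rk (δ q c) ∨
      (rk (δ q c) = rk q ∧ (κ (rk q) c).getD q = δ q c)) (p : Q) :
    Good (fun w : List α => run δ p w) :=
  ⟨Q, inferInstance, fun q => {w | run δ p w = q}, fun q => hub_criterion δ h rk κ hc p q,
    fun w _ hw => ((hw (run δ p w)).1 rfl).symm⟩

/-- `GoodN n f`: the residue of the natural number `f w` modulo `n` is a good function. -/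
def GoodN (n : ℕ) (f : List α → ℕ) : Prop := Good (fun w => ((f w : ℕ) : ZMod n))

theorem GoodN.const (n c : ℕ) : GoodN n (fun _ : List α => c) := Good.const _

theorem GoodN.add {n : ℕ} {f g : List α → ℕ} (hf : GoodN n f) (hg : GoodN n g) :
    GoodN n (fun w => f w + g w) := by
  refine (Good.add hf hg).of_det _ ?_
  intro w w' h
  push_cast
  exact h

theorem GoodN.mul {n : ℕ} {f g : List α → ℕ} (hf : GoodN n f) (hg : GoodN n g) :
    GoodN n (fun w => f w * g w) := by
  refine (Good.mul hf hg).of_det _ ?_
  intro w w' h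
  push_cast
  exact h

/-- Cancellation: if `f + A = B` with `A` and `B` good modulo `n`, then `f` is good modulo `n`. -/
theorem GoodN.cancel {n : ℕ} {f A B : List α → ℕ} (hA : GoodN n A) (hB : GoodN n B)
    (h : ∀ w, f w + A w = B w) : GoodN n f := by
  refine (Good.sub hB hA).of_det _ ?_
  intro w w' hw
  have e : ∀ v : List α, ((f v : ℕ) : ZMod n) = ((B v : ℕ) : ZMod n) - ((A v : ℕ) : ZMod n) := by
    intro v
    rw [← h v]
    push_cast
    ring
  rw [e w, e w']
  exact hw

theorem GoodN.congr {n : ℕ} {f g : List α → ℕ} (hf : GoodN n f) (h : ∀ w, g w = f w) :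
    GoodN n g := by
  have : g = f := funext h
  rw [this]; exact hf

theorem GoodN.level {n : ℕ} {f : List α → ℕ} (hf : GoodN n f) (r : ℕ) :
    HLE 1 ({w | f w % n = r % n} : Language α) := by
  refine (Good.level hf ((r : ℕ) : ZMod n)).congr ?_
  intro w
  exact (ZMod.natCast_eq_natCast_iff' (f w) r n).symm

end Vale.Agent.Lib.P329.helper24
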