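import Vale.Agent.Lib.P329.helper24.Subword

/-!
# P329 (helper24): subword counting languages for patterns of length at most three
-/

namespace Vale.Agent.Lib.P329.helper24

open Vale.Agent.Lib.P329

variable {α : Type} [DecidableEq α] [Fintype α]

theorem good_mom (n : ℕ) (hn : 0 < n) (D : α → Prop) [DecidablePred D] (p : α) (f : ℕ → ℕ)
    (hf : ∀ x, ((f (x + 2 * n) : ℕ) : ZMod n) = ((f x : ℕ) : ZMod n)) (k : ℕ) :
    GoodN n (fun w : List α => Mom D (fun ℓ => ℓ = p) f k w) :=
  good_Mom D (fun ℓ => ℓ = p) (2 * n) n (by omega) hn f hf k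

/-- Subword counts of patterns of length at most three are good modulo `n`. -/
theorem good_sc (n : ℕ) (hn : 0 < n) : ∀ u : List α, u.length ≤ 3 →
    GoodN n (fun w : List α => sc w u)
  | [], _ => (GoodN.const n 1).congr (fun w => sc_nil w)
  | [a], _ => (good_cnt (fun ℓ => ℓ = a) n hn).congr (fun w => sc_single a w)
  | [a, b], _ => by
    by_cases h : a = b
    · subst h
      exact (good_fun_cnt (fun ℓ => ℓ = a) n (2 * n) (by omega) tri (tri_period n)).congr
        (fun w => sc_xx a w)
    · refine (good_mom n hn (fun ℓ => ℓ = a) b (fun i => i) (id_period n) 0).congr (fun w => ?_)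
      rw [mom_id a b h w 0]
      simp
  | [a, b, c], _ => by
    by_cases hab : a = b
    · subst hab
      by_cases hac : a = c
      · subst hac
        exact (good_fun_cnt (fun ℓ => ℓ = a) n (6 * n) (by omega) tet (tet_period n)).congr
          (fun w => sc_xxx a w)
      · refine (good_mom n hn (fun ℓ => ℓ = a) c tri (tri_period n) 0).congr (fun w => ?_)
        rw [mom_tri a c hac w 0]
        simp [tri]
    · by_cases hac : a = c
      · subst hac
        refine GoodN.cancel
          (A := fun w => Mom (fun ℓ => ℓ = a) (fun ℓ => ℓ = b) (fun i => i * i) 0 w)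
          (B := fun w => cnt (fun ℓ => ℓ = a) w
            * Mom (fun ℓ => ℓ = a) (fun ℓ => ℓ = b) (fun i => i) 0 w)
          (good_mom n hn _ b _ (sq_period n) 0)
          ((good_cnt (fun ℓ => ℓ = a) n hn).mul (good_mom n hn _ b _ (id_period n) 0))
          (fun w => ?_)
        have e := id_xpx a b hab w 0
        simpa using e
      · by_cases hbc : b = c
        · subst hbc
          have hba : b ≠ a := fun h => hab h.symm
          refine GoodN.cancel
            (A := fun w => cnt (fun ℓ => ℓ = b) w
              * Mom (fun ℓ => ℓ = b) (fun ℓ => ℓ = a) (fun i => i) 0 w)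
            (B := fun w => tri (cnt (fun ℓ => ℓ = b) w) * cnt (fun ℓ => ℓ = a) w
              + Mom (fun ℓ => ℓ = b) (fun ℓ => ℓ = a) tri 0 w
              + Mom (fun ℓ => ℓ = b) (fun ℓ => ℓ = a) (fun i => i) 0 w)
            ((good_cnt (fun ℓ => ℓ = b) n hn).mul (good_mom n hn _ a _ (id_period n) 0))
            ((((good_fun_cnt (fun ℓ => ℓ = b) n (2 * n) (by omega) tri (tri_period n)).mul
              (good_cnt (fun ℓ => ℓ = a) n hn)).add (good_mom n hn _ a _ (tri_period n) 0)).add
              (good_mom n hn _ a _ (id_period n) 0))
            (fun w => ?_)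
          have e := id_pxx b a hba w 0
          simpa using e
        · have hcb : c ≠ b := fun h => hbc h.symm
          refine GoodN.cancel
            (A := fun w => Mom (fun ℓ => ℓ = a ∨ ℓ = c) (fun ℓ => ℓ = b) tri 0 w)
            (B := fun w => cnt (fun ℓ => ℓ = c) w
                * Mom (fun ℓ => ℓ = a) (fun ℓ => ℓ = b) (fun i => i) 0 w
              + Mom (fun ℓ => ℓ = a) (fun ℓ => ℓ = b) tri 0 w
              + Mom (fun ℓ => ℓ = c) (fun ℓ => ℓ = b) tri 0 w)
            (good_mom n hn _ b _ (tri_period n) 0)
            ((((good_cnt (fun ℓ => ℓ = c) n hn).mul (good_mom n hn _ b _ (id_period n) 0)).add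
              (good_mom n hn _ b _ (tri_period n) 0)).add (good_mom n hn _ b _ (tri_period n) 0))
            (fun w => ?_)
          have e := id_xpy a b c hab hcb hac w 0 0
          simpa using e
  | _ :: _ :: _ :: _ :: _, h => absurd h (by simp)

/-- The language of the words in which the number of occurrences of `u` as a scattered subword
is congruent to `r` modulo `n` has generalized star height at most one when `u` has length at
most three. -/
theorem subword_count_height_one (u : List α) (hu : u.length ≤ 3) (n : ℕ) (hn : 0 < n) (r : ℕ) :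
    HLE 1 ({w | (w.sublists).count u % n = r % n} : Language α) := by
  refine ((good_sc n hn u hu).level r).congr (fun w => ?_)
  show (w.sublists).count u % n = r % n ↔ sc w u % n = r % n
  rw [count_sublists]

end Vale.Agent.Lib.P329.helper24
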