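import Vale.Agent.Lib.P329.helper24.Good

/-!
# P329 (helper24): the odometer automaton and zone counts
-/

namespace Vale.Agent.Lib.P329.helper24

open Vale.Agent.Lib.P329

variable {α : Type} (D C : α → Prop) [DecidablePred D] [DecidablePred C] (m N : ℕ)

/-- Number of letters of `w` in the class `D`. -/
def cnt : List α → ℕ
  | [] => 0
  | ℓ :: w => (if D ℓ then 1 else 0) + cnt w

/-- Zone count: the number of positions of `w` carrying a letter of `C` (and not of `D`) such
that `k` plus the number of `D`-letters before the position is divisible by `m`. -/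
def Z : ℕ → List α → ℕ
  | _, [] => 0
  | k, ℓ :: w => if D ℓ then Z (k + 1) w else (if C ℓ ∧ m ∣ k then 1 else 0) + Z k w

/-- The increment of the odometer at value `v` on reading the letter `ℓ`. -/
def inc (v : ℕ) (ℓ : α) : ℕ := if D ℓ then 1 else if C ℓ ∧ m ∣ v then m else 0

/-- The odometer automaton on `Fin N`. -/
def ostep (hN : 0 < N) (q : Fin N) (ℓ : α) : Fin N :=
  ⟨(q.val + inc D C m q.val ℓ) % N, Nat.mod_lt _ hN⟩

theorem Z_add_period (w : List α) : ∀ k, Z D C m (k + m) w = Z D C m k w := by
  induction w with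
  | nil => intro k; rfl
  | cons ℓ w ih =>
    intro k
    by_cases hD : D ℓ
    · simp only [Z, if_pos hD]
      rw [add_right_comm]
      exact ih (k + 1)
    · simp only [Z, if_neg hD, Nat.dvd_add_self_right]
      rw [ih k]

theorem Z_false (w : List α) : ∀ k, Z D (fun _ => False) m k w = 0 := by
  induction w with
  | nil => intro k; rfl
  | cons ℓ w ih =>
    intro k
    by_cases hD : D ℓ
    · simp only [Z, if_pos hD]
      exact ih (k + 1)
    · simp only [Z, if_neg hD, false_and, if_false, zero_add]
      exact ih k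

theorem ostep_run (hmN : m ∣ N) (hN : 0 < N) (w : List α) : ∀ q : ℕ,
    (run (ostep D C m N hN) ⟨q % N, Nat.mod_lt _ hN⟩ w).val
      = (q + cnt D w + m * Z D C m q w) % N := by
  induction w with
  | nil => intro q; simp [run, cnt, Z]
  | cons ℓ w ih =>
    intro q
    have key : ostep D C m N hN ⟨q % N, Nat.mod_lt _ hN⟩ ℓ
        = ⟨(q + inc D C m q ℓ) % N, Nat.mod_lt _ hN⟩ := by
      apply Fin.ext
      have h1 : inc D C m (q % N) ℓ = inc D C m q ℓ := by
        unfold inc
        simp only [Nat.dvd_mod_iff hmN]
      show (q % N + inc D C m (q % N) ℓ) % N = (q + inc D C m q ℓ) % N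
      rw [h1, Nat.mod_add_mod]
    rw [run_cons, key, ih]
    by_cases hD : D ℓ
    · simp only [inc, cnt, Z, if_pos hD]
      congr 1
      ring
    · by_cases hC : C ℓ ∧ m ∣ q
      · simp only [inc, cnt, Z, if_neg hD, if_pos hC]
        rw [Z_add_period]
        congr 1
        ring
      · simp only [inc, cnt, Z, if_neg hD, if_neg hC, Nat.add_zero, Nat.zero_add]

theorem ostep_hub (hm : 0 < m) (hmN : m ∣ N) (hN : 0 < N) :
    ∀ (q : Fin N) (c : α), q ≠ ⟨0, hN⟩ →
      ostep D C m N hN q c = ⟨0, hN⟩ ∨ q.val < (ostep D C m N hN q c).val ∨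
        ((ostep D C m N hN q c).val = q.val ∧
          ((fun _ _ => none : ℕ → α → Option (Fin N)) q.val c).getD q = ostep D C m N hN q c) := by
  intro q c hq
  have hv : 0 < q.val := by
    rcases Nat.eq_zero_or_pos q.val with h | h
    · exact absurd (Fin.ext h) hq
    · exact h
  have hlt : q.val < N := q.isLt
  have hcase : ∀ i : ℕ, 0 < i → q.val + i ≤ N → inc D C m q.val c = i →
      ostep D C m N hN q c = ⟨0, hN⟩ ∨ q.val < (ostep D C m N hN q c).val := by
    intro i hi hle hinc
    rcases Nat.lt_or_ge (q.val + i) N with h | h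
    · right
      show q.val < (q.val + inc D C m q.val c) % N
      rw [hinc, Nat.mod_eq_of_lt h]
      omega
    · left
      apply Fin.ext
      show (q.val + inc D C m q.val c) % N = 0
      rw [hinc]
      have : q.val + i = N := le_antisymm hle h
      rw [this, Nat.mod_self]
  by_cases hD : D c
  · have hinc : inc D C m q.val c = 1 := by simp [inc, hD]
    rcases hcase 1 Nat.one_pos (by omega) hinc with h | h
    · exact Or.inl h
    · exact Or.inr (Or.inl h)
  · by_cases hC : C c ∧ m ∣ q.val
    · have hinc : inc D C m q.val c = m := by simp [inc, hD, hC]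
      have hle : q.val + m ≤ N := by
        obtain ⟨t, ht⟩ := hC.2
        obtain ⟨s, hs⟩ := hmN
        have h1 : m * t < m * s := by rw [← ht, ← hs]; exact hlt
        have h2 : t < s := lt_of_mul_lt_mul_left h1 (Nat.zero_le m)
        have h3 : m * (t + 1) ≤ m * s := Nat.mul_le_mul_left m h2
        have h4 : m * (t + 1) = m * t + m := by ring
        omega
      rcases hcase m hm hle hinc with h | h
      · exact Or.inl h
      · exact Or.inr (Or.inl h)
    · have hinc : inc D C m q.val c = 0 := by simp [inc, hD, hC]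
      have hst : ostep D C m N hN q c = q := by
        apply Fin.ext
        show (q.val + inc D C m q.val c) % N = q.val
        rw [hinc, Nat.add_zero, Nat.mod_eq_of_lt hlt]
      right; right
      rw [hst]
      exact ⟨rfl, rfl⟩

section good

variable [Fintype α]

theorem good_state (hm : 0 < m) (hmN : m ∣ N) (hN : 0 < N) (q : ℕ) :
    GoodN N (fun w : List α => q + cnt D w + m * Z D C m q w) := by
  have h1 := Good.of_hub (ostep D C m N hN) ⟨0, hN⟩ (fun q => q.val) (fun _ _ => none)
    (ostep_hub D C m N hm hmN hN) ⟨q % N, Nat.mod_lt _ hN⟩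
  refine h1.of_det _ ?_
  intro w w' h
  have h2 := congrArg Fin.val h
  rw [ostep_run D C m N hmN hN w q, ostep_run D C m N hmN hN w' q] at h2
  exact (ZMod.natCast_eq_natCast_iff' _ _ _).2 h2

/-- The number of `D`-letters modulo any `M ≥ 1` is good. -/
theorem good_cnt (M : ℕ) (hM : 0 < M) : GoodN M (fun w : List α => cnt D w) := by
  have h1 := good_state D (fun _ => False) 1 M Nat.one_pos (one_dvd M) hM 0
  refine h1.congr ?_
  intro w
  rw [Z_false]
  simp

/-- Zone counts modulo `n` are good. -/
theorem good_zone (n : ℕ) (hm : 0 < m) (hn : 0 < n) (q : ℕ) :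
    GoodN n (fun w : List α => Z D C m q w) := by
  have h1 := good_state D C m (m * n) hm (Dvd.intro n rfl) (Nat.mul_pos hm hn) q
  have h2 := good_cnt D (m * n) (Nat.mul_pos hm hn)
  refine (Good.pair h1 h2).of_det _ ?_
  intro w w' h
  have e1 := (ZMod.natCast_eq_natCast_iff _ _ _).1 (congrArg Prod.fst h)
  have e2 := (ZMod.natCast_eq_natCast_iff _ _ _).1 (congrArg Prod.snd h)
  have e3 : q + cnt D w ≡ q + cnt D w' [MOD m * n] := Nat.ModEq.add_left q e2
  have e4 : m * Z D C m q w ≡ m * Z D C m q w' [MOD m * n] := Nat.ModEq.add_left_cancel e3 e1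
  have e5 : Z D C m q w ≡ Z D C m q w' [MOD n] := Nat.ModEq.mul_left_cancel' hm.ne' e4
  exact (ZMod.natCast_eq_natCast_iff _ _ _).2 e5

end good

/-- Moment: the sum of `f (k + number of D-letters before the position)` over the positions of
`w` carrying a letter of `C` (and not of `D`). -/
def Mom {R : Type} [AddCommMonoid R] (f : ℕ → R) : ℕ → List α → R
  | _, [] => 0
  | k, ℓ :: w => if D ℓ then Mom f (k + 1) w else (if C ℓ then f k else 0) + Mom f k w

theorem periodic_mod {R : Type} (f : ℕ → R) (hf : ∀ x, f (x + m) = f x) (k : ℕ) :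
    f (k % m) = f k := by
  have h : ∀ t x, f (x + m * t) = f x := by
    intro t
    induction t with
    | zero => intro x; simp
    | succ t ih =>
      intro x
      have : x + m * (t + 1) = (x + m * t) + m := by ring
      rw [this, hf, ih]
  have := h (k / m) (k % m)
  rw [Nat.mod_add_div] at this
  exact this.symm

theorem zone_indicator (hm : 0 < m) (k i : ℕ) (hi : i < m) :
    m ∣ k + (m - i) ↔ i = k % m := by
  have hk : m * (k / m) + k % m = k := Nat.div_add_mod k m
  have hr : k % m < m := Nat.mod_lt k hm
  constructor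
  · intro h
    have h1 : m ∣ m * (k / m) + (k % m + (m - i)) := by
      have : m * (k / m) + (k % m + (m - i)) = k + (m - i) := by omega
      rw [this]; exact h
    have h2 : m ∣ k % m + (m - i) := (Nat.dvd_add_right (Dvd.intro _ rfl)).1 h1
    have h3 : k % m + (m - i) = m :=
      Nat.eq_of_dvd_of_lt_two_mul (by omega) h2 (by omega)
    omega
  · intro h
    have : k + (m - i) = m * (k / m + 1) := by
      rw [Nat.mul_add, Nat.mul_one]
      omega
    rw [this]
    exact Dvd.intro _ rfl

theorem Mom_eq_sum (n : ℕ) (hm : 0 < m) (f : ℕ → ZMod n) (hf : ∀ x, f (x + m) = f x)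
    (w : List α) : ∀ k, Mom D C f k w
      = ∑ i ∈ Finset.range m, f i * ((Z D C m (k + (m - i)) w : ℕ) : ZMod n) := by
  induction w with
  | nil => intro k; simp [Mom, Z]
  | cons ℓ w ih =>
    intro k
    by_cases hD : D ℓ
    · simp only [Mom, Z, if_pos hD]
      rw [ih (k + 1)]
      refine Finset.sum_congr rfl (fun i _ => ?_)
      have : k + 1 + (m - i) = k + (m - i) + 1 := by ring
      rw [this]
    · simp only [Mom, Z, if_neg hD]
      rw [ih k]
      by_cases hC : C ℓ
      · simp only [hC, if_true, true_and]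
        have hsum : ∑ i ∈ Finset.range m, f i * (((if m ∣ k + (m - i) then 1 else 0 : ℕ)) : ZMod n)
            = f k := by
          rw [Finset.sum_eq_single (k % m)]
          · rw [if_pos ((zone_indicator m hm k (k % m) (Nat.mod_lt k hm)).2 rfl)]
            rw [periodic_mod m f hf k]
            simp
          · intro i hi hne
            rw [if_neg (fun h => hne ((zone_indicator m hm k i (Finset.mem_range.1 hi)).1 h))]
            simp
          · intro h
            exact absurd (Finset.mem_range.2 (Nat.mod_lt k hm)) h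
        rw [← hsum, ← Finset.sum_add_distrib]
        refine Finset.sum_congr rfl (fun i _ => ?_)
        push_cast
        ring
      · simp only [hC, if_false, false_and, zero_add]

theorem Mom_cast (n : ℕ) (f : ℕ → ℕ) (w : List α) : ∀ k,
    ((Mom D C f k w : ℕ) : ZMod n) = Mom D C (fun x => ((f x : ℕ) : ZMod n)) k w := by
  induction w with
  | nil => intro k; simp [Mom]
  | cons ℓ w ih =>
    intro k
    by_cases hD : D ℓ
    · simp only [Mom, if_pos hD]
      exact ih (k + 1)
    · simp only [Mom, if_neg hD]
      by_cases hC : C ℓ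
      · simp only [if_pos hC]
        push_cast
        rw [ih k]
      · simp only [if_neg hC, zero_add]
        exact ih k

/-- Moments of a function that is periodic modulo `n` are good modulo `n`. -/
theorem good_Mom [Fintype α] (n : ℕ) (hm : 0 < m) (hn : 0 < n) (f : ℕ → ℕ)
    (hf : ∀ x, ((f (x + m) : ℕ) : ZMod n) = ((f x : ℕ) : ZMod n)) (k : ℕ) :
    GoodN n (fun w : List α => Mom D C f k w) := by
  have h1 := Good.sum (Finset.range m)
    (fun i (w : List α) => ((f i : ℕ) : ZMod n) * ((Z D C m (k + (m - i)) w : ℕ) : ZMod n))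
    (fun i _ => Good.comp (good_zone D C m n hm hn (k + (m - i))) (fun z => ((f i : ℕ) : ZMod n) * z))
  refine h1.of_det _ ?_
  intro w w' h
  rw [Mom_cast, Mom_cast, Mom_eq_sum D C m n hm _ hf w k, Mom_eq_sum D C m n hm _ hf w' k]
  exact h

/-- A function of the number of `D`-letters that is periodic modulo `n` is good modulo `n`. -/
theorem good_fun_cnt [Fintype α] (n P : ℕ) (hP : 0 < P) (f : ℕ → ℕ)
    (hf : ∀ x, ((f (x + P) : ℕ) : ZMod n) = ((f x : ℕ) : ZMod n)) :
    GoodN n (fun w : List α => f (cnt D w)) := by
  refine (good_cnt D P hP).of_det _ ?_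
  intro w w' h
  have h1 := (ZMod.natCast_eq_natCast_iff' _ _ _).1 h
  have h2 := periodic_mod P (fun x => ((f x : ℕ) : ZMod n)) hf (cnt D w)
  have h3 := periodic_mod P (fun x => ((f x : ℕ) : ZMod n)) hf (cnt D w')
  rw [← h2, ← h3, h1]

end Vale.Agent.Lib.P329.helper24
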