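import Vale.Agent.Lib.P329.helper24.BlockDefs

/-!
# P329: group assembly for an abelian normal subgroup of prime index

If `A` is an abelian normal subgroup of prime index `q` in a finite group `G`, then the value
of a word under a morphism to `G` is determined by the numbers, modulo the order of `G`, of
occurrences of each letter read at each phase of a walk on `ZMod q`. Hence, if all these zone
counts are good modulo the order of `G`, every language recognized by `G` has generalized star
height at most one.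
-/

namespace Vale.Agent.Lib.P329.helper24

open Vale.Agent.Lib.P329
open scoped IsMulCommutative

section zone

variable {α : Type} [Fintype α] [DecidableEq α] {q : ℕ} [NeZero q]

/-- In a commutative monoid: the product of `f x ℓ` over all occurrences of a letter `ℓ` read
at phase `x`, the phase starting at `acc`. -/
def zprod {C : Type} [CommMonoid C] (wt : α → ZMod q) (f : ZMod q → α → C) (acc : ZMod q)
    (w : List α) : C :=
  ∏ x : ZMod q, ∏ ℓ : α, f x ℓ ^ zcAux wt ℓ x acc w

theorem zprod_nil {C : Type} [CommMonoid C] (wt : α → ZMod q) (f : ZMod q → α → C)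
    (acc : ZMod q) : zprod wt f acc [] = 1 := by
  simp [zprod, zcAux]

theorem zprod_cons {C : Type} [CommMonoid C] (wt : α → ZMod q) (f : ZMod q → α → C)
    (acc : ZMod q) (ℓ0 : α) (w : List α) :
    zprod wt f acc (ℓ0 :: w) = f acc ℓ0 * zprod wt f (acc + wt ℓ0) w := by
  unfold zprod
  simp only [zcAux, pow_add, Finset.prod_mul_distrib]
  congr 1
  rw [Finset.prod_eq_single acc, Finset.prod_eq_single ℓ0]
  · simp
  · intro b _ hb
    simp [Ne.symm hb]
  · intro h
    exact absurd (Finset.mem_univ _) h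
  · intro b _ hb
    apply Finset.prod_eq_one
    intro ℓ _
    simp [Ne.symm hb]
  · intro h
    exact absurd (Finset.mem_univ _) h

/-- The sum of `j ℓ` over all occurrences of letters `ℓ`, written with the zone counts. -/
def zsum (wt : α → ZMod q) (j : α → ℕ) (acc : ZMod q) (w : List α) : ℕ :=
  ∑ x : ZMod q, ∑ ℓ : α, j ℓ * zcAux wt ℓ x acc w

theorem zsum_nil (wt : α → ZMod q) (j : α → ℕ) (acc : ZMod q) : zsum wt j acc [] = 0 := by
  simp [zsum, zcAux]

theorem zsum_cons (wt : α → ZMod q) (j : α → ℕ) (acc : ZMod q) (ℓ0 : α) (w : List α) :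
    zsum wt j acc (ℓ0 :: w) = j ℓ0 + zsum wt j (acc + wt ℓ0) w := by
  unfold zsum
  simp only [zcAux, mul_add, Finset.sum_add_distrib]
  congr 1
  rw [Finset.sum_eq_single acc, Finset.sum_eq_single ℓ0]
  · simp
  · intro b _ hb
    simp [Ne.symm hb]
  · intro h
    exact absurd (Finset.mem_univ _) h
  · intro b _ hb
    apply Finset.sum_eq_zero
    intro ℓ _
    simp [Ne.symm hb]
  · intro h
    exact absurd (Finset.mem_univ _) h

end zone

theorem pow_eq_of_natCast_eq {H : Type} [Monoid H] (y : H) (N : ℕ) (hy : y ^ N = 1) {a b : ℕ}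
    (h : ((a : ℕ) : ZMod N) = ((b : ℕ) : ZMod N)) : y ^ a = y ^ b := by
  have h' : a % N = b % N := (ZMod.natCast_eq_natCast_iff' a b N).1 h
  rw [pow_eq_pow_mod a hy, pow_eq_pow_mod b hy, h']

/-- Group assembly: zone counts that are good modulo the order of `G` give generalized star
height at most one for every language recognized by `G`, when `G` has an abelian normal
subgroup of prime index `q`. -/
theorem prime_index_of_zone {G : Type} [Group G] [Finite G] (A : Subgroup G) [A.Normal]
    (hA : ∀ a ∈ A, ∀ b ∈ A, a * b = b * a) (q : ℕ) [Fact q.Prime] (hi : A.index = q)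
    {α : Type} [Fintype α] [DecidableEq α] (φ : α → G)
    (hz : ∀ (wt : α → ZMod q) (a : α) (x : ZMod q), GoodN (Nat.card G) (zc wt a x))
    (T : Set G) : HLE 1 ({w | (w.map φ).prod ∈ T} : Language α) := by
  have hq : q.Prime := Fact.out
  have : NeZero q := ⟨hq.ne_zero⟩
  have : IsMulCommutative A := ⟨⟨fun a b => Subtype.ext (hA a a.2 b b.2)⟩⟩
  have hcard : Nat.card (G ⧸ A) = q := by
    rw [← Subgroup.index_eq_card]
    exact hi
  obtain ⟨g, hg⟩ : ∃ g, g ∉ A := by
    by_contra hcon
    have h1 : A = ⊤ :=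
      (Subgroup.eq_top_iff' A).2 (fun g => by_contra (fun h => hcon ⟨g, h⟩))
    rw [h1, Subgroup.index_top] at hi
    exact hq.one_lt.ne hi
  have hgne : (g : G ⧸ A) ≠ 1 := fun h1 => hg ((QuotientGroup.eq_one_iff _).1 h1)
  have hgq : g ^ q ∈ A := by
    have h1 : (g : G ⧸ A) ^ q = 1 := by
      rw [← hcard]
      exact pow_card_eq_one'
    rw [← QuotientGroup.mk_pow] at h1
    exact (QuotientGroup.eq_one_iff _).1 h1
  have hdec : ∀ y : G, ∃ a : G, ∃ n : ℕ, a ∈ A ∧ y = a * g ^ n := by
    intro y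
    have hy : (y : G ⧸ A) ∈ Submonoid.powers (g : G ⧸ A) :=
      mem_powers_of_prime_card hcard hgne
    obtain ⟨n, hn⟩ := hy
    refine ⟨y * (g ^ n)⁻¹, n, ?_, by rw [inv_mul_cancel_right]⟩
    apply (QuotientGroup.eq_one_iff _).1
    rw [QuotientGroup.mk_mul, QuotientGroup.mk_inv, QuotientGroup.mk_pow]
    rw [← hn]
    exact mul_inv_cancel _
  choose c j hc hφ using fun ℓ => hdec (φ ℓ)
  obtain ⟨wt, hwt⟩ : ∃ wt : α → ZMod q, ∀ ℓ, wt ℓ = ((j ℓ : ℕ) : ZMod q) := ⟨_, fun _ => rfl⟩
  obtain ⟨cjA, hcjA⟩ : ∃ cjA : ZMod q → α → A,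
      ∀ x ℓ, (cjA x ℓ : G) = g ^ x.val * c ℓ * (g ^ x.val)⁻¹ :=
    ⟨fun x ℓ => ⟨_, (inferInstance : A.Normal).conj_mem _ (hc ℓ) (g ^ x.val)⟩, fun _ _ => rfl⟩
  have hconj : ∀ (n : ℕ) (ℓ : α), g ^ n * c ℓ * (g ^ n)⁻¹ = (cjA ((n : ℕ) : ZMod q) ℓ : G) := by
    intro n ℓ
    rw [hcjA, ZMod.val_natCast]
    have hzA : (g ^ q) ^ (n / q) ∈ A := A.pow_mem hgq _
    have hn : g ^ n = g ^ (n % q) * (g ^ q) ^ (n / q) := by
      rw [← pow_mul, ← pow_add, Nat.mod_add_div]
    have hcomm := hA _ hzA _ (hc ℓ)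
    have hzc : (g ^ q) ^ (n / q) * c ℓ * ((g ^ q) ^ (n / q))⁻¹ = c ℓ := by
      rw [hcomm, mul_inv_cancel_right]
    calc g ^ n * c ℓ * (g ^ n)⁻¹
        = g ^ (n % q) * ((g ^ q) ^ (n / q) * c ℓ * ((g ^ q) ^ (n / q))⁻¹) * (g ^ (n % q))⁻¹ := by
          rw [hn, mul_inv_rev]
          simp only [mul_assoc]
      _ = g ^ (n % q) * c ℓ * (g ^ (n % q))⁻¹ := by rw [hzc]
  have hmain : ∀ (w : List α) (n : ℕ), g ^ n * (w.map φ).prod =
      ((zprod wt cjA ((n : ℕ) : ZMod q) w : A) : G) *
        g ^ (n + zsum wt j ((n : ℕ) : ZMod q) w) := by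
    intro w
    induction w with
    | nil =>
      intro n
      simp [zprod_nil, zsum_nil]
    | cons ℓ w ih =>
      intro n
      have h2 := ih (n + j ℓ)
      have hcast : (((n + j ℓ : ℕ) : ℕ) : ZMod q) = ((n : ℕ) : ZMod q) + wt ℓ := by
        rw [hwt]
        push_cast
        rfl
      rw [hcast] at h2
      rw [List.map_cons, List.prod_cons, zprod_cons, zsum_cons, Subgroup.coe_mul, ← hconj n ℓ,
        hφ ℓ]
      calc g ^ n * (c ℓ * g ^ j ℓ * (w.map φ).prod)
          = g ^ n * c ℓ * (g ^ n)⁻¹ * (g ^ (n + j ℓ) * (w.map φ).prod) := by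
            rw [pow_add]
            group
        _ = _ := by
            rw [h2]
            simp only [mul_assoc, add_assoc]
  have hprod : ∀ w : List α, (w.map φ).prod =
      ((zprod wt cjA 0 w : A) : G) * g ^ (zsum wt j 0 w) := by
    intro w
    have h := hmain w 0
    simpa using h
  have hgood : Good (fun w : List α => (w.map φ).prod) := by
    have h1 : Good (fun w : List α => fun p : α × ZMod q =>
        ((zc wt p.1 p.2 w : ℕ) : ZMod (Nat.card G))) :=
      Good.pi _ (fun p => hz wt p.1 p.2)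
    refine h1.of_det _ ?_
    intro w w' h
    have hh : ∀ (ℓ : α) (x : ZMod q), ((zcAux wt ℓ x 0 w : ℕ) : ZMod (Nat.card G)) =
        ((zcAux wt ℓ x 0 w' : ℕ) : ZMod (Nat.card G)) := fun ℓ x => congrFun h (ℓ, x)
    have hAone : ∀ y : A, y ^ Nat.card G = 1 := by
      intro y
      apply Subtype.ext
      rw [Subgroup.coe_pow, Subgroup.coe_one]
      exact pow_card_eq_one'
    have e1 : zprod wt cjA 0 w = zprod wt cjA 0 w' := by
      unfold zprod
      refine Finset.prod_congr rfl (fun x _ => Finset.prod_congr rfl (fun ℓ _ => ?_))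
      exact pow_eq_of_natCast_eq (cjA x ℓ) (Nat.card G) (hAone _) (hh ℓ x)
    have e2 : g ^ zsum wt j 0 w = g ^ zsum wt j 0 w' := by
      apply pow_eq_of_natCast_eq g (Nat.card G) pow_card_eq_one'
      unfold zsum
      push_cast
      refine Finset.sum_congr rfl (fun x _ => Finset.sum_congr rfl (fun ℓ _ => ?_))
      rw [hh ℓ x]
    show (w.map φ).prod = (w'.map φ).prod
    rw [hprod w, hprod w', e1, e2]
  have hlev := (hgood.comp (fun y => y ∈ T)).level True
  refine hlev.congr ?_
  intro w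
  show (w.map φ).prod ∈ T ↔ ((w.map φ).prod ∈ T) = True
  simp

end Vale.Agent.Lib.P329.helper24
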