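import Vale.Agent.Lib.P329.helper24.Main

/-!
# P329 (helper24): products of elements `1 + x` with all fourfold products of the `x` vanishing
-/

namespace Vale.Agent.Lib.P329.helper24

open Vale.Agent.Lib.P329

variable {α : Type}

theorem prod_one_add {R : Type} [Semiring R] (x : α → R) (w : List α) :
    (w.map (fun a => 1 + x a)).prod = ((w.sublists').map (fun s => (s.map x).prod)).sum := by
  induction w with
  | nil => simp
  | cons ℓ w ih =>
    rw [List.map_cons, List.prod_cons, ih, List.sublists'_cons, List.map_append, List.sum_append,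
      add_mul, one_mul, List.map_map]
    congr 1
    rw [← List.sum_map_mul_left]
    rfl

theorem nsmul_eq_of_mod {R : Type} [AddCommMonoid R] (n : ℕ) (y : R) (hy : n • y = 0) (a b : ℕ)
    (h : a % n = b % n) : a • y = b • y := by
  have e : ∀ c : ℕ, c • y = (c % n) • y := by
    intro c
    conv_lhs => rw [← Nat.mod_add_div c n]
    rw [add_nsmul, mul_nsmul, hy, nsmul_zero, add_zero]
  rw [e a, e b, h]

theorem sum_map_eq_sum_count [DecidableEq α] {R : Type} [AddCommMonoid R] (g : List α → R)
    (L : List (List α)) (s : Finset (List α)) (hs : ∀ u ∈ L, u ∈ s) :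
    (L.map g).sum = ∑ m ∈ s, L.count m • g m := by
  induction L with
  | nil => simp
  | cons a L ih =>
    have ha : a ∈ s := hs a List.mem_cons_self
    rw [List.map_cons, List.sum_cons, ih (fun u hu => hs u (List.mem_cons_of_mem _ hu))]
    have e : ∀ m, (a :: L).count m • g m = L.count m • g m + (if m = a then g m else 0) := by
      intro m
      rw [List.count_cons]
      by_cases h : m = a
      · subst h
        simp [add_nsmul]
      · have h' : ¬ a = m := fun e => h e.symm
        simp [h, h']
    simp only [e, Finset.sum_add_distrib, Finset.sum_ite_eq', ha, if_true]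
    rw [add_comm]

theorem sum_map_congr_count [DecidableEq α] {R : Type} [AddCommMonoid R] (g : List α → R) (n : ℕ)
    (hg : ∀ u, n • g u = 0) (L L' : List (List α))
    (h : ∀ u, g u ≠ 0 → L.count u % n = L'.count u % n) : (L.map g).sum = (L'.map g).sum := by
  rw [sum_map_eq_sum_count g L (L.toFinset ∪ L'.toFinset)
      (fun u hu => Finset.mem_union_left _ (List.mem_toFinset.2 hu)),
    sum_map_eq_sum_count g L' (L.toFinset ∪ L'.toFinset)
      (fun u hu => Finset.mem_union_right _ (List.mem_toFinset.2 hu))]
  refine Finset.sum_congr rfl (fun u _ => ?_)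
  by_cases h0 : g u = 0
  · rw [h0, nsmul_zero, nsmul_zero]
  · exact nsmul_eq_of_mod n (g u) (hg u) _ _ (h u h0)

theorem count_sublists' [DecidableEq α] (w u : List α) : (w.sublists').count u = sc w u := by
  rw [← (List.sublists_perm_sublists' w).count_eq u]
  exact count_sublists w u

theorem prod_long_zero {R : Type} [Semiring R] (x : α → R)
    (hx : ∀ a b c d, x a * x b * x c * x d = 0) :
    ∀ u : List α, ¬ u.length ≤ 3 → (u.map x).prod = 0
  | [], h => absurd (by simp) h
  | [_], h => absurd (by simp) h
  | [_, _], h => absurd (by simp) h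
  | [_, _, _], h => absurd (by simp) h
  | a :: b :: c :: d :: rest, _ => by
    rw [List.map_cons, List.map_cons, List.map_cons, List.map_cons, List.prod_cons,
      List.prod_cons, List.prod_cons, List.prod_cons, ← mul_assoc, ← mul_assoc, ← mul_assoc, hx,
      zero_mul]

/-- Languages recognized through products of elements `1 + x a` in a ring in which `n = 0` and
all fourfold products of the `x a` vanish have generalized star height at most one. -/
theorem ring_height_one [Fintype α] {R : Type} [Ring R] (n : ℕ) (hn : 0 < n) (hR : (n : R) = 0)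
    (x : α → R) (hx : ∀ a b c d, x a * x b * x c * x d = 0) (T : Set R) :
    HLE 1 ({w | (w.map (fun a => 1 + x a)).prod ∈ T} : Language α) := by
  classical
  have hfam : Good (fun (w : List α) (i : Σ k : Fin 4, (Fin k → α)) =>
      ((sc w (List.ofFn i.2) : ℕ) : ZMod n)) :=
    Good.pi _ (fun i => good_sc n hn (List.ofFn i.2) (by
      have := i.1.isLt
      simp only [List.length_ofFn]
      omega))
  have hprod : Good (fun w : List α => (w.map (fun a => 1 + x a)).prod) := by
    refine hfam.of_det _ ?_
    intro w w' h
    rw [prod_one_add, prod_one_add]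
    apply sum_map_congr_count _ n
    · intro u
      rw [nsmul_eq_mul, hR, zero_mul]
    · intro u hu
      have hlen : u.length ≤ 3 := by
        by_contra hcon
        exact hu (prod_long_zero x hx u hcon)
      have h1 := congrFun h ⟨⟨u.length, by omega⟩, u.get⟩
      simp only [List.ofFn_get] at h1
      rw [count_sublists', count_sublists']
      exact (ZMod.natCast_eq_natCast_iff' _ _ _).1 h1
  refine ((hprod.comp (fun y => y ∈ T)).level True).congr ?_
  intro w
  show (w.map (fun a => 1 + x a)).prod ∈ T ↔ ((w.map (fun a => 1 + x a)).prod ∈ T) = True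
  simp

section unitriangular

variable {S : Type} [Ring S]

/-- `SU k M`: the entries `M i j` with `j < i + k` vanish. -/
def SU (k : ℕ) (M : Matrix (Fin 4) (Fin 4) S) : Prop :=
  ∀ i j : Fin 4, j.val < i.val + k → M i j = 0

theorem SU.mul {k : ℕ} {A B : Matrix (Fin 4) (Fin 4) S} (hA : SU k A) (hB : SU 1 B) :
    SU (k + 1) (A * B) := by
  intro i j hij
  rw [Matrix.mul_apply]
  refine Finset.sum_eq_zero (fun l _ => ?_)
  by_cases hl : l.val < i.val + k
  · rw [hA i l hl, zero_mul]
  · rw [hB l j (by omega), mul_zero]

theorem SU.eq_zero {M : Matrix (Fin 4) (Fin 4) S} (hM : SU 4 M) : M = 0 := by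
  ext i j
  exact hM i j (by have := j.isLt; omega)

end unitriangular

/-- Languages recognized by upper unitriangular `4 × 4` matrices over `ℤ/n` have generalized star
height at most one. -/
theorem unitriangular_height_one [Fintype α] (n : ℕ) (hn : 0 < n)
    (φ : α → Matrix (Fin 4) (Fin 4) (ZMod n))
    (hφ : ∀ a i j, (j < i → φ a i j = 0) ∧ φ a i i = 1)
    (T : Set (Matrix (Fin 4) (Fin 4) (ZMod n))) :
    HLE 1 ({w | (w.map φ).prod ∈ T} : Language α) := by
  have hSU : ∀ a, SU 1 (φ a - 1) := by
    intro a i j hij
    rw [Matrix.sub_apply]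
    rcases Nat.lt_or_ge j.val i.val with h | h
    · have hne : i ≠ j := fun e => by rw [e] at h; exact lt_irrefl _ h
      rw [(hφ a i j).1 h, Matrix.one_apply_ne hne, sub_zero]
    · have he : i = j := Fin.ext (by omega)
      subst he
      rw [(hφ a i i).2, Matrix.one_apply_eq, sub_self]
  have hx : ∀ a b c d, (φ a - 1) * (φ b - 1) * (φ c - 1) * (φ d - 1) = 0 := by
    intro a b c d
    exact SU.eq_zero (((hSU a).mul (hSU b)).mul (hSU c) |>.mul (hSU d))
  have hR : ((n : ℕ) : Matrix (Fin 4) (Fin 4) (ZMod n)) = 0 := by
    ext i j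
    by_cases hij : i = j
    · subst hij
      simp [Matrix.natCast_apply]
    · simp [Matrix.natCast_apply, hij]
  have h1 := ring_height_one n hn hR (fun a => φ a - 1) hx T
  have e : (fun a => 1 + (φ a - 1)) = φ := by
    funext a
    abel
  rw [e] at h1
  exact h1

end Vale.Agent.Lib.P329.helper24
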