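import Mathlib
import Vale.Agent.Lib.P329.helper24.SmallDefs

/-!
# P329 (helper24): groups of small order are covered, part A

* `lcs_one_of_comm`, `lcs_succ_of_quotient`, `lcs_prime_pow`: lower central series of groups of
  prime power order.
* `covered_of_prime_index`: an abelian normal subgroup of prime index.
* `covered_pq`: groups of order `p * q` with primes `q < p`.
* `covered_two_mul_sq`: groups of order `2 * p ^ 2`.
-/

namespace Vale.Agent.Lib.P329.helper24

theorem lcs_one_of_comm {G : Type} [Group G] (h : ∀ a b : G, a * b = b * a) :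
    Subgroup.lowerCentralSeries (⊤ : Subgroup G) 1 = ⊥ := by
  rw [eq_bot_iff]
  intro x hx
  rw [Subgroup.top_lowerCentralSeries_one, commutator_def] at hx
  have h2 : (⁅(⊤ : Subgroup G), (⊤ : Subgroup G)⁆ : Subgroup G) = ⊥ := by
    rw [Subgroup.commutator_eq_bot_iff_le_centralizer]
    intro y _
    rw [Subgroup.mem_centralizer_iff]
    intro z _
    exact h z y
  rw [h2] at hx
  exact hx

theorem lcs_bot_of_le {G : Type} [Group G] {c d : ℕ} (hcd : c ≤ d)
    (h : Subgroup.lowerCentralSeries (⊤ : Subgroup G) c = ⊥) :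
    Subgroup.lowerCentralSeries (⊤ : Subgroup G) d = ⊥ := by
  rw [eq_bot_iff, ← h]
  exact Subgroup.lowerCentralSeries_antitone _ hcd

theorem lcs_succ_of_quotient {G : Type} [Group G] (N : Subgroup G) [N.Normal]
    (hN : N ≤ Subgroup.center G) (c : ℕ)
    (h : Subgroup.lowerCentralSeries (⊤ : Subgroup (G ⧸ N)) c = ⊥) :
    Subgroup.lowerCentralSeries (⊤ : Subgroup G) (c + 1) = ⊥ := by
  apply Subgroup.lowerCentralSeries_succ_eq_bot
  intro x hx
  apply hN
  have h1 : (QuotientGroup.mk' N) x ∈ Subgroup.lowerCentralSeries (⊤ : Subgroup (G ⧸ N)) c := by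
    have h2 := Subgroup.map_lowerCentralSeries (S := (⊤ : Subgroup G)) (QuotientGroup.mk' N) c
    have h3 : (QuotientGroup.mk' N) x ∈
        ((⊤ : Subgroup G).lowerCentralSeries c).map (QuotientGroup.mk' N) :=
      Subgroup.mem_map_of_mem _ hx
    rw [h2] at h3
    exact Subgroup.lowerCentralSeries_mono c le_top h3
  rw [h] at h1
  exact (QuotientGroup.eq_one_iff x).1 (Subgroup.mem_bot.1 h1)

theorem lcs_prime_pow (p : ℕ) [hp : Fact p.Prime] : ∀ (k : ℕ) (G : Type) [Group G] [Finite G],
    Nat.card G = p ^ k → Subgroup.lowerCentralSeries (⊤ : Subgroup G) (max (k - 1) 1) = ⊥ := by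
  intro k
  induction k using Nat.strong_induction_on with
  | _ k ih =>
    intro G _ _ hG
    by_cases hk : k ≤ 2
    · have hcomm : ∀ a b : G, a * b = b * a := by
        interval_cases k
        · have h1 : Nat.card G = 1 := by simpa using hG
          have : Subsingleton G := (Nat.card_eq_one_iff_unique.1 h1).1
          intro a b
          rw [Subsingleton.elim a b]
        · have h1 : Nat.card G = p := by simpa using hG
          have : IsCyclic G := isCyclic_of_prime_card h1
          intro a b
          exact (IsCyclic.isMulCommutative (α := G)).is_comm.comm a b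
        · intro a b
          exact (IsPGroup.isMulCommutative_of_card_eq_prime_sq hG).is_comm.comm a b
      exact lcs_bot_of_le (le_max_right _ _) (lcs_one_of_comm hcomm)
    · have hk : 2 < k := Nat.lt_of_not_le hk
      have hkpos : 0 < k := by omega
      obtain ⟨i, hi, hZ⟩ := IsPGroup.card_center_eq_prime_pow hG hkpos
      have h1 := (Subgroup.center G).card_mul_index
      rw [hZ, hG] at h1
      have hik : i ≤ k := by
        have h2 : p ^ i ∣ p ^ k := Dvd.intro _ h1
        exact (Nat.pow_dvd_pow_iff_le_right hp.out.one_lt).1 h2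
      have hidx : Nat.card (G ⧸ Subgroup.center G) = p ^ (k - i) := by
        rw [← Subgroup.index_eq_card]
        have h3 : p ^ i * (Subgroup.center G).index = p ^ i * p ^ (k - i) := by
          rw [h1, ← pow_add]
          congr 1
          omega
        exact Nat.eq_of_mul_eq_mul_left (pow_pos hp.out.pos i) h3
      have h2 := ih (k - i) (by omega) (G ⧸ Subgroup.center G) hidx
      have h3 : Subgroup.lowerCentralSeries (⊤ : Subgroup (G ⧸ Subgroup.center G)) (k - 2) = ⊥ :=
        lcs_bot_of_le (by omega) h2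
      have h4 := lcs_succ_of_quotient (Subgroup.center G) le_rfl (k - 2) h3
      have h5 : max (k - 1) 1 = k - 2 + 1 := by omega
      rw [h5]
      exact h4

theorem covered_prime_pow {G : Type} [Group G] [Finite G] (p : ℕ) (hp : p.Prime) (k : ℕ)
    (hk : k ≤ 4) (hG : Nat.card G = p ^ k) : Covered G := by
  have : Fact p.Prime := ⟨hp⟩
  left
  exact lcs_bot_of_le (by omega) (lcs_prime_pow p k G hG)

theorem covered_of_prime_index {G : Type} [Group G] [Finite G] (A : Subgroup G) [hn : A.Normal]
    (hA : ∀ a ∈ A, ∀ b ∈ A, a * b = b * a) (q : ℕ) (hq : q.Prime) (hidx : A.index = q) :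
    Covered G := by
  have : Fact q.Prime := ⟨hq⟩
  have hcard : Nat.card (G ⧸ A) = q := by rw [← Subgroup.index_eq_card, hidx]
  have hcyc : IsCyclic (G ⧸ A) := isCyclic_of_prime_card hcard
  right
  refine ⟨A, q, hn, hq, hA, ?_, ?_⟩
  · intro g
    have h1 : ((g : G ⧸ A)) ^ q = 1 := by
      rw [← hcard]
      exact pow_card_eq_one'
    rw [← QuotientGroup.mk_pow] at h1
    exact (QuotientGroup.eq_one_iff _).1 h1
  · intro g h
    have h1 : ((g : G ⧸ A)) * (h : G ⧸ A) = (h : G ⧸ A) * (g : G ⧸ A) :=
      (IsCyclic.isMulCommutative (α := G ⧸ A)).is_comm.comm _ _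
    apply (QuotientGroup.eq_one_iff _).1
    rw [QuotientGroup.mk_mul, QuotientGroup.mk_mul, QuotientGroup.mk_mul, h1, QuotientGroup.mk_inv,
      QuotientGroup.mk_inv]
    group

theorem comm_of_card_prime {G : Type} [Group G] (K : Subgroup G) (p : ℕ) (hp : p.Prime)
    (hK : Nat.card K = p) : ∀ a ∈ K, ∀ b ∈ K, a * b = b * a := by
  have : Fact p.Prime := ⟨hp⟩
  have hcyc : IsCyclic K := isCyclic_of_prime_card hK
  intro a ha b hb
  have h1 : (⟨a, ha⟩ : K) * ⟨b, hb⟩ = ⟨b, hb⟩ * ⟨a, ha⟩ :=
    (IsCyclic.isMulCommutative (α := K)).is_comm.comm _ _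
  exact congrArg Subtype.val h1

theorem comm_of_card_prime_sq {G : Type} [Group G] (K : Subgroup G) (p : ℕ) (hp : p.Prime)
    (hK : Nat.card K = p ^ 2) : ∀ a ∈ K, ∀ b ∈ K, a * b = b * a := by
  have : Fact p.Prime := ⟨hp⟩
  intro a ha b hb
  have h1 : (⟨a, ha⟩ : K) * ⟨b, hb⟩ = ⟨b, hb⟩ * ⟨a, ha⟩ :=
    (IsPGroup.isMulCommutative_of_card_eq_prime_sq hK).is_comm.comm _ _
  exact congrArg Subtype.val h1

/-- Groups of order `p * q` with primes `q < p`. -/
theorem covered_pq {G : Type} [Group G] [Finite G] (p q : ℕ) (hp : p.Prime) (hq : q.Prime)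
    (hqp : q < p) (hG : Nat.card G = p * q) : Covered G := by
  have : Fact p.Prime := ⟨hp⟩
  obtain ⟨P⟩ : Nonempty (Sylow p G) := inferInstance
  have hPcard : Nat.card P = p := by
    rw [Sylow.card_eq_multiplicity, hG, Nat.factorization_mul hp.ne_zero hq.ne_zero]
    have h1 : q.factorization p = 0 := by
      apply Nat.factorization_eq_zero_of_not_dvd
      intro hdvd
      have := Nat.le_of_dvd hq.pos hdvd
      omega
    simp [hp.factorization_self, h1]
  have hidx : (P : Subgroup G).index = q := by
    have h1 := (P : Subgroup G).card_mul_index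
    rw [hPcard, hG] at h1
    exact Nat.eq_of_mul_eq_mul_left hp.pos h1
  have hn1 : Nat.card (Sylow p G) = 1 := by
    have h1 : Nat.card (Sylow p G) ∣ q := by
      have := P.card_dvd_index
      rwa [hidx] at this
    have h2 := card_sylow_modEq_one p G
    rcases (Nat.dvd_prime hq).1 h1 with h3 | h3
    · exact h3
    · rw [h3] at h2
      unfold Nat.ModEq at h2
      rw [Nat.mod_eq_of_lt hqp, Nat.mod_eq_of_lt hp.one_lt] at h2
      have := hq.one_lt
      omega
  have hsub : Subsingleton (Sylow p G) := (Nat.card_eq_one_iff_unique.1 hn1).1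
  have hnorm : (P : Subgroup G).Normal := Sylow.normal_of_subsingleton P
  exact covered_of_prime_index (P : Subgroup G) (comm_of_card_prime _ p hp hPcard) q hq hidx

/-- Groups of order `2 * p ^ 2`, `p` an odd prime. -/
theorem covered_two_mul_sq {G : Type} [Group G] [Finite G] (p : ℕ) (hp : p.Prime)
    (hG : Nat.card G = 2 * p ^ 2) : Covered G := by
  have : Fact p.Prime := ⟨hp⟩
  obtain ⟨K, hK⟩ := Sylow.exists_subgroup_card_pow_prime p
    (show p ^ 2 ∣ Nat.card G from ⟨2, by rw [hG]; ring⟩)
  have hidx : K.index = 2 := by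
    have h1 := K.card_mul_index
    rw [hK, hG] at h1
    have h2 : p ^ 2 * K.index = p ^ 2 * 2 := by rw [h1]; ring
    exact Nat.eq_of_mul_eq_mul_left (pow_pos hp.pos 2) h2
  have hnorm : K.Normal := Subgroup.normal_of_index_eq_two hidx
  exact covered_of_prime_index K (comm_of_card_prime_sq K p hp hK) 2 Nat.prime_two hidx

end Vale.Agent.Lib.P329.helper24
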