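import Mathlib
import Vale.Agent.Lib.P329.helper24.SmallA

/-!
# P329 (helper24): groups of order twelve, and groups of order twenty with nontrivial center,
are covered

* `covered_four_mul_prime`: a group of order `4 * p` with a normal subgroup `P` of prime order
  `p` whose centralizer does not have index four.  The centralizer then has index one (so `P` is
  central and the group has class two) or two (and then the centralizer is an abelian normal
  subgroup of index two).
* `card12_covered`: order twelve.  Either the Sylow 3-subgroup `P` is normal, and the index of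
  its centralizer divides the order two of its automorphism group; or there are four Sylow
  3-subgroups, `P` is self-normalizing, and Burnside's transfer theorem provides a normal
  complement of order four (abelian, of index three).
* `card20_covered`: order twenty with a nontrivial central element.  The Sylow 5-subgroup `P` is
  normal; if its centralizer had index four it would be `P` itself, the central element would
  generate `P`, and `P` would be central.
-/

namespace Vale.Agent.Lib.P329.helper24

open Subgroup

theorem covered_four_mul_prime {G : Type} [Group G] [Finite G] (p : ℕ) (hp : p.Prime)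
    (hG : Nat.card G = 4 * p) (P : Subgroup G) [hn : P.Normal] (hPcard : Nat.card P = p)
    (hz : (centralizer (P : Set G)).index ≠ 4) : Covered G := by
  have h2 : Fact (Nat.Prime 2) := ⟨Nat.prime_two⟩
  have hidx : P.index = 4 := by
    have h1 := P.card_mul_index
    rw [hPcard, hG] at h1
    have h3 : p * P.index = p * 4 := by rw [h1]; ring
    exact Nat.eq_of_mul_eq_mul_left hp.pos h3
  have hPcomm : ∀ a ∈ P, ∀ b ∈ P, a * b = b * a := comm_of_card_prime P p hp hPcard
  have hPC : P ≤ centralizer (P : Set G) := by
    intro x hx
    rw [mem_centralizer_iff]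
    intro h hh
    exact hPcomm h hh x hx
  have key : (centralizer (P : Set G)).index ∣ 4 := by
    rw [← hidx]
    exact index_dvd_of_le hPC
  have hle : (centralizer (P : Set G)).index ≤ 4 := Nat.le_of_dvd (by norm_num) key
  have hcases : (centralizer (P : Set G)).index = 1 ∨ (centralizer (P : Set G)).index = 2 := by
    generalize (centralizer (P : Set G)).index = d at key hle hz
    interval_cases d <;> simp_all
  rcases hcases with hC | hC
  · -- `P` is central
    rw [index_eq_one] at hC
    have hPle : P ≤ center G := by
      intro x hx
      rw [mem_center_iff]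
      intro g
      have hg : g ∈ centralizer (P : Set G) := by rw [hC]; trivial
      rw [mem_centralizer_iff] at hg
      exact (hg x hx).symm
    have hQ : Nat.card (G ⧸ P) = 2 ^ 2 := by
      rw [← index_eq_card, hidx]
      norm_num
    have hcomm : ∀ a b : G ⧸ P, a * b = b * a := fun a b =>
      (IsPGroup.isMulCommutative_of_card_eq_prime_sq hQ).is_comm.comm a b
    left
    exact lcs_bot_of_le (by norm_num) (lcs_succ_of_quotient P hPle 1 (lcs_one_of_comm hcomm))
  · -- the centralizer is abelian of index two
    set C : Subgroup G := centralizer (P : Set G) with hCdef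
    have hCn : C.Normal := normal_of_index_eq_two hC
    have hCcard : Nat.card C = 2 * p := by
      have h1 := C.card_mul_index
      rw [hC, hG] at h1
      omega
    have hP'card : Nat.card (P.subgroupOf C) = p := by
      rw [Nat.card_congr (subgroupOfEquivOfLe hPC).toEquiv]
      exact hPcard
    have hP'idx : (P.subgroupOf C).index = 2 := by
      have h1 := (P.subgroupOf C).card_mul_index
      rw [hP'card, hCcard] at h1
      have h3 : p * (P.subgroupOf C).index = p * 2 := by rw [h1]; ring
      exact Nat.eq_of_mul_eq_mul_left hp.pos h3
    have hQ : Nat.card (C ⧸ P.subgroupOf C) = 2 := by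
      rw [← index_eq_card, hP'idx]
    have hcyc : IsCyclic (C ⧸ P.subgroupOf C) := isCyclic_of_prime_card hQ
    have hker : (QuotientGroup.mk' (P.subgroupOf C)).ker ≤ center C := by
      rw [QuotientGroup.ker_mk']
      intro x hx
      rw [mem_subgroupOf] at hx
      rw [mem_center_iff]
      intro g
      have hg : (g : G) ∈ centralizer (P : Set G) := g.2
      rw [mem_centralizer_iff] at hg
      apply Subtype.ext
      exact (hg _ hx).symm
    have hCcomm : ∀ a ∈ C, ∀ b ∈ C, a * b = b * a := by
      intro a ha b hb
      have h1 : (⟨a, ha⟩ : C) * ⟨b, hb⟩ = ⟨b, hb⟩ * ⟨a, ha⟩ :=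
        ((QuotientGroup.mk' (P.subgroupOf C)).isMulCommutative_of_isCyclic_of_ker_le_center
          hker).is_comm.comm _ _
      exact congrArg Subtype.val h1
    exact covered_of_prime_index C hCcomm 2 Nat.prime_two hC

theorem card12_covered {G : Type} [Group G] [Finite G] (hG : Nat.card G = 12) : Covered G := by
  have h3 : Fact (Nat.Prime 3) := ⟨Nat.prime_three⟩
  obtain ⟨P⟩ : Nonempty (Sylow 3 G) := inferInstance
  have hPcard : Nat.card P = 3 := by
    rw [Sylow.card_eq_multiplicity, hG]
    have h1 : (12 : ℕ).factorization 3 = 1 := by
      have h12 : (12 : ℕ) = 2 ^ 2 * 3 := by norm_num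
      rw [h12, Nat.factorization_mul (by norm_num) (by norm_num), Nat.factorization_pow]
      have h4 : (2 : ℕ).factorization 3 = 0 :=
        Nat.factorization_eq_zero_of_not_dvd (by norm_num)
      simp [Nat.prime_three.factorization_self, h4]
    rw [h1]
    norm_num
  have hidx : (P : Subgroup G).index = 4 := by
    have h1 := (P : Subgroup G).card_mul_index
    rw [hPcard, hG] at h1
    omega
  have hPcomm : ∀ a ∈ (P : Subgroup G), ∀ b ∈ (P : Subgroup G), a * b = b * a :=
    comm_of_card_prime (P : Subgroup G) 3 Nat.prime_three hPcard
  have hPC : (P : Subgroup G) ≤ centralizer ((P : Subgroup G) : Set G) := by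
    intro x hx
    rw [mem_centralizer_iff]
    intro h hh
    exact hPcomm h hh x hx
  by_cases hn : (P : Subgroup G).Normal
  · have hPcyc : IsCyclic P := isCyclic_of_prime_card hPcard
    have key := Subgroup.card_dvd_of_injective _
      (QuotientGroup.kerLift_injective (P : Subgroup G).normalizerMonoidHom)
    rw [normalizerMonoidHom_ker, ← index, ← relIndex, IsCyclic.card_mulAut, hPcard,
      Nat.totient_prime Nat.prime_three] at key
    rw [normalizer_eq_top, relIndex_top_right] at key
    have hne : (centralizer ((P : Subgroup G) : Set G)).index ≠ 4 := by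
      intro h4
      rw [h4] at key
      norm_num at key
    exact covered_four_mul_prime 3 Nat.prime_three (by rw [hG]) (P : Subgroup G) hPcard hne
  · -- four Sylow 3-subgroups: Burnside's transfer theorem
    have hn3 : Nat.card (Sylow 3 G) = 4 := by
      have h1 : Nat.card (Sylow 3 G) ∣ 4 := by
        have := P.card_dvd_index
        rwa [hidx] at this
      have h4 := card_sylow_modEq_one 3 G
      have h5 : Nat.card (Sylow 3 G) ≤ 4 := Nat.le_of_dvd (by norm_num) h1
      have h6 : Nat.card (Sylow 3 G) ≠ 1 := by
        intro h7
        have hsub : Subsingleton (Sylow 3 G) := (Nat.card_eq_one_iff_unique.1 h7).1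
        exact hn (Sylow.normal_of_subsingleton P)
      unfold Nat.ModEq at h4
      generalize Nat.card (Sylow 3 G) = n at *
      interval_cases n <;> simp_all
    have hNidx : (normalizer ((P : Subgroup G) : Set G)).index = 4 := by
      have h1 := Sylow.card_eq_index_normalizer P
      rw [hn3] at h1
      exact h1.symm
    have hNcard : Nat.card (normalizer ((P : Subgroup G) : Set G)) = 3 := by
      have h1 := (normalizer ((P : Subgroup G) : Set G)).card_mul_index
      rw [hNidx, hG] at h1
      omega
    have hPN : (P : Subgroup G) = normalizer ((P : Subgroup G) : Set G) :=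
      eq_of_le_of_card_ge le_normalizer (by rw [hNcard, hPcard])
    have hP : normalizer ((P : Subgroup G) : Set G) ≤ centralizer ((P : Subgroup G) : Set G) := by
      rw [← hPN]
      exact hPC
    have hK := MonoidHom.ker_transferSylow_isComplement' P hP
    have hKcard : Nat.card (MonoidHom.transferSylow P hP).ker = 2 ^ 2 := by
      have h1 := hK.card_mul_card
      rw [hPcard, hG] at h1
      omega
    have hKidx : (MonoidHom.transferSylow P hP).ker.index = 3 := by
      have h1 := (MonoidHom.transferSylow P hP).ker.card_mul_index
      rw [hKcard, hG] at h1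
      omega
    exact covered_of_prime_index (MonoidHom.transferSylow P hP).ker
      (comm_of_card_prime_sq _ 2 Nat.prime_two hKcard) 3 Nat.prime_three hKidx

theorem card20_covered {G : Type} [Group G] [Finite G] (hG : Nat.card G = 20)
    (hz : ∃ z : G, z ≠ 1 ∧ ∀ g : G, g * z = z * g) : Covered G := by
  have h5 : Fact (Nat.Prime 5) := ⟨by norm_num⟩
  obtain ⟨P⟩ : Nonempty (Sylow 5 G) := inferInstance
  have hPcard : Nat.card P = 5 := by
    rw [Sylow.card_eq_multiplicity, hG]
    have h1 : (20 : ℕ).factorization 5 = 1 := by
      have h20 : (20 : ℕ) = 2 ^ 2 * 5 := by norm_num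
      rw [h20, Nat.factorization_mul (by norm_num) (by norm_num), Nat.factorization_pow]
      have h4 : (2 : ℕ).factorization 5 = 0 :=
        Nat.factorization_eq_zero_of_not_dvd (by norm_num)
      have h6 : (5 : ℕ).factorization 5 = 1 := (show Nat.Prime 5 by norm_num).factorization_self
      simp [h6, h4]
    rw [h1]
    norm_num
  have hidx : (P : Subgroup G).index = 4 := by
    have h1 := (P : Subgroup G).card_mul_index
    rw [hPcard, hG] at h1
    omega
  have hn5 : Nat.card (Sylow 5 G) = 1 := by
    have h1 : Nat.card (Sylow 5 G) ∣ 4 := by
      have := P.card_dvd_index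
      rwa [hidx] at this
    have h4 := card_sylow_modEq_one 5 G
    have h6 : Nat.card (Sylow 5 G) ≤ 4 := Nat.le_of_dvd (by norm_num) h1
    unfold Nat.ModEq at h4
    generalize Nat.card (Sylow 5 G) = n at *
    interval_cases n <;> simp_all
  have hsub : Subsingleton (Sylow 5 G) := (Nat.card_eq_one_iff_unique.1 hn5).1
  have hn : (P : Subgroup G).Normal := Sylow.normal_of_subsingleton P
  have hPcomm : ∀ a ∈ (P : Subgroup G), ∀ b ∈ (P : Subgroup G), a * b = b * a :=
    comm_of_card_prime (P : Subgroup G) 5 (by norm_num) hPcard
  have hPC : (P : Subgroup G) ≤ centralizer ((P : Subgroup G) : Set G) := by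
    intro x hx
    rw [mem_centralizer_iff]
    intro h hh
    exact hPcomm h hh x hx
  have hne : (centralizer ((P : Subgroup G) : Set G)).index ≠ 4 := by
    intro h4
    have hCcard : Nat.card (centralizer ((P : Subgroup G) : Set G)) = 5 := by
      have h1 := (centralizer ((P : Subgroup G) : Set G)).card_mul_index
      rw [h4, hG] at h1
      omega
    have hPeq : (P : Subgroup G) = centralizer ((P : Subgroup G) : Set G) :=
      eq_of_le_of_card_ge hPC (by rw [hCcard, hPcard])
    obtain ⟨z, hz1, hzc⟩ := hz
    have hzC : z ∈ centralizer ((P : Subgroup G) : Set G) := by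
      rw [mem_centralizer_iff]
      intro h _
      exact hzc h
    have hzP : z ∈ (P : Subgroup G) := by rw [hPeq]; exact hzC
    have hz1' : (⟨z, hzP⟩ : (P : Subgroup G)) ≠ 1 := by
      intro h
      exact hz1 (congrArg Subtype.val h)
    have htop : centralizer ((P : Subgroup G) : Set G) = ⊤ := by
      rw [eq_top_iff]
      intro g _
      rw [mem_centralizer_iff]
      intro y hy
      have hmem : (⟨y, hy⟩ : (P : Subgroup G)) ∈ zpowers (⟨z, hzP⟩ : (P : Subgroup G)) :=
        mem_zpowers_of_prime_card hPcard hz1'
      obtain ⟨k, hk⟩ := mem_zpowers_iff.1 hmem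
      have hk' : z ^ k = y := by
        have := congrArg Subtype.val hk
        simpa using this
      rw [← hk']
      have hc : Commute g z := hzc g
      exact (hc.zpow_right k).eq.symm
    rw [htop, index_top] at h4
    norm_num at h4
  exact covered_four_mul_prime 5 (by norm_num) (by rw [hG]) (P : Subgroup G) hPcard hne

end Vale.Agent.Lib.P329.helper24
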