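import Mathlib
import Vale.Agent.Lib.P329.helper24.SmallA
import Vale.Agent.Lib.P329.helper24.Small12

/-!
# P329 (helper24): every group of order less than 24 is covered, except the group of order 20
with trivial center

Prime powers (class at most three), `p * q`, `2 * p ^ 2`, twelve, and twenty with a nontrivial
central element.
-/

namespace Vale.Agent.Lib.P329.helper24

theorem small_group_covered {G : Type} [Group G] [Finite G] (h : Nat.card G < 24)
    (h20 : Nat.card G = 20 → ∃ z : G, z ≠ 1 ∧ ∀ g : G, g * z = z * g) : Covered G := by
  have hpos : 0 < Nat.card G := Nat.card_pos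
  generalize hn : Nat.card G = n at h h20 hpos
  interval_cases n
  · exact covered_prime_pow 2 Nat.prime_two 0 (by norm_num) (by rw [hn]; norm_num)
  · exact covered_prime_pow 2 Nat.prime_two 1 (by norm_num) (by rw [hn]; norm_num)
  · exact covered_prime_pow 3 Nat.prime_three 1 (by norm_num) (by rw [hn]; norm_num)
  · exact covered_prime_pow 2 Nat.prime_two 2 (by norm_num) (by rw [hn]; norm_num)
  · exact covered_prime_pow 5 (by norm_num) 1 (by norm_num) (by rw [hn]; norm_num)
  · exact covered_pq 3 2 (by norm_num) (by norm_num) (by norm_num) (by rw [hn])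
  · exact covered_prime_pow 7 (by norm_num) 1 (by norm_num) (by rw [hn]; norm_num)
  · exact covered_prime_pow 2 Nat.prime_two 3 (by norm_num) (by rw [hn]; norm_num)
  · exact covered_prime_pow 3 Nat.prime_three 2 (by norm_num) (by rw [hn]; norm_num)
  · exact covered_pq 5 2 (by norm_num) (by norm_num) (by norm_num) (by rw [hn])
  · exact covered_prime_pow 11 (by norm_num) 1 (by norm_num) (by rw [hn]; norm_num)
  · exact card12_covered hn
  · exact covered_prime_pow 13 (by norm_num) 1 (by norm_num) (by rw [hn]; norm_num)
  · exact covered_pq 7 2 (by norm_num) (by norm_num) (by norm_num) (by rw [hn])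
  · exact covered_pq 5 3 (by norm_num) (by norm_num) (by norm_num) (by rw [hn])
  · exact covered_prime_pow 2 Nat.prime_two 4 (by norm_num) (by rw [hn]; norm_num)
  · exact covered_prime_pow 17 (by norm_num) 1 (by norm_num) (by rw [hn]; norm_num)
  · exact covered_two_mul_sq 3 Nat.prime_three (by rw [hn]; norm_num)
  · exact covered_prime_pow 19 (by norm_num) 1 (by norm_num) (by rw [hn]; norm_num)
  · exact card20_covered hn (h20 rfl)
  · exact covered_pq 7 3 (by norm_num) (by norm_num) (by norm_num) (by rw [hn])
  · exact covered_pq 11 2 (by norm_num) (by norm_num) (by norm_num) (by rw [hn])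
  · exact covered_prime_pow 23 (by norm_num) 1 (by norm_num) (by rw [hn]; norm_num)

end Vale.Agent.Lib.P329.helper24
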