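import Vale.Agent.Lib.P329.helper24.BProdClosure

/-!
# P329 (helper24): pulling back a star through a tagging with non-recurring tags

Let `ν₁ : α → K₁` and `ν₂ : α → K₂` be morphisms to finite monoids, `K₁` being `R`-trivial
(`x s t = x` implies `x s = x`) and `K₂` being `L`-trivial (`t s y = y` implies `s y = y`).
The tagged word `tag y x u` attaches to every letter of `u` the image in `K₁` of what precedes
it (times `x` on the left) and the image in `K₂` of what follows it (times `y` on the right).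
If a language of tagged words has height at most `h`, so has its inverse image under tagging
(`HLE_tag`): for a star, cut the word at the places where the pair of tags changes; the pair can
only change a bounded number of times and never returns to an earlier value.
-/

namespace Vale.Agent.Lib.P329.helper24

open Vale.Agent.Lib.P329

section tags

variable {α K₁ K₂ : Type} [Monoid K₁] [Monoid K₂] (ν₁ : α → K₁) (ν₂ : α → K₂)

/-- The word `u` with every letter tagged by `x` times the image in `K₁` of what precedes it and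
by the image in `K₂` of what follows it times `y`. -/
def tag (y : K₂) : K₁ → List α → List (K₁ × α × K₂)
  | _, [] => []
  | x, c :: w => (x, c, pr ν₂ w * y) :: tag y (x * ν₁ c) w

theorem tag_append (y : K₂) (u v : List α) : ∀ x : K₁,
    tag ν₁ ν₂ y x (u ++ v) = tag ν₁ ν₂ (pr ν₂ v * y) x u ++ tag ν₁ ν₂ y (x * pr ν₁ u) v := by
  induction u with
  | nil => intro x; simp [tag, pr_nil]
  | cons c u ih =>
    intro x
    simp only [List.cons_append, tag, ih, pr_cons, pr_append, mul_assoc]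

theorem tag_eq_nil (y : K₂) (x : K₁) (u : List α) : tag ν₁ ν₂ y x u = [] ↔ u = [] := by
  cases u with
  | nil => simp [tag]
  | cons c u => simp [tag]

theorem tag_eq_append (y : K₂) : ∀ (w : List α) (x : K₁) (s t : List (K₁ × α × K₂)),
    tag ν₁ ν₂ y x w = s ++ t →
      ∃ u v, w = u ++ v ∧ tag ν₁ ν₂ (pr ν₂ v * y) x u = s ∧ tag ν₁ ν₂ y (x * pr ν₁ u) v = t := by
  intro w
  induction w with
  | nil =>
    intro x s t h
    have h' : s ++ t = [] := h.symm
    obtain ⟨rfl, rfl⟩ := List.append_eq_nil_iff.1 h'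
    exact ⟨[], [], rfl, rfl, rfl⟩
  | cons c w ih =>
    intro x s t h
    cases s with
    | nil =>
      refine ⟨[], c :: w, rfl, rfl, ?_⟩
      rw [pr_nil, mul_one]
      exact h
    | cons a s =>
      rw [tag, List.cons_append, List.cons.injEq] at h
      obtain ⟨h1, h2⟩ := h
      obtain ⟨u, v, rfl, h3, h4⟩ := ih (x * ν₁ c) s t h2
      refine ⟨c :: u, v, rfl, ?_, ?_⟩
      · rw [tag, h3, ← h1, pr_append, mul_assoc]
      · rw [pr_cons, ← mul_assoc]
        exact h4

theorem tag_singleton (y : K₂) (x : K₁) (u : List α) (t : K₁ × α × K₂) :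
    tag ν₁ ν₂ y x u = [t] ↔ u = [t.2.1] ∧ x = t.1 ∧ y = t.2.2 := by
  constructor
  · intro h
    cases u with
    | nil => simp [tag] at h
    | cons c u =>
      rw [tag, List.cons.injEq, tag_eq_nil] at h
      obtain ⟨h1, rfl⟩ := h
      rw [← h1]
      simp [pr_nil]
  · rintro ⟨rfl, rfl, rfl⟩
    simp [tag, pr_nil]

variable (L : Language (K₁ × α × K₂))

/-- Pieces that do not change the pair of tags `(x, y)`. -/
def stat (x : K₁) (y : K₂) : Language α :=
  {v | tag ν₁ ν₂ y x v ∈ L ∧ x * pr ν₁ v = x ∧ pr ν₂ v * y = y}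

/-- Pieces leading from the pair `(x, y₀)` to the pair `(x', y')`. -/
def midl (x : K₁) (y₀ : K₂) (x' : K₁) (y' : K₂) : Language α :=
  {v | tag ν₁ ν₂ y' x v ∈ L ∧ x * pr ν₁ v = x' ∧ pr ν₂ v * y' = y₀}

/-- Words whose tagged word is in the star of `L`, with a prescribed pair at the start. -/
def wl (x : K₁) (y₀ y : K₂) : Language α :=
  {u | tag ν₁ ν₂ y x u ∈ KStar.kstar L ∧ pr ν₂ u * y = y₀}

theorem kstar_append' {β : Type} {l : Language β} {a b : List β} (ha : a ∈ KStar.kstar l)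
    (hb : b ∈ KStar.kstar l) : a ++ b ∈ KStar.kstar l := by
  obtain ⟨S, rfl, hS⟩ := Language.mem_kstar.1 ha
  obtain ⟨S', rfl, hS'⟩ := Language.mem_kstar.1 hb
  refine Language.mem_kstar.2 ⟨S ++ S', by simp, ?_⟩
  intro y hy
  rcases List.mem_append.1 hy with h | h
  · exact hS y h
  · exact hS' y h

theorem stat_kstar (x : K₁) (y : K₂) : ∀ S : List (List α),
    (∀ v ∈ S, v ∈ stat ν₁ ν₂ L x y) →
      x * pr ν₁ S.flatten = x ∧ pr ν₂ S.flatten * y = y ∧
        tag ν₁ ν₂ y x S.flatten ∈ KStar.kstar L := by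
  intro S
  induction S with
  | nil =>
    intro _
    exact ⟨by simp [pr_nil], by simp [pr_nil], Language.nil_mem_kstar _⟩
  | cons v S ih =>
    intro hS
    obtain ⟨h1, h2, h3⟩ : v ∈ stat ν₁ ν₂ L x y := hS v (by simp)
    obtain ⟨h4, h5, h6⟩ := ih (fun v' hv' => hS v' (by simp [hv']))
    refine ⟨?_, ?_, ?_⟩
    · rw [List.flatten_cons, pr_append, ← mul_assoc, h2, h4]
    · rw [List.flatten_cons, pr_append, mul_assoc, h5, h3]
    · rw [List.flatten_cons, tag_append, h5, h2]
      exact kstar_cons h1 h6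

theorem stat_kstar' (x : K₁) (y : K₂) {s : List α}
    (hs : s ∈ KStar.kstar (stat ν₁ ν₂ L x y)) :
    x * pr ν₁ s = x ∧ pr ν₂ s * y = y ∧ tag ν₁ ν₂ y x s ∈ KStar.kstar L := by
  obtain ⟨S, rfl, hS⟩ := Language.mem_kstar.1 hs
  exact stat_kstar ν₁ ν₂ L x y S hS

theorem wl_fwd (y : K₂) : ∀ S : List (List (K₁ × α × K₂)), (∀ s ∈ S, s ∈ L) →
    ∀ (x : K₁) (u : List α), tag ν₁ ν₂ y x u = S.flatten →
      (pr ν₂ u * y = y ∧ u ∈ KStar.kstar (stat ν₁ ν₂ L x y)) ∨
      ∃ xy : K₁ × K₂, (xy ≠ (x, pr ν₂ u * y) ∧ ∃ s : K₁, x * s = xy.1) ∧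
        u ∈ KStar.kstar (stat ν₁ ν₂ L x (pr ν₂ u * y)) * midl ν₁ ν₂ L x (pr ν₂ u * y) xy.1 xy.2
          * wl ν₁ ν₂ L xy.1 xy.2 y := by
  intro S
  induction S with
  | nil =>
    intro _ x u hS
    have hu : u = [] := (tag_eq_nil ν₁ ν₂ y x u).1 hS
    subst hu
    left
    exact ⟨by simp [pr_nil], Language.nil_mem_kstar _⟩
  | cons s S ih =>
    intro hSL x u hS
    rw [List.flatten_cons] at hS
    obtain ⟨v, r, rfl, h3, h4⟩ := tag_eq_append ν₁ ν₂ y u x s S.flatten hS
    have hs : s ∈ L := hSL s (by simp)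
    have hSL' : ∀ z ∈ S, z ∈ L := fun z hz => hSL z (by simp [hz])
    have hr : r ∈ wl ν₁ ν₂ L (x * pr ν₁ v) (pr ν₂ r * y) y :=
      ⟨Language.mem_kstar.2 ⟨S, h4, hSL'⟩, rfl⟩
    have hy0 : pr ν₂ (v ++ r) * y = pr ν₂ v * (pr ν₂ r * y) := by
      rw [pr_append, mul_assoc]
    by_cases hxy : (x * pr ν₁ v, pr ν₂ r * y) = (x, pr ν₂ (v ++ r) * y)
    · -- stationary first piece
      obtain ⟨hx1, hy1⟩ := Prod.mk.inj hxy
      have hv : v ∈ stat ν₁ ν₂ L x (pr ν₂ (v ++ r) * y) := by
        refine ⟨?_, hx1, ?_⟩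
        · rw [← hy1, h3]
          exact hs
        · rw [← hy1, ← hy0, ← hy1]
      have ih' := ih hSL' (x * pr ν₁ v) r h4
      rw [hx1, hy1] at ih'
      rcases ih' with ⟨h5, h6⟩ | ⟨xy, hxy', h6⟩
      · left
        refine ⟨h5, ?_⟩
        rw [h5] at hv
        exact kstar_cons hv h6
      · right
        refine ⟨xy, hxy', ?_⟩
        obtain ⟨ab, hab, c, hc, rfl⟩ := Language.mem_mul.1 h6
        obtain ⟨a, ha, b, hb, rfl⟩ := Language.mem_mul.1 hab
        refine Language.mem_mul.2 ⟨(v ++ a) ++ b, Language.mem_mul.2 ⟨v ++ a, ?_, b, hb, rfl⟩,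
          c, hc, by simp⟩
        exact kstar_cons hv ha
    · right
      refine ⟨(x * pr ν₁ v, pr ν₂ r * y), ⟨hxy, pr ν₁ v, rfl⟩, ?_⟩
      refine Language.mem_mul.2 ⟨[] ++ v, Language.mem_mul.2 ⟨[], Language.nil_mem_kstar _, v,
        ⟨?_, rfl, hy0.symm⟩, rfl⟩, r, hr, by simp⟩
      show tag ν₁ ν₂ (pr ν₂ r * y) x v ∈ L
      rw [h3]
      exact hs

/-- The decomposition of `wl` at the first piece that changes the pair of tags. -/
theorem wl_iff (x : K₁) (y₀ y : K₂) (u : List α) :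
    u ∈ wl ν₁ ν₂ L x y₀ y ↔
      (y₀ = y ∧ u ∈ KStar.kstar (stat ν₁ ν₂ L x y)) ∨
      ∃ xy : K₁ × K₂, (xy ≠ (x, y₀) ∧ ∃ s : K₁, x * s = xy.1) ∧
        u ∈ KStar.kstar (stat ν₁ ν₂ L x y₀) * midl ν₁ ν₂ L x y₀ xy.1 xy.2
          * wl ν₁ ν₂ L xy.1 xy.2 y := by
  constructor
  · rintro ⟨h1, h2⟩
    obtain ⟨S, hS, hSL⟩ := Language.mem_kstar.1 h1
    subst h2
    exact wl_fwd ν₁ ν₂ L y S hSL x u hS
  · rintro (⟨rfl, h⟩ | ⟨xy, _, h⟩)
    · obtain ⟨_, h2, h3⟩ := stat_kstar' ν₁ ν₂ L x y₀ h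
      exact ⟨h3, h2⟩
    · obtain ⟨ab, hab, c, hc, rfl⟩ := Language.mem_mul.1 h
      obtain ⟨a, ha, b, hb, rfl⟩ := Language.mem_mul.1 hab
      obtain ⟨h1, h2, h3⟩ := stat_kstar' ν₁ ν₂ L x y₀ ha
      obtain ⟨h4, h5, h6⟩ : b ∈ midl ν₁ ν₂ L x y₀ xy.1 xy.2 := hb
      obtain ⟨h7, h8⟩ : c ∈ wl ν₁ ν₂ L xy.1 xy.2 y := hc
      have e1 : pr ν₂ (b ++ c) * y = y₀ := by
        rw [pr_append, mul_assoc, h8, h6]
      constructor
      · show tag ν₁ ν₂ y x (a ++ b ++ c) ∈ KStar.kstar L
        rw [List.append_assoc, tag_append, e1, h1, tag_append, h8, h5]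
        exact kstar_append' h3 (kstar_cons h4 h7)
      · show pr ν₂ (a ++ b ++ c) * y = y₀
        rw [List.append_assoc, pr_append, mul_assoc, e1, h2]

end tags

section heights

variable {α K₁ K₂ : Type} [Monoid K₁] [Monoid K₂] [Fintype K₁] [Fintype K₂]
  (ν₁ : α → K₁) (ν₂ : α → K₂)
  (hR : ∀ x s t : K₁, x * s * t = x → x * s = x)
  (hL : ∀ y s t : K₂, t * s * y = y → s * y = y)
  (h1 : ∀ p : K₁, HLE 0 ({u : List α | pr ν₁ u = p} : Language α))
  (h2 : ∀ p : K₂, HLE 0 ({u : List α | pr ν₂ u = p} : Language α))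

include h1 in
theorem HLE_left (x x' : K₁) : HLE 0 ({u : List α | x * pr ν₁ u = x'} : Language α) := by
  have := HLE.exists (n := 0) (fun p : K₁ => x * p = x')
    (fun p => ({u : List α | pr ν₁ u = p} : Language α)) (fun p _ => h1 p)
  refine this.congr ?_
  intro w
  constructor
  · intro hw
    exact ⟨pr ν₁ w, hw, rfl⟩
  · rintro ⟨p, hp, hw⟩
    have hw' : pr ν₁ w = p := hw
    show x * pr ν₁ w = x'
    rw [hw']
    exact hp

include h2 in
theorem HLE_right (y y' : K₂) : HLE 0 ({u : List α | pr ν₂ u * y = y'} : Language α) := by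
  have := HLE.exists (n := 0) (fun p : K₂ => p * y = y')
    (fun p => ({u : List α | pr ν₂ u = p} : Language α)) (fun p _ => h2 p)
  refine this.congr ?_
  intro w
  constructor
  · intro hw
    exact ⟨pr ν₂ w, hw, rfl⟩
  · rintro ⟨p, hp, hw⟩
    have hw' : pr ν₂ w = p := hw
    show pr ν₂ w * y = y'
    rw [hw']
    exact hp

open Classical in
/-- The size of `x K₁`. -/
noncomputable def upc (x : K₁) : ℕ := (Finset.univ.filter (fun z : K₁ => ∃ s, x * s = z)).card

open Classical in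
/-- The number of `z` with `y ∈ K₂ z`. -/
noncomputable def dnc (y : K₂) : ℕ := (Finset.univ.filter (fun z : K₂ => ∃ s, s * z = y)).card

include hR in
theorem upc_le (x s : K₁) : upc (x * s) ≤ upc x ∧ (x * s ≠ x → upc (x * s) < upc x) := by
  classical
  have hsub : (Finset.univ.filter (fun z : K₁ => ∃ t, x * s * t = z))
      ⊆ (Finset.univ.filter (fun z : K₁ => ∃ t, x * t = z)) := by
    intro z hz
    obtain ⟨t, ht⟩ := (Finset.mem_filter.1 hz).2
    exact Finset.mem_filter.2 ⟨Finset.mem_univ _, s * t, by rw [← mul_assoc]; exact ht⟩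
  refine ⟨Finset.card_le_card hsub, ?_⟩
  intro hne
  apply Finset.card_lt_card
  refine ⟨hsub, ?_⟩
  intro hsup
  have hx : x ∈ (Finset.univ.filter (fun z : K₁ => ∃ t, x * t = z)) :=
    Finset.mem_filter.2 ⟨Finset.mem_univ _, 1, mul_one x⟩
  obtain ⟨t, ht⟩ := (Finset.mem_filter.1 (hsup hx)).2
  exact hne (hR x s t ht)

include hL in
theorem dnc_le (y' s : K₂) : dnc y' ≤ dnc (s * y') ∧ (s * y' ≠ y' → dnc y' < dnc (s * y')) := by
  classical
  have hsub : (Finset.univ.filter (fun z : K₂ => ∃ t, t * z = y'))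
      ⊆ (Finset.univ.filter (fun z : K₂ => ∃ t, t * z = s * y')) := by
    intro z hz
    obtain ⟨t, ht⟩ := (Finset.mem_filter.1 hz).2
    exact Finset.mem_filter.2 ⟨Finset.mem_univ _, s * t, by rw [mul_assoc, ht]⟩
  refine ⟨Finset.card_le_card hsub, ?_⟩
  intro hne
  apply Finset.card_lt_card
  refine ⟨hsub, ?_⟩
  intro hsup
  have hy : s * y' ∈ (Finset.univ.filter (fun z : K₂ => ∃ t, t * z = s * y')) :=
    Finset.mem_filter.2 ⟨Finset.mem_univ _, 1, one_mul _⟩
  obtain ⟨t, ht⟩ := (Finset.mem_filter.1 (hsup hy)).2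
  -- `t * (s * y') = y'`
  exact hne (hL y' s t (by rw [mul_assoc]; exact ht))

include hR hL h1 h2 in
/-- The inverse image of a star under tagging. -/
theorem HLE_tag_star (L : Language (K₁ × α × K₂)) (h' : ℕ)
    (hLh : ∀ (x : K₁) (y : K₂), HLE h' ({u : List α | tag ν₁ ν₂ y x u ∈ L} : Language α))
    (x : K₁) (y : K₂) :
    HLE (h' + 1) ({u : List α | tag ν₁ ν₂ y x u ∈ KStar.kstar L} : Language α) := by
  have hstat : ∀ (x : K₁) (y : K₂), HLE h' (stat ν₁ ν₂ L x y) := by
    intro x y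
    exact ((hLh x y).inter (((HLE_left ν₁ h1 x x).mono (Nat.zero_le _)).inter
      ((HLE_right ν₂ h2 y y).mono (Nat.zero_le _)))).congr (fun _ => Iff.rfl)
  have hmid : ∀ (x : K₁) (y₀ : K₂) (x' : K₁) (y' : K₂), HLE h' (midl ν₁ ν₂ L x y₀ x' y') := by
    intro x y₀ x' y'
    exact ((hLh x y').inter (((HLE_left ν₁ h1 x x').mono (Nat.zero_le _)).inter
      ((HLE_right ν₂ h2 y' y₀).mono (Nat.zero_le _)))).congr (fun _ => Iff.rfl)
  have hw : ∀ (n : ℕ) (x : K₁) (y₀ : K₂), upc x + dnc y₀ ≤ n →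
      ∀ y : K₂, HLE (h' + 1) (wl ν₁ ν₂ L x y₀ y) := by
    intro n
    induction n with
    | zero =>
      intro x y₀ hn y
      classical
      have hx : x ∈ (Finset.univ.filter (fun z : K₁ => ∃ t, x * t = z)) :=
        Finset.mem_filter.2 ⟨Finset.mem_univ _, 1, mul_one x⟩
      have : 0 < upc x := Finset.card_pos.2 ⟨x, hx⟩
      omega
    | succ n ih =>
      intro x y₀ hn y
      have hA : HLE (h' + 1) ({u : List α | y₀ = y ∧
          u ∈ KStar.kstar (stat ν₁ ν₂ L x y)} : Language α) :=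
        ((HLE.const (α := α) (h' + 1) (y₀ = y)).inter (hstat x y).star).congr (fun _ => Iff.rfl)
      have hB := HLE.exists (n := h' + 1)
        (fun xy : K₁ × K₂ => xy ≠ (x, y₀) ∧ ∃ s : K₁, x * s = xy.1)
        (fun xy => KStar.kstar (stat ν₁ ν₂ L x y₀) * midl ν₁ ν₂ L x y₀ xy.1 xy.2
          * wl ν₁ ν₂ L xy.1 xy.2 y)
        (fun xy hxy => by
          by_cases hemp : ∃ v : List α, v ∈ midl ν₁ ν₂ L x y₀ xy.1 xy.2
          · obtain ⟨v, _, hv2, hv3⟩ := hemp
            have hlt : upc xy.1 + dnc xy.2 ≤ n := by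
              have hu := upc_le hR x (pr ν₁ v)
              have hd := dnc_le hL xy.2 (pr ν₂ v)
              rw [hv2] at hu
              rw [hv3] at hd
              by_cases hx : xy.1 = x
              · have hy : y₀ ≠ xy.2 := by
                  intro hy
                  exact hxy.1 (Prod.ext hx hy.symm)
                have := hd.2 hy
                have := hu.1
                omega
              · have hx' : xy.1 ≠ x := hx
                have := hu.2 hx'
                have := hd.1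
                omega
            exact (((hstat x y₀).star).mul ((hmid x y₀ xy.1 xy.2).mono (Nat.le_succ _))).mul
              (ih xy.1 xy.2 hlt y)
          · refine (HLE.zero (h' + 1)).congr ?_
            intro w
            constructor
            · intro hw
              obtain ⟨ab, hab, c, _, _⟩ := Language.mem_mul.1 hw
              obtain ⟨a, _, b, hb, _⟩ := Language.mem_mul.1 hab
              exact absurd ⟨b, hb⟩ hemp
            · intro hw
              exact absurd hw (Language.notMem_zero _))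
      refine (hA.add hB).congr ?_
      intro u
      rw [wl_iff]
      exact Iff.rfl
  have hfin := HLE.exists (n := h' + 1) (fun _ : K₂ => True)
    (fun y₀ => wl ν₁ ν₂ L x y₀ y) (fun y₀ _ => hw _ x y₀ le_rfl y)
  refine hfin.congr ?_
  intro u
  constructor
  · intro hu
    exact ⟨pr ν₂ u * y, trivial, hu, rfl⟩
  · rintro ⟨y₀, _, hu, _⟩
    exact hu

include hR hL h1 h2 in
/-- The inverse image under tagging of a language of height at most `h` has height at most
`h`. -/
theorem HLE_tag : ∀ (e : GRE (K₁ × α × K₂)) (x : K₁) (y : K₂),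
    HLE e.height ({u : List α | tag ν₁ ν₂ y x u ∈ e.lang} : Language α) := by
  intro e
  induction e with
  | zero =>
    intro x y
    refine (HLE.zero _).congr ?_
    intro w
    constructor
    · intro hw
      exact absurd hw (Language.notMem_zero _)
    · intro hw
      exact absurd hw (Language.notMem_zero _)
  | one =>
    intro x y
    refine (HLE.one _).congr ?_
    intro w
    constructor
    · intro hw
      have hw' : tag ν₁ ν₂ y x w = [] := (Language.mem_one _).1 hw
      exact (Language.mem_one _).2 ((tag_eq_nil ν₁ ν₂ y x w).1 hw')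
    · intro hw
      have hw' : w = [] := (Language.mem_one _).1 hw
      exact (Language.mem_one _).2 ((tag_eq_nil ν₁ ν₂ y x w).2 hw')
  | letter t =>
    intro x y
    by_cases hxy : x = t.1 ∧ y = t.2.2
    · refine (HLE.letter _ t.2.1).congr ?_
      intro w
      constructor
      · intro hw
        have hw' : tag ν₁ ν₂ y x w = [t] := hw
        exact ((tag_singleton ν₁ ν₂ y x w t).1 hw').1
      · intro hw
        have hw' : w = [t.2.1] := hw
        exact (tag_singleton ν₁ ν₂ y x w t).2 ⟨hw', hxy.1, hxy.2⟩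
    · refine (HLE.zero _).congr ?_
      intro w
      constructor
      · intro hw
        have hw' : tag ν₁ ν₂ y x w = [t] := hw
        exact absurd ((tag_singleton ν₁ ν₂ y x w t).1 hw').2 hxy
      · intro hw
        exact absurd hw (Language.notMem_zero _)
  | plus p q ihp ihq =>
    intro x y
    refine (((ihp x y).mono (le_max_left _ _)).add ((ihq x y).mono (le_max_right _ _))).congr ?_
    intro w
    exact Iff.rfl
  | comp p q ihp ihq =>
    intro x y
    let A : K₁ × K₂ → Language α := fun ab =>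
      {u : List α | u ∈ ({u : List α | pr ν₁ u = ab.1} : Language α) ∧
          u ∈ ({u : List α | tag ν₁ ν₂ (ab.2 * y) x u ∈ p.lang} : Language α)}
    let B : K₁ × K₂ → Language α := fun ab =>
      {u : List α | u ∈ ({u : List α | pr ν₂ u = ab.2} : Language α) ∧
          u ∈ ({u : List α | tag ν₁ ν₂ y (x * ab.1) u ∈ q.lang} : Language α)}
    have hh := HLE.exists (n := max p.height q.height) (fun _ : K₁ × K₂ => True)
      (fun ab => A ab * B ab)
      (fun ab _ => ((((h1 ab.1).mono (Nat.zero_le _)).inter (ihp x (ab.2 * y))).mono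
          (le_max_left _ _)).mul
        ((((h2 ab.2).mono (Nat.zero_le _)).inter (ihq (x * ab.1) y)).mono (le_max_right _ _)))
    refine hh.congr ?_
    intro w
    constructor
    · intro hw
      have hw' : tag ν₁ ν₂ y x w ∈ p.lang * q.lang := hw
      obtain ⟨s, hs, t, ht, hst⟩ := Language.mem_mul.1 hw'
      obtain ⟨u, v, rfl, h3, h4⟩ := tag_eq_append ν₁ ν₂ y w x s t hst.symm
      refine ⟨(pr ν₁ u, pr ν₂ v), trivial, Language.mem_mul.2 ⟨u, ⟨rfl, ?_⟩, v, ⟨rfl, ?_⟩, rfl⟩⟩
      · show tag ν₁ ν₂ (pr ν₂ v * y) x u ∈ p.lang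
        rw [h3]
        exact hs
      · show tag ν₁ ν₂ y (x * pr ν₁ u) v ∈ q.lang
        rw [h4]
        exact ht
    · rintro ⟨ab, _, hw⟩
      obtain ⟨u, ⟨hu1, hu2⟩, v, ⟨hv1, hv2⟩, rfl⟩ := Language.mem_mul.1 hw
      have hu1' : pr ν₁ u = ab.1 := hu1
      have hv1' : pr ν₂ v = ab.2 := hv1
      have hu2' : tag ν₁ ν₂ (ab.2 * y) x u ∈ p.lang := hu2
      have hv2' : tag ν₁ ν₂ y (x * ab.1) v ∈ q.lang := hv2
      show tag ν₁ ν₂ y x (u ++ v) ∈ p.lang * q.lang
      rw [tag_append, hu1', hv1']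
      exact Language.mem_mul.2 ⟨_, hu2', _, hv2', rfl⟩
  | neg p ihp =>
    intro x y
    exact (ihp x y).compl.congr (fun _ => Iff.rfl)
  | star p ihp =>
    intro x y
    exact HLE_tag_star ν₁ ν₂ hR hL h1 h2 p.lang p.height ihp x y

end heights

end Vale.Agent.Lib.P329.helper24
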