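import Vale.Agent.Lib.P329.helper24.Odometer

/-!
# P329 (helper24): scattered subword counts of patterns of length at most three
-/

set_option linter.unusedSimpArgs false

namespace Vale.Agent.Lib.P329.helper24

open Vale.Agent.Lib.P329

variable {α : Type} [DecidableEq α]

/-- Number of occurrences of `u` as a scattered subword of `w`. -/
def sc : List α → List α → ℕ
  | _, [] => 1
  | [], _ :: _ => 0
  | ℓ :: w, v :: u => sc w (v :: u) + if ℓ = v then sc w u else 0

theorem sc_nil (w : List α) : sc w ([] : List α) = 1 := by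
  cases w <;> rfl

theorem sc_cons (ℓ : α) (w : List α) (v : α) (u : List α) :
    sc (ℓ :: w) (v :: u) = sc w (v :: u) + if ℓ = v then sc w u else 0 := rfl

theorem count_sublists (w : List α) : ∀ u : List α, (w.sublists).count u = sc w u := by
  intro u
  rw [(List.sublists_perm_sublists' w).count_eq u]
  induction w generalizing u with
  | nil =>
    cases u with
    | nil => simp [sc]
    | cons v u => simp [sc]
  | cons ℓ w ih =>
    rw [List.sublists'_cons, List.count_append]
    cases u with
    | nil =>
      rw [ih]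
      have : List.count ([] : List α) (List.map (List.cons ℓ) (List.sublists' w)) = 0 := by
        apply List.count_eq_zero_of_not_mem
        simp
      rw [this, sc_nil, sc_nil]
    | cons v u =>
      rw [ih, sc_cons]
      by_cases h : ℓ = v
      · subst h
        rw [List.count_map_of_injective _ _ (List.cons_injective) u, ih, if_pos rfl]
      · have : List.count (v :: u) (List.map (List.cons ℓ) (List.sublists' w)) = 0 := by
          apply List.count_eq_zero_of_not_mem
          simp only [List.mem_map, not_exists, not_and]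
          intro x _ hx
          exact h (List.cons.inj hx).1
        rw [this, if_neg h]

/-- Triangular numbers `k (k - 1) / 2`. -/
def tri : ℕ → ℕ
  | 0 => 0
  | k + 1 => tri k + k

/-- Tetrahedral numbers `k (k - 1) (k - 2) / 6`. -/
def tet : ℕ → ℕ
  | 0 => 0
  | k + 1 => tet k + tri k

theorem tri_succ (k : ℕ) : tri (k + 1) = tri k + k := rfl

theorem tet_succ (k : ℕ) : tet (k + 1) = tet k + tri k := rfl

theorem tri_add (a b : ℕ) : tri (a + b) = tri a + tri b + a * b := by
  induction b with
  | zero => simp [tri]
  | succ b ih =>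
    rw [← add_assoc, tri_succ, ih, tri_succ]
    ring

theorem tri_sq (b : ℕ) : 2 * tri b + b = b * b := by
  induction b with
  | zero => rfl
  | succ b ih =>
    rw [tri_succ]
    linarith

theorem tri_odd (k : ℕ) : tri (2 * k + 1) = k * (2 * k + 1) := by
  induction k with
  | zero => rfl
  | succ k ih =>
    have : 2 * (k + 1) + 1 = (2 * k + 1) + 1 + 1 := by ring
    rw [this, tri_succ, tri_succ, ih]
    ring

theorem dvd_tri (n : ℕ) : n ∣ tri (2 * n) := by
  have h := tri_odd n
  rw [tri_succ] at h
  have h1 : n ∣ 2 * n + tri (2 * n) := by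
    rw [add_comm, h]
    exact Dvd.intro _ rfl
  exact (Nat.dvd_add_right (Dvd.intro_left 2 rfl)).1 h1

theorem tri_period (n : ℕ) (x : ℕ) :
    ((tri (x + 2 * n) : ℕ) : ZMod n) = ((tri x : ℕ) : ZMod n) := by
  obtain ⟨t, ht⟩ := dvd_tri n
  rw [tri_add, ht]
  push_cast
  simp

theorem tet_add (a b : ℕ) : tet (a + b) = tet a + tri a * b + a * tri b + tet b := by
  induction b with
  | zero => simp [tet, tri]
  | succ b ih =>
    rw [← add_assoc, tet_succ, ih, tri_add, tet_succ, tri_succ]
    ring

theorem tet_closed (k : ℕ) : tet (k + 2) * 6 = (k + 2) * (k + 1) * k := by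
  induction k with
  | zero => rfl
  | succ k ih =>
    have h1 := tri_sq (k + 2)
    have e : k + 1 + 2 = (k + 2) + 1 := by ring
    rw [e, tet_succ]
    nlinarith

theorem dvd_tet (n : ℕ) : n ∣ tet (6 * n) := by
  cases n with
  | zero => exact Dvd.intro 0 rfl
  | succ n =>
    have h := tet_closed (6 * n + 4)
    have e : 6 * n + 4 + 2 = 6 * (n + 1) := by ring
    rw [e] at h
    have h2 : tet (6 * (n + 1)) = (n + 1) * ((6 * n + 5) * (6 * n + 4)) := by
      have h3 : tet (6 * (n + 1)) * 6 = ((n + 1) * ((6 * n + 5) * (6 * n + 4))) * 6 := by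
        rw [h]; ring
      exact Nat.eq_of_mul_eq_mul_right (by norm_num) h3
    rw [h2]
    exact Dvd.intro _ rfl

theorem dvd_tri6 (n : ℕ) : n ∣ tri (6 * n) := by
  have h := dvd_tri (3 * n)
  have e : 2 * (3 * n) = 6 * n := by ring
  rw [e] at h
  exact Dvd.dvd.trans (Dvd.intro_left 3 rfl) h

theorem tet_period (n : ℕ) (x : ℕ) :
    ((tet (x + 6 * n) : ℕ) : ZMod n) = ((tet x : ℕ) : ZMod n) := by
  obtain ⟨t, ht⟩ := dvd_tet n
  obtain ⟨s, hs⟩ := dvd_tri6 n
  rw [tet_add, ht, hs]
  push_cast
  simp

theorem id_period (n : ℕ) (x : ℕ) :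
    (((fun i : ℕ => i) (x + 2 * n) : ℕ) : ZMod n) = (((fun i : ℕ => i) x : ℕ) : ZMod n) := by
  push_cast
  simp

theorem sq_period (n : ℕ) (x : ℕ) :
    (((fun i : ℕ => i * i) (x + 2 * n) : ℕ) : ZMod n)
      = (((fun i : ℕ => i * i) x : ℕ) : ZMod n) := by
  push_cast
  simp

theorem sc_single (x : α) (w : List α) : sc w [x] = cnt (fun ℓ => ℓ = x) w := by
  induction w with
  | nil => rfl
  | cons ℓ w ih =>
    rw [sc_cons, sc_nil, ih]
    simp only [cnt]
    ring

theorem sc_xx (x : α) (w : List α) : sc w [x, x] = tri (cnt (fun ℓ => ℓ = x) w) := by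
  induction w with
  | nil => rfl
  | cons ℓ w ih =>
    rw [sc_cons, sc_single, ih]
    by_cases h : ℓ = x
    · simp only [cnt, if_pos h]
      rw [add_comm 1, tri_succ]
    · simp only [cnt, if_neg h, zero_add, add_zero]

theorem sc_xxx (x : α) (w : List α) : sc w [x, x, x] = tet (cnt (fun ℓ => ℓ = x) w) := by
  induction w with
  | nil => rfl
  | cons ℓ w ih =>
    rw [sc_cons, sc_xx, ih]
    by_cases h : ℓ = x
    · simp only [cnt, if_pos h]
      rw [add_comm 1, tet_succ]
    · simp only [cnt, if_neg h, zero_add, add_zero]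

section identities

variable (x p : α) (hxp : x ≠ p)

include hxp

theorem mom_one (w : List α) : ∀ k,
    Mom (fun ℓ => ℓ = x) (fun ℓ => ℓ = p) (fun _ => 1) k w = cnt (fun ℓ => ℓ = p) w := by
  induction w with
  | nil => intro k; rfl
  | cons ℓ w ih =>
    intro k
    by_cases h1 : ℓ = x
    · subst h1
      simp only [Mom, cnt, if_true, if_neg hxp, zero_add]
      exact ih (k + 1)
    · by_cases h2 : ℓ = p
      · subst h2
        simp only [Mom, cnt, if_neg h1, if_true]
        rw [ih k]
      · simp only [Mom, cnt, if_neg h1, if_neg h2, zero_add]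
        exact ih k

theorem mom_id (w : List α) : ∀ k,
    Mom (fun ℓ => ℓ = x) (fun ℓ => ℓ = p) (fun i => i) k w
      = sc w [x, p] + k * cnt (fun ℓ => ℓ = p) w := by
  induction w with
  | nil => intro k; simp [Mom, cnt, sc]
  | cons ℓ w ih =>
    intro k
    by_cases h1 : ℓ = x
    · subst h1
      have e := ih (k + 1)
      simp only [Mom, cnt, sc_cons, sc_single, if_true, if_neg hxp, zero_add]
      linarith
    · by_cases h2 : ℓ = p
      · subst h2
        have e := ih k
        simp only [Mom, cnt, sc_cons, sc_single, if_neg h1, if_true, add_zero]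
        linarith
      · have e := ih k
        simp only [Mom, cnt, sc_cons, sc_single, if_neg h1, if_neg h2, zero_add, add_zero]
        linarith

theorem mom_tri (w : List α) : ∀ k,
    Mom (fun ℓ => ℓ = x) (fun ℓ => ℓ = p) tri k w
      = sc w [x, x, p] + k * sc w [x, p] + tri k * cnt (fun ℓ => ℓ = p) w := by
  induction w with
  | nil => intro k; simp [Mom, cnt, sc]
  | cons ℓ w ih =>
    intro k
    by_cases h1 : ℓ = x
    · subst h1
      have e := ih (k + 1)
      rw [tri_succ] at e
      simp only [Mom, cnt, sc_cons, sc_single, if_true, if_neg hxp, zero_add, add_zero]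
      linarith
    · by_cases h2 : ℓ = p
      · subst h2
        have e := ih k
        simp only [Mom, cnt, sc_cons, sc_single, if_neg h1, if_true, add_zero]
        linarith
      · have e := ih k
        simp only [Mom, cnt, sc_cons, sc_single, if_neg h1, if_neg h2, zero_add, add_zero]
        linarith

theorem id_xpx (w : List α) : ∀ a,
    sc w [x, p, x] + a * sc w [p, x] + Mom (fun ℓ => ℓ = x) (fun ℓ => ℓ = p) (fun i => i * i) a w
      = (cnt (fun ℓ => ℓ = x) w + a) * Mom (fun ℓ => ℓ = x) (fun ℓ => ℓ = p) (fun i => i) a w := by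
  induction w with
  | nil => intro a; simp [Mom, cnt, sc]
  | cons ℓ w ih =>
    intro a
    by_cases h1 : ℓ = x
    · subst h1
      have e := ih (a + 1)
      simp only [Mom, cnt, sc_cons, sc_single, if_true, if_neg hxp, zero_add, add_zero]
      linarith
    · by_cases h2 : ℓ = p
      · subst h2
        have e := ih a
        simp only [Mom, cnt, sc_cons, sc_single, if_neg h1, if_true, add_zero, zero_add]
        linarith
      · have e := ih a
        simp only [Mom, cnt, sc_cons, sc_single, if_neg h1, if_neg h2, zero_add, add_zero]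
        linarith

theorem id_pxx (w : List α) : ∀ b,
    sc w [p, x, x] + (cnt (fun ℓ => ℓ = x) w + b)
        * Mom (fun ℓ => ℓ = x) (fun ℓ => ℓ = p) (fun i => i) b w
      = tri (cnt (fun ℓ => ℓ = x) w + b) * cnt (fun ℓ => ℓ = p) w
        + Mom (fun ℓ => ℓ = x) (fun ℓ => ℓ = p) tri b w
        + Mom (fun ℓ => ℓ = x) (fun ℓ => ℓ = p) (fun i => i) b w := by
  induction w with
  | nil => intro b; simp [Mom, cnt, sc]
  | cons ℓ w ih =>
    intro b
    by_cases h1 : ℓ = x
    · subst h1
      have e := ih (b + 1)
      have h3 : 1 + cnt (fun ℓ' => ℓ' = ℓ) w + b = cnt (fun ℓ' => ℓ' = ℓ) w + (b + 1) := by ring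
      simp only [Mom, cnt, sc_cons, sc_single, sc_xx, if_true, if_neg hxp, zero_add, add_zero]
      rw [h3]
      linarith
    · by_cases h2 : ℓ = p
      · subst h2
        have e := ih b
        have e1 := tri_add (cnt (fun ℓ' => ℓ' = x) w) b
        have e2 := tri_sq b
        simp only [Mom, cnt, sc_cons, sc_single, sc_xx, if_neg h1, if_true, add_zero, zero_add]
        nlinarith
      · have e := ih b
        simp only [Mom, cnt, sc_cons, sc_single, sc_xx, if_neg h1, if_neg h2, zero_add, add_zero]
        linarith

end identities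

theorem id_xpy (x p y : α) (hxp : x ≠ p) (hyp : y ≠ p) (hxy : x ≠ y) (w : List α) : ∀ a b,
    sc w [x, p, y] + a * sc w [p, y]
        + Mom (fun ℓ => ℓ = x ∨ ℓ = y) (fun ℓ => ℓ = p) tri (a + b) w
      = (cnt (fun ℓ => ℓ = y) w + b) * Mom (fun ℓ => ℓ = x) (fun ℓ => ℓ = p) (fun i => i) a w
        + Mom (fun ℓ => ℓ = x) (fun ℓ => ℓ = p) tri a w
        + Mom (fun ℓ => ℓ = y) (fun ℓ => ℓ = p) tri b w := by
  induction w with
  | nil => intro a b; simp [Mom, cnt, sc]
  | cons ℓ w ih =>
    intro a b
    by_cases h1 : ℓ = x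
    · subst h1
      have e := ih (a + 1) b
      have h3 : a + 1 + b = a + b + 1 := by ring
      rw [h3] at e
      simp only [Mom, cnt, sc_cons, sc_single, if_true, true_or, if_neg hxp, if_neg hxy,
        zero_add, add_zero]
      linarith
    · by_cases h2 : ℓ = y
      · subst h2
        have e := ih a (b + 1)
        have h3 : a + (b + 1) = a + b + 1 := by ring
        have h4 : 1 + cnt (fun ℓ' => ℓ' = ℓ) w + b = cnt (fun ℓ' => ℓ' = ℓ) w + (b + 1) := by ring
        rw [h3] at e
        simp only [Mom, cnt, sc_cons, sc_single, if_true, or_true, if_neg hyp, if_neg h1,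
          zero_add, add_zero]
        rw [h4]
        linarith
      · by_cases h3 : ℓ = p
        · subst h3
          have e := ih a b
          have e1 := tri_add a b
          have hor : ¬ (ℓ = x ∨ ℓ = y) := by
            rintro (h | h)
            · exact h1 h
            · exact h2 h
          simp only [Mom, cnt, sc_cons, sc_single, if_neg h1, if_neg h2, if_neg hor, if_true,
            zero_add, add_zero]
          nlinarith
        · have e := ih a b
          have hor : ¬ (ℓ = x ∨ ℓ = y) := by
            rintro (h | h)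
            · exact h1 h
            · exact h2 h
          simp only [Mom, cnt, sc_cons, sc_single, if_neg h1, if_neg h2, if_neg h3, if_neg hor,
            zero_add, add_zero]
          linarith

end Vale.Agent.Lib.P329.helper24
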