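import Vale.Agent.Lib.P329.helper24.Counter
import Vale.Agent.Lib.P329.helper24.Odometer

/-!
# P329 (helper24): phase counts along a walk on `ZMod q` are good

For a prime `q`, weights `wt : α → ZMod q` and a letter `a`, the number of occurrences of `a`
read at a given phase is, modulo any `N`, determined by finitely many languages of generalized
star height at most one.  The proof counts blocks of the walk with the block automaton of
`BlockDefs`, once with each of its two kinds of events.
-/

namespace Vale.Agent.Lib.P329.helper24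

open Vale.Agent.Lib.P329

variable {α : Type} {q : ℕ}

theorem bstep_fst (i : ZMod q) (s : ZMod q × Fin 3) (k : Option (ZMod q)) :
    (bstep i s k).1 = s.1 + kwt i k := by
  unfold bstep
  split_ifs with h1 h2 h3 <;> simp_all

theorem bland1 (i : ZMod q) (s : ZMod q × Fin 3) (k : Option (ZMod q))
    (h : bev1 i s k = true) : bstep i s k = (0, 2) := by
  unfold bev1 at h
  unfold bstep
  split_ifs at h ⊢ with h1 h2 h3 <;> simp_all

theorem bland2 (i : ZMod q) (s : ZMod q × Fin 3) (k : Option (ZMod q))
    (h : bev2 i s k = true) : bstep i s k = (0, 2) := by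
  unfold bev2 at h
  unfold bstep
  split_ifs at h ⊢ with h1 h2 h3 <;> simp_all

/-- The local counting identity of the block automaton. -/
theorem blocal (i : ZMod q) (s : ZMod q × Fin 3) (k : Option (ZMod q)) :
    (if k = none ∧ s.1 = 0 then 1 else 0) + (if bev1 i s k then 1 else 0) + btail s
      = (if k = none ∧ s.1 + i = 0 ∧ i ≠ 0 then 1 else 0) + (if bev2 i s k then 1 else 0)
        + btail (bstep i s k) := by
  obtain ⟨j, μ⟩ := s
  by_cases hj : j = 0
  · subst hj
    cases k with
    | none =>
      by_cases hi : i = 0
      · simp [bev1, bev2, bstep, btail, kwt, hi]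
      · simp [bev1, bev2, bstep, btail, kwt, hi]
    | some j' =>
      by_cases hj' : j' = 0
      · simp [bev1, bev2, bstep, btail, kwt, hj']
      · simp [bev1, bev2, bstep, btail, kwt, hj']
  · cases k with
    | none =>
      by_cases h2 : j + i = 0
      · have hi : i ≠ 0 := by
          rintro rfl
          exact hj (by simpa using h2)
        fin_cases μ <;> simp [bev1, bev2, bstep, btail, kwt, hj, h2, hi]
      · fin_cases μ <;> simp [bev1, bev2, bstep, btail, kwt, hj, h2]
    | some j' =>
      by_cases h2 : j + j' = 0
      · fin_cases μ <;> simp [bev1, bev2, bstep, btail, kwt, hj, h2]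
      · fin_cases μ <;> simp [bev1, bev2, bstep, btail, kwt, hj, h2]
        split_ifs <;> decide

theorem rep_map {β : Type} (g : α → β) (u : List α) (k : ℕ) :
    (rep k u).map g = rep k (u.map g) := by
  induction k with
  | zero => rfl
  | succ k ih => rw [rep, List.map_append, ih, rep]

theorem CounterFree.comap {S β : Type} (δ : S → β → S) (g : α → β) (h : CounterFree δ) :
    CounterFree (fun s c => δ s (g c)) := by
  intro u
  obtain ⟨k, hk⟩ := h (u.map g)
  refine ⟨k, fun s => ?_⟩
  have e : ∀ v : List α, run (fun s c => δ s (g c)) s v = run δ s (v.map g) :=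
    fun v => run_map δ g s v
  rw [e, e, rep_map, rep_map]
  exact hk s

section zone

variable [DecidableEq α] (wt : α → ZMod q) (a : α)

/-- The class of a letter: the marked letter `a`, or the weight of any other letter. -/
def kcls (c : α) : Option (ZMod q) := if c = a then none else some (wt c)

theorem kwt_kcls (c : α) : kwt (wt a) (kcls wt a c) = wt c := by
  unfold kcls
  split_ifs with h
  · subst h
    rfl
  · rfl

theorem kcls_eq_none (c : α) : kcls wt a c = none ↔ c = a := by
  unfold kcls
  split_ifs with h <;> simp [h]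

/-- The block automaton read on the letters of `α`. -/
def zstep (s : ZMod q × Fin 3) (c : α) : ZMod q × Fin 3 := bstep (wt a) s (kcls wt a c)

/-- The first kind of events, on the letters of `α`. -/
def zev1 (s : ZMod q × Fin 3) (c : α) : Bool := bev1 (wt a) s (kcls wt a c)

/-- The second kind of events, on the letters of `α`. -/
def zev2 (s : ZMod q × Fin 3) (c : α) : Bool := bev2 (wt a) s (kcls wt a c)

theorem zkill1 : kill (zstep wt a) (zev1 wt a)
    = fun o c => kill (bstep (wt a)) (bev1 (wt a)) o (kcls wt a c) := by
  funext o c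
  cases o <;> rfl

theorem zkill2 : kill (zstep wt a) (zev2 wt a)
    = fun o c => kill (bstep (wt a)) (bev2 (wt a)) o (kcls wt a c) := by
  funext o c
  cases o <;> rfl

/-- The counting identity along a run of the block automaton. -/
theorem zone_identity (x : ZMod q) (w : List α) :
    ∀ (acc : ZMod q) (s : ZMod q × Fin 3), s.1 = acc - x →
      zcAux wt a x acc w + ecount (zstep wt a) (zev1 wt a) s w + btail s
        = (if wt a ≠ 0 then zcAux wt a (x - wt a) acc w else 0)
          + ecount (zstep wt a) (zev2 wt a) s w + btail (run (zstep wt a) s w) := by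
  induction w with
  | nil =>
    intro acc s _
    simp [zcAux, ecount]
  | cons c w ih =>
    intro acc s hs
    have hs' : (zstep wt a s c).1 = acc + wt c - x := by
      unfold zstep
      rw [bstep_fst, kwt_kcls, hs]
      ring
    have h1 := ih (acc + wt c) (zstep wt a s c) hs'
    have h2 := blocal (wt a) s (kcls wt a c)
    have e1 : (if c = a ∧ acc = x then 1 else 0)
        = (if kcls wt a c = none ∧ s.1 = 0 then 1 else 0) := by
      have : (c = a ∧ acc = x) ↔ (kcls wt a c = none ∧ s.1 = 0) := by
        rw [kcls_eq_none, hs, sub_eq_zero]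
      simp only [this]
    have e2 : (if c = a ∧ acc = x - wt a then 1 else 0)
        = (if kcls wt a c = none ∧ s.1 + wt a = 0 then 1 else 0) := by
      have : (c = a ∧ acc = x - wt a) ↔ (kcls wt a c = none ∧ s.1 + wt a = 0) := by
        rw [kcls_eq_none, hs]
        constructor
        · rintro ⟨h3, h4⟩
          exact ⟨h3, by rw [h4]; ring⟩
        · rintro ⟨h3, h4⟩
          refine ⟨h3, ?_⟩
          have : acc = acc - x + wt a + (x - wt a) := by ring
          rw [this, h4, zero_add]
      simp only [this]
    simp only [zcAux, ecount, run_cons]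
    rw [e1, e2]
    have h3 : zev1 wt a s c = bev1 (wt a) s (kcls wt a c) := rfl
    have h4 : zev2 wt a s c = bev2 (wt a) s (kcls wt a c) := rfl
    rw [h3, h4]
    have h5 : zstep wt a s c = bstep (wt a) s (kcls wt a c) := rfl
    rw [h5] at h1 ⊢
    by_cases hi : wt a = 0
    · simp only [hi, ne_eq, not_true_eq_false, if_false, and_false] at h1 h2 ⊢
      omega
    · have hi' : wt a ≠ 0 := hi
      simp only [hi', ne_eq, not_false_eq_true, if_true, and_true] at h1 h2 ⊢
      omega

theorem zc_sum [Fintype (ZMod q)] (w : List α) : ∀ acc : ZMod q,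
    ∑ x : ZMod q, zcAux wt a x acc w = cnt (fun c => c = a) w := by
  induction w with
  | nil =>
    intro acc
    simp [zcAux, cnt]
  | cons c w ih =>
    intro acc
    simp only [zcAux, cnt, Finset.sum_add_distrib, ih]
    congr 1
    by_cases hc : c = a
    · simp [hc]
    · simp [hc]

end zone

/-- If a function on `ZMod q` has the same increments along a nonzero step `i` as another one
and the same total, then the two functions agree up to the factor `q`. -/
theorem step_det [Fact q.Prime] {R : Type} [CommRing R] (i : ZMod q) (hi : i ≠ 0)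
    (f f' : ZMod q → R) (hd : ∀ y, f y - f (y - i) = f' y - f' (y - i))
    (hs : ∑ y, f y = ∑ y, f' y) (x : ZMod q) : (q : R) * f x = (q : R) * f' x := by
  have hg : ∀ (k : ℕ) (y : ZMod q), f y - f' y = f (y - k * i) - f' (y - k * i) := by
    intro k
    induction k with
    | zero => intro y; simp
    | succ k ih =>
      intro y
      rw [ih y]
      have h1 := hd (y - k * i)
      have e : y - ((k + 1 : ℕ) : ZMod q) * i = y - k * i - i := by push_cast; ring
      rw [e]
      linear_combination h1
  have hc : ∀ y, f y - f' y = f x - f' x := by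
    intro y
    have h1 := hg ((y - x) * i⁻¹).val y
    rw [ZMod.natCast_zmod_val, mul_assoc, inv_mul_cancel₀ hi, mul_one, sub_sub_cancel] at h1
    exact h1
  have h2 : ∑ y : ZMod q, (f y - f' y) = (q : R) * (f x - f' x) := by
    rw [Finset.sum_congr rfl (fun y _ => hc y), Finset.sum_const, Finset.card_univ, ZMod.card,
      nsmul_eq_mul]
  rw [Finset.sum_sub_distrib, hs, sub_self] at h2
  linear_combination -h2

theorem cast_cancel (q N m m' : ℕ) (hq : q ≠ 0)
    (h : ((q : ZMod (q * N)) * (m : ZMod (q * N))) = (q : ZMod (q * N)) * (m' : ZMod (q * N))) :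
    (m : ZMod N) = (m' : ZMod N) := by
  rw [← Nat.cast_mul, ← Nat.cast_mul, ZMod.natCast_eq_natCast_iff] at h
  rw [ZMod.natCast_eq_natCast_iff]
  exact Nat.ModEq.mul_left_cancel' hq h

section good

variable [Fact q.Prime] [Fintype α] [DecidableEq α]
  (hcf1 : ∀ i : ZMod q, CounterFree (kill (bstep i) (bev1 i)))
  (hcf2 : ∀ i : ZMod q, CounterFree (kill (bstep i) (bev2 i)))
  (wt : α → ZMod q) (a : α)

include hcf1 hcf2

/-- The difference of two phase counts is good, modulo any `M`. -/
theorem good_diff (M : ℕ) [NeZero M] (x : ZMod q) :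
    Good (fun w : List α => ((zc wt a x w : ℕ) : ZMod M)
      - (if wt a ≠ 0 then ((zc wt a (x - wt a) w : ℕ) : ZMod M) else 0)) := by
  have : NeZero q := ⟨(Fact.out : q.Prime).ne_zero⟩
  have g1 := Good.of_counterfree (zstep wt a) (zev1 wt a) (0, 2)
    (fun s c h => bland1 (wt a) s _ h)
    (by rw [zkill1]; exact CounterFree.comap _ _ (hcf1 (wt a))) M (-x, 2)
  have g2 := Good.of_counterfree (zstep wt a) (zev2 wt a) (0, 2)
    (fun s c h => bland2 (wt a) s _ h)
    (by rw [zkill2]; exact CounterFree.comap _ _ (hcf2 (wt a))) M (-x, 2)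
  refine ((g1.pair g2).comp
    (fun p => p.2.2 + ((btail p.2.1 : ℕ) : ZMod M) - p.1.2)).of_det _ ?_
  intro w w' h
  have key : ∀ v : List α, ((zc wt a x v : ℕ) : ZMod M)
      - (if wt a ≠ 0 then ((zc wt a (x - wt a) v : ℕ) : ZMod M) else 0)
      = ((ecount (zstep wt a) (zev2 wt a) (-x, 2) v : ℕ) : ZMod M)
        + ((btail (run (zstep wt a) (-x, 2) v) : ℕ) : ZMod M)
        - ((ecount (zstep wt a) (zev1 wt a) (-x, 2) v : ℕ) : ZMod M) := by
    intro v
    have h1 := zone_identity wt a x v 0 (-x, 2) (by simp)
    have h2 : btail ((-x, 2) : ZMod q × Fin 3) = 0 := by simp [btail]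
    rw [h2, add_zero] at h1
    have h3 := congrArg (fun n : ℕ => (n : ZMod M)) h1
    simp only [Nat.cast_add] at h3
    by_cases hi : wt a = 0
    · simp only [hi, ne_eq, not_true_eq_false, if_false, Nat.cast_zero, zero_add, sub_zero]
        at h3 ⊢
      unfold zc
      linear_combination h3
    · have hi' : wt a ≠ 0 := hi
      simp only [hi', ne_eq, not_false_eq_true, if_true] at h3 ⊢
      unfold zc
      linear_combination h3
  rw [key w, key w']
  exact h

/-- Phase counts are good modulo every `N`. -/
theorem zone_good (N : ℕ) [NeZero N] (x : ZMod q) : GoodN N (zc wt a x) := by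
  have hq : q ≠ 0 := (Fact.out : q.Prime).ne_zero
  have : NeZero q := ⟨hq⟩
  by_cases hi : wt a = 0
  · have h1 := good_diff hcf1 hcf2 wt a N x
    simp only [hi, ne_eq, not_true_eq_false, if_false, sub_zero] at h1
    exact h1
  · have : NeZero (q * N) := ⟨Nat.mul_ne_zero hq (NeZero.ne N)⟩
    have hi' : wt a ≠ 0 := hi
    have h1 : Good (fun w : List α => fun y : ZMod q => ((zc wt a y w : ℕ) : ZMod (q * N))
        - ((zc wt a (y - wt a) w : ℕ) : ZMod (q * N))) := by
      refine Good.pi _ (fun y => ?_)
      have h2 := good_diff hcf1 hcf2 wt a (q * N) y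
      simp only [hi', ne_eq, not_false_eq_true, if_true] at h2
      exact h2
    have h2 : GoodN (q * N) (fun w : List α => cnt (fun c => c = a) w) :=
      good_cnt _ (q * N) (Nat.pos_of_ne_zero (NeZero.ne _))
    refine (h1.pair h2).of_det _ ?_
    intro w w' h
    have h3 := congrArg Prod.fst h
    have h4 := congrArg Prod.snd h
    simp only at h3 h4
    have hs : ∀ v : List α, ∑ y : ZMod q, ((zc wt a y v : ℕ) : ZMod (q * N))
        = ((cnt (fun c => c = a) v : ℕ) : ZMod (q * N)) := by
      intro v
      rw [← Nat.cast_sum]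
      unfold zc
      rw [zc_sum]
    have h5 := step_det (wt a) hi' (fun y => ((zc wt a y w : ℕ) : ZMod (q * N)))
      (fun y => ((zc wt a y w' : ℕ) : ZMod (q * N))) (fun y => congrFun h3 y)
      (by rw [hs w, hs w']; exact h4) x
    exact cast_cancel q N _ _ hq h5

end good

end Vale.Agent.Lib.P329.helper24
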